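import Vale.Agent.P335.Graph

namespace Vale.Agent.P335

open Finset

variable {V : Type} [Fintype V] [DecidableEq V] {d : V → ℕ}

open Classical in
/-- The extended row of the vertex `a`. -/
noncomputable def rowX (T : V → Prop) (a b c : V) (G : SimpleGraph V) : Finset (Option V) :=
  univ.filter fun o => o.elim (¬ G.Adj b c) fun z => ¬ T z ∧ G.Adj a z

theorem none_mem_rowX {T : V → Prop} {a b c : V} {G : SimpleGraph V} :
    none ∈ rowX T a b c G ↔ ¬ G.Adj b c := by simp [rowX]

theorem some_mem_rowX {T : V → Prop} {a b c z : V} {G : SimpleGraph V} :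
    some z ∈ rowX T a b c G ↔ ¬ T z ∧ G.Adj a z := by simp [rowX]

theorem ind_none {T : V → Prop} {a b c : V} {G : SimpleGraph V} :
    (ind (rowX T a b c G) none : ℤ) = 1 - ad G b c := by
  rcases ind_cases (rowX T a b c G) none with ⟨p, q⟩ | ⟨p, q⟩ <;>
    rcases ad_cases G b c with ⟨p', q'⟩ | ⟨p', q'⟩ <;> rw [none_mem_rowX] at p <;>
    first | omega | tauto

theorem ind_some {T : V → Prop} {a b c z : V} {G : SimpleGraph V} (h : ¬ T z) :
    (ind (rowX T a b c G) (some z) : ℤ) = ad G a z := by
  rcases ind_cases (rowX T a b c G) (some z) with ⟨p, q⟩ | ⟨p, q⟩ <;>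
    rcases ad_cases G a z with ⟨p', q'⟩ | ⟨p', q'⟩ <;> rw [some_mem_rowX] at p <;>
    first | omega | tauto

theorem ind_some' {T : V → Prop} {a b c z : V} {G : SimpleGraph V} (h : T z) :
    ind (rowX T a b c G) (some z) = 0 := ind_neg fun h' => (some_mem_rowX.1 h').1 h

theorem sum_three {u v w : V} (h1 : u ≠ v) (h2 : u ≠ w) (h3 : v ≠ w) (F : V → ℤ)
    (h : ∀ e, e ≠ u → e ≠ v → e ≠ w → F e = 0) : ∑ e, F e = F u + F v + F w := by
  rw [← Finset.sum_subset (Finset.subset_univ {u, v, w}) fun e _ he => h e (by grind) (by grind)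
    (by grind), Finset.sum_insert (by grind), Finset.sum_pair h3, add_assoc]

theorem card_rowX {T : V → Prop} {a b c : V} (h1 : a ≠ b) (h2 : a ≠ c) (h3 : b ≠ c)
    (hT : ∀ z, T z ↔ z = a ∨ z = b ∨ z = c) (G : SimpleGraph V) :
    ((rowX T a b c G).card : ℤ) = dg G a + 1 - (ad G a b + ad G a c + ad G b c) := by
  have e : ∑ z, (ad G a z - (ind (rowX T a b c G) (some z) : ℤ)) = ad G a b + ad G a c := by
    rw [sum_three h1 h2 h3 _ fun e e1 e2 e3 => by rw [ind_some (by grind), sub_self],
      ind_some' (by grind), ind_some' (by grind), ind_some' (by grind), ad_self]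
    simp
  rw [← sum_ind, Fintype.sum_option, Nat.cast_add, Nat.cast_sum, ind_none]
  rw [Finset.sum_sub_distrib] at e
  unfold dg
  linarith

theorem rel_BP_iff {T : V → Prop} {a b c : V} (h1 : a ≠ b) (h2 : a ≠ c) (h3 : b ≠ c)
    (hT : ∀ z, T z ↔ z = a ∨ z = b ∨ z = c) (ω₀ ω ω' : omega d)
    (h : rel d (fun p q => T p ∨ T q) ω₀ ω) :
    rel d (BP b c) ω ω' ↔ rel d (fun p q => T p ∨ T q) ω₀ ω' ∧
      rowX T a b c ω.1 = rowX T a b c ω'.1 := by
  constructor
  · intro h'
    refine ⟨(rel d _).trans' h (rel_mono (fun p q => by unfold BP; grind) _ _ h'), ?_⟩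
    ext o
    rcases o with _ | z
    · rw [none_mem_rowX, none_mem_rowX, h' b c (by unfold BP; grind)]
    · rw [some_mem_rowX, some_mem_rowX]
      exact and_congr_right fun hz => h' a z (by unfold BP; grind)
  · rintro ⟨k, e⟩ p q hb
    have k' := (rel d _).trans' ((rel d _).symm' h) k
    have e1 : ω.1.Adj b c ↔ ω'.1.Adj b c := by
      have := none_mem_rowX (T := T) (a := a) (b := b) (c := c) (G := ω.1)
      rw [e, none_mem_rowX] at this
      tauto
    have e2 : ∀ z, ¬ T z → (ω.1.Adj a z ↔ ω'.1.Adj a z) := by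
      intro z hz
      have := some_mem_rowX (T := T) (a := a) (b := b) (c := c) (G := ω.1) (z := z)
      rw [e, some_mem_rowX] at this
      tauto
    by_cases hpq : p = q
    · simp [hpq]
    have : (p = b ∧ q = c) ∨ (p = c ∧ q = b) ∨ (p = a ∧ ¬ T q) ∨ (q = a ∧ ¬ T p) ∨
        ¬ (T p ∨ T q) := by
      unfold BP at hb
      grind
    rcases this with ⟨rfl, rfl⟩ | ⟨rfl, rfl⟩ | ⟨rfl, z⟩ | ⟨rfl, z⟩ | z
    · exact e1
    · rw [SimpleGraph.adj_comm, ω'.1.adj_comm]
      exact e1
    · exact e2 _ z
    · rw [SimpleGraph.adj_comm, ω'.1.adj_comm]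
      exact e2 _ z
    · exact k' p q z

set_option maxHeartbeats 1000000 in
theorem graph_triple {u v w : V} (h1 : u ≠ v) (h2 : u ≠ w) (h3 : v ≠ w) (f : omega d → ℝ) :
    0 ≤ ip (co (rel d (BP v w)) f) (co (rel d (BP u w)) f) +
      ip (co (rel d (BP v w)) f) (co (rel d (BP u v)) f) +
      ip (co (rel d (BP u w)) f) (co (rel d (BP u v)) f) := by
  classical
  obtain ⟨T, hT⟩ : ∃ T : V → Prop, ∀ z, T z ↔ z = u ∨ z = v ∨ z = w := ⟨_, fun z => Iff.rfl⟩
  have hT2 : ∀ z, T z ↔ z = v ∨ z = u ∨ z = w := by grind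
  have hT3 : ∀ z, T z ↔ z = w ∨ z = u ∨ z = v := by grind
  refine triple_ineq _ _ _ (rel d fun p q => T p ∨ T q) (fun ω => rowX T u v w ω.1)
    (fun ω => rowX T v u w ω.1) (fun ω => rowX T w u v ω.1)
    (fun ω o => ind (rowX T u v w ω.1) o + ind (rowX T v u w ω.1) o + ind (rowX T w u v ω.1) o)
    (fun ω => (rel d _).refl' ω) (rel_BP_iff h1 h2 h3 hT) (rel_BP_iff h1.symm h3 h2 hT2)
    (rel_BP_iff h2.symm h3.symm h1 hT3) (fun ω₀ => ?_) f
  have colz : ∀ (G G' : SimpleGraph V) z, ¬ T z → (∀ e, ¬ T e → (G.Adj z e ↔ G'.Adj z e)) →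
      dg G z - dg G' z = ad G u z + ad G v z + ad G w z - (ad G' u z + ad G' v z + ad G' w z) := by
    intro G G' z hz h
    rw [dg, dg, ← Finset.sum_sub_distrib, sum_three h1 h2 h3 _ fun e e1 e2 e3 => by
      rw [ad_congr (h e (by grind)), sub_self], ad_comm G z, ad_comm G z, ad_comm G z,
      ad_comm G' z, ad_comm G' z, ad_comm G' z]
    ring
  have cs : ∀ ω : omega d, rel d (fun p q => T p ∨ T q) ω₀ ω → ∀ z,
      ind (rowX T u v w ω.1) (some z) + ind (rowX T v u w ω.1) (some z) +
        ind (rowX T w u v ω.1) (some z) = ind (rowX T u v w ω₀.1) (some z) +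
        ind (rowX T v u w ω₀.1) (some z) + ind (rowX T w u v ω₀.1) (some z) := by
    intro ω hω z
    by_cases hz : T z
    · simp only [ind_some' hz]
    · have := colz ω₀.1 ω.1 z hz fun e he => hω z e fun h => h.elim hz he
      rw [dg_eq, dg_eq] at this
      zify
      simp only [ind_some hz]
      omega
  have mm : ∀ ω : omega d, rel d (fun p q => T p ∨ T q) ω₀ ω →
      ad ω.1 u v + ad ω.1 u w + ad ω.1 v w = ad ω₀.1 u v + ad ω₀.1 u w + ad ω₀.1 v w := by
    have tot : ∀ ω : omega d, ∑ z, ((ind (rowX T u v w ω.1) (some z) +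
        ind (rowX T v u w ω.1) (some z) + ind (rowX T w u v ω.1) (some z) : ℕ) : ℤ) =
        d u + d v + d w - 2 * (ad ω.1 u v + ad ω.1 u w + ad ω.1 v w) := by
      intro ω
      have a1 := card_rowX h1 h2 h3 hT ω.1
      have a2 := card_rowX h1.symm h3 h2 hT2 ω.1
      have a3 := card_rowX h2.symm h3.symm h1 hT3 ω.1
      rw [← sum_ind, Fintype.sum_option, Nat.cast_add, Nat.cast_sum, ind_none, dg_eq] at a1 a2 a3
      rw [ad_comm ω.1 v u] at a2
      rw [ad_comm ω.1 w u, ad_comm ω.1 w v] at a3
      simp only [Nat.cast_add, Finset.sum_add_distrib]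
      linarith
    intro ω hω
    have a := tot ω
    have b := tot ω₀
    simp only [cs ω hω] at a
    omega
  refine ⟨fun ω ω' => ?_, fun ω ω' => ?_, fun ω ω' => ?_, fun ω o => ?_, fun ω ω' a b c => ?_,
    fun ω S1 S2 S3 c1 c2 c3 hs => ?_⟩
  · zify
    rw [card_rowX h1 h2 h3 hT, card_rowX h1 h2 h3 hT, dg_eq, dg_eq, mm _ ω.2, mm _ ω'.2]
  · zify
    rw [card_rowX h1.symm h3 h2 hT2, card_rowX h1.symm h3 h2 hT2, dg_eq, dg_eq]
    have := mm _ ω.2
    have := mm _ ω'.2
    rw [ad_comm _ v u, ad_comm _ v u]
    omega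
  · zify
    rw [card_rowX h2.symm h3.symm h1 hT3, card_rowX h2.symm h3.symm h1 hT3, dg_eq, dg_eq]
    have := mm _ ω.2
    have := mm _ ω'.2
    rw [ad_comm _ w u, ad_comm _ w u, ad_comm _ w v, ad_comm _ w v]
    omega
  · rcases o with _ | z
    · zify
      simp only [ind_none]
      have := mm _ ω.2
      omega
    · exact cs _ ω.2 z
  · have a' := (rel_BP_iff h1 h2 h3 hT ω₀ _ _ ω.2).2 ⟨ω'.2, a⟩
    have b' := (rel_BP_iff h1.symm h3 h2 hT2 ω₀ _ _ ω.2).2 ⟨ω'.2, b⟩
    have c' := (rel_BP_iff h2.symm h3.symm h1 hT3 ω₀ _ _ ω.2).2 ⟨ω'.2, c⟩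
    refine Subtype.ext (omega_ext fun p q => ?_)
    by_cases e1 : BP v w p q
    · by_cases e2 : BP u w p q
      · exact c' p q (by unfold BP at *; grind)
      · exact b' p q e2
    · exact a' p q e1
  · let row : V → Finset (Option V) := fun a => if a = u then S1 else if a = v then S2 else S3
    have ru : row u = S1 := by simp [row]
    have rv : row v = S2 := by simp [row, h1.symm]
    have rw' : row w = S3 := by simp [row, h2.symm, h3.symm]
    let H := mkG (fun a b => (¬ T a ∧ ¬ T b ∧ ω₀.1.Adj a b) ∨ (T a ∧ ¬ T b ∧ some b ∈ row a) ∨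
      (¬ T a ∧ T b ∧ some a ∈ row b) ∨
      (T a ∧ T b ∧ a ≠ b ∧ ∀ c, T c → c ≠ a → c ≠ b → none ∉ row c)) (fun a b h => by
        rcases h with h | h | h | h
        · exact Or.inl ⟨h.2.1, h.1, h.2.2.symm⟩
        · exact Or.inr (Or.inr (Or.inl ⟨h.2.1, h.1, h.2.2⟩))
        · exact Or.inr (Or.inl ⟨h.2.1, h.1, h.2.2⟩)
        · exact Or.inr (Or.inr (Or.inr ⟨h.2.1, h.1, h.2.2.1.symm,
            fun c p q r => h.2.2.2 c p r q⟩))) (fun a h => by
        rcases h with h | h | h | h
        · exact ω₀.1.irrefl h.2.2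
        · exact h.2.1 h.1
        · exact h.1 h.2.1
        · exact h.2.2.1 rfl)
    have H1 : ∀ a b, ¬ T a → ¬ T b → (H.Adj a b ↔ ω₀.1.Adj a b) := by
      intro a b p q
      show _ ∨ _ ∨ _ ∨ _ ↔ _
      simp [p, q]
    have H2 : ∀ a b, T a → ¬ T b → (H.Adj a b ↔ some b ∈ row a) := by
      intro a b p q
      show _ ∨ _ ∨ _ ∨ _ ↔ _
      simp [p, q]
    have H3 : ∀ a b c, a ≠ b → a ≠ c → b ≠ c → (∀ z, T z ↔ z = a ∨ z = b ∨ z = c) →
        (H.Adj b c ↔ none ∉ row a) := by
      intro a b c p q r s
      show _ ∨ _ ∨ _ ∨ _ ↔ _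
      have ta := (s a).2 (Or.inl rfl)
      have tb := (s b).2 (Or.inr (Or.inl rfl))
      have tc := (s c).2 (Or.inr (Or.inr rfl))
      constructor
      · rintro (h | h | h | h)
        · exact absurd tb h.1
        · exact absurd tc h.2.1
        · exact absurd tb h.1
        · exact h.2.2.2 a ta p q
      · intro h
        refine Or.inr (Or.inr (Or.inr ⟨tb, tc, r, fun z z1 z2 z3 => ?_⟩))
        rcases (s z).1 z1 with e | e | e
        · rwa [e]
        · exact absurd e z2
        · exact absurd e z3
    have z0 : ∀ z, T z → ∀ a, some z ∉ row a := by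
      intro z hz a
      have := hs (some z)
      simp only [ind_some' hz] at this
      simp only [row]
      split_ifs <;> intro hm <;> rw [ind_pos hm] at this <;> omega
    have RH : ∀ a b c, a ≠ b → a ≠ c → b ≠ c → (∀ z, T z ↔ z = a ∨ z = b ∨ z = c) →
        rowX T a b c H = row a := by
      intro a b c p q r s
      ext o
      rcases o with _ | z
      · rw [none_mem_rowX, H3 a b c p q r s, not_not]
      · rw [some_mem_rowX]
        by_cases hz : T z
        · simp [hz, z0 z hz a]
        · rw [H2 a z ((s a).2 (Or.inl rfl)) hz]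
          simp [hz]
    have R1 := (RH u v w h1 h2 h3 hT).trans ru
    have R2 := (RH v u w h1.symm h3 h2 hT2).trans rv
    have R3 := (RH w u v h2.symm h3.symm h1 hT3).trans rw'
    have hH : H ∈ omega d := by
      have m := hs none
      rw [← R1, ← R2, ← R3] at m
      zify at m c1 c2 c3
      simp only [ind_none] at m
      have m' := mm _ ω.2
      rw [← R1, card_rowX h1 h2 h3 hT, card_rowX h1 h2 h3 hT, dg_eq] at c1
      rw [← R2, card_rowX h1.symm h3 h2 hT2, card_rowX h1.symm h3 h2 hT2, dg_eq,
        ad_comm _ v u, ad_comm _ v u] at c2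
      rw [← R3, card_rowX h2.symm h3.symm h1 hT3, card_rowX h2.symm h3.symm h1 hT3, dg_eq,
        ad_comm _ w u, ad_comm _ w u, ad_comm _ w v, ad_comm _ w v] at c3
      refine mem_omega.2 fun z => ?_
      by_cases hz : T z
      · rcases (hT z).1 hz with rfl | rfl | rfl <;> omega
      · have a := colz H ω₀.1 z hz fun e he => H1 z e hz he
        have b := hs (some z)
        rw [← R1, ← R2, ← R3] at b
        zify at b
        simp only [ind_some hz] at b
        rw [dg_eq] at a
        omega
    exact ⟨⟨⟨H, hH⟩, fun a b hb => (H1 a b (fun h => hb (Or.inl h)) fun h => hb (Or.inr h)).symm⟩, R1, R2, R3⟩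

set_option maxHeartbeats 1000000 in
theorem connected (f : omega d → ℝ)
    (hf : ∀ u v, u ≠ v → ∀ G G', rel d (BP u v) G G' → f G = f G') (G G' : omega d) :
    f G = f G' := by
  classical
  have key : ∀ (U : Finset V) (G G' : omega d),
      (∀ a b, (a ∉ U ∨ b ∉ U) → (G.1.Adj a b ↔ G'.1.Adj a b)) → f G = f G' := by
    intro U
    induction U using Finset.induction_on with
    | empty =>
      intro G G' h
      rw [omega_ext fun a b => h a b (by simp)]
    | insert v U hv ih =>
      intro G G' h
      obtain ⟨n, hn⟩ : ∃ n, (univ.filter fun z => ¬ (G.1.Adj v z ↔ G'.1.Adj v z)).card = n :=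
        ⟨_, rfl⟩
      induction n using Nat.strong_induction_on generalizing G G' with
      | _ n ihn =>
      have step : ∀ G G' : omega d,
          (∀ a b, (a ∉ insert v U ∨ b ∉ insert v U) → (G.1.Adj a b ↔ G'.1.Adj a b)) →
          ∀ x y, G.1.Adj v x → ¬ G'.1.Adj v x → ¬ G.1.Adj v y → G'.1.Adj v y →
          ∑ e ∈ insert v U, ad G.1 x e ≤ ∑ e ∈ insert v U, ad G.1 y e →
          ∃ G₁ : omega d, f G₁ = f G ∧
            (∀ a b, (a ∉ insert v U ∨ b ∉ insert v U) → (G₁.1.Adj a b ↔ G'.1.Adj a b)) ∧
            (univ.filter fun z => ¬ (G₁.1.Adj v z ↔ G'.1.Adj v z)).card <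
              (univ.filter fun z => ¬ (G.1.Adj v z ↔ G'.1.Adj v z)).card := by
        intro G G' h x y x1 x2 y1 y2 hle
        have xU : x ∈ insert v U := by
          by_contra hx
          exact x2 ((h v x (Or.inr hx)).1 x1)
        have yU : y ∈ insert v U := by
          by_contra hy
          exact y1 ((h v y (Or.inr hy)).2 y2)
        have hxy : x ≠ y := fun e => y1 (e ▸ x1)
        obtain ⟨w, wU, w1, w2, w3⟩ : ∃ w ∈ insert v U, G.1.Adj y w ∧ ¬ G.1.Adj x w ∧ w ≠ x := by
          by_contra hc
          push Not at hc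
          have : ∑ e ∈ insert v U, ad G.1 y (Equiv.swap x y e) < ∑ e ∈ insert v U, ad G.1 x e := by
            refine Finset.sum_lt_sum (fun e he => ?_) ⟨v, Finset.mem_insert_self _ _, ?_⟩
            · rw [Equiv.swap_apply_def]
              split_ifs with e1 e2
              · rw [ad_self]
                exact (ad_bd _ _ _).1
              · rw [e2, ad_comm]
              · have := hc e he
                have := ad_cases G.1 y e
                have := ad_cases G.1 x e
                grind
            · rw [Equiv.swap_apply_of_ne_of_ne x1.ne y2.ne, ad_comm _ y, ad_comm _ x]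
              have := ad_cases G.1 v y
              have := ad_cases G.1 v x
              grind
          rw [Finset.sum_bijective (s := insert v U) (t := insert v U) (g := ad G.1 y)
            (Equiv.swap x y) (Equiv.swap x y).bijective (fun e => by
              rw [Equiv.swap_apply_def]
              split_ifs with e1 e2
              · simp [e1, xU, yU]
              · simp [e2, xU, yU]
              · rfl) (fun _ _ => rfl)] at this
          omega
        have d4 : Dist4 x y v w := ⟨hxy, x1.ne.symm, w3.symm, y2.ne.symm, w1.ne, fun e =>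
          y1 (e ▸ w1.symm)⟩
        obtain ⟨H, a, b1, b2, b3, b4⟩ := exists_block d4 G.1 False True True False
        have hH : H ∈ omega d := by
          have x1' := x1.symm
          have y1' : ¬ G.1.Adj y v := fun h => y1 h.symm
          have := ad_cases G.1 x v; have := ad_cases G.1 x w; have := ad_cases G.1 y v
          have := ad_cases G.1 y w; have := ad_cases H x v; have := ad_cases H x w
          have := ad_cases H y v; have := ad_cases H y w
          refine block_mem d4 G a ?_ ?_ ?_ ?_ <;> grind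
        refine ⟨⟨H, hH⟩, hf x y hxy _ _ (rel_mono (BS_le d4) _ _ a), fun p q hb =>
          (a p q ?_).trans (h p q hb), Finset.card_lt_card ⟨fun z hz => ?_, fun hs => ?_⟩⟩
        · have := Finset.mem_insert_self v U
          unfold BS
          grind
        · simp only [Finset.mem_filter, Finset.mem_univ, true_and] at hz ⊢
          by_cases z1 : z = x
          · rw [z1, H.adj_comm, b1] at hz
            exact absurd (iff_of_false not_false x2) hz
          · by_cases z2 : z = y
            · rw [z2, H.adj_comm, b3] at hz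
              exact absurd (iff_of_true trivial y2) hz
            · rwa [a v z (by unfold BS Dist4 at *; grind)] at hz
        · have := hs (show x ∈ _ from Finset.mem_filter.2 ⟨mem_univ _, fun h => x2 (h.1 x1)⟩)
          simp only [Finset.mem_filter, Finset.mem_univ, true_and] at this
          rw [H.adj_comm, b1] at this
          exact this (iff_of_false not_false x2)
      by_cases h0 : ∀ z, G.1.Adj v z ↔ G'.1.Adj v z
      · refine ih G G' fun a b hb => ?_
        by_cases ha : a = v
        · rw [ha]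
          exact h0 b
        · by_cases hb' : b = v
          · rw [hb', G.1.adj_comm, G'.1.adj_comm]
            exact h0 a
          · exact h a b (by simpa [ha, hb'] using hb)
      · obtain ⟨x, y, x1, x2, y1, y2⟩ : ∃ x y, G.1.Adj v x ∧ ¬ G'.1.Adj v x ∧ ¬ G.1.Adj v y ∧
            G'.1.Adj v y := by
          have e : dg G.1 v = dg G'.1 v := by rw [dg_eq, dg_eq]
          have one : ∀ G G' : SimpleGraph V, dg G v = dg G' v → (∀ z, G.Adj v z → G'.Adj v z) →
              ∀ z, G.Adj v z ↔ G'.Adj v z := by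
            intro G G' e h z
            have := (Finset.sum_eq_sum_iff_of_le (s := univ) (f := ad G v) (g := ad G' v)
              fun z _ => by
                have := h z
                have := ad_cases G v z
                have := ad_cases G' v z
                grind).1 e z (mem_univ z)
            have := ad_cases G v z
            have := ad_cases G' v z
            grind
          obtain ⟨x, x1⟩ := not_forall.1 (mt (one _ _ e) h0)
          obtain ⟨y, y1⟩ := not_forall.1 (mt (one _ _ e.symm) fun h => h0 fun z => (h z).symm)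
          rw [Classical.not_imp] at x1 y1
          exact ⟨x, y, x1.1, x1.2, y1.2, y1.1⟩
        have inU : ∀ z, ∑ e ∈ insert v U, ad G.1 z e = ∑ e ∈ insert v U, ad G'.1 z e := by
          intro z
          have e : dg G.1 z = dg G'.1 z := by rw [dg_eq, dg_eq]
          rw [dg, dg, ← Finset.sum_add_sum_compl (insert v U),
            ← Finset.sum_add_sum_compl (insert v U) (ad G'.1 z), Finset.sum_congr rfl
              fun e he => ad_congr (h z e (Or.inr (Finset.mem_compl.1 he)))] at e
          omega
        rcases le_total (∑ e ∈ insert v U, ad G.1 x e) (∑ e ∈ insert v U, ad G.1 y e) with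
          hle | hle
        · obtain ⟨G₁, a, b, c⟩ := step G G' h x y x1 x2 y1 y2 hle
          rw [← a]
          exact ihn _ (hn ▸ c) G₁ G' b rfl
        · obtain ⟨G₁, a, b, c⟩ := step G' G (fun a b hb => (h a b hb).symm) y x y2 y1 x2 x1
            (by rwa [← inU, ← inU])
          rw [← a]
          refine ihn _ ?_ G G₁ (fun p q hb => (b p q hb).symm) rfl
          simp only [iff_comm (a := G.1.Adj v _)] at hn ⊢
          exact hn ▸ c
  exact key univ G G' fun a b h => by simp at h

end Vale.Agent.P335
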