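import Vale.Agent.P335.Fiber
import Vale.Agent.P335.TriG

namespace Vale.Agent.P335

open Finset

variable {V : Type} [Fintype V] [DecidableEq V] {d : V → ℕ}

theorem BP_comm (u v : V) : BP u v = BP v u := by
  funext a b
  unfold BP
  grind

theorem sum_split {u v : V} (h : u ≠ v) (F : V → ℝ) :
    ∑ x, F x = F u + F v + ∑ x, if x ≠ u ∧ x ≠ v then F x else 0 := by
  have := Fintype.sum_eq_add u v h (f := fun x => F x - if x ≠ u ∧ x ≠ v then F x else 0)
    fun x hx => by rw [if_pos hx, sub_self]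
  simp only [Finset.sum_sub_distrib, ne_eq, not_true, false_and, and_false, if_false,
    sub_zero] at this
  linarith

/-- The generator of one heat bath. -/
noncomputable def hh (d : V → ℕ) (u v : V) : (omega d → ℝ) →ₗ[ℝ] (omega d → ℝ) :=
  if u = v then 0 else co (rel d (BP u v))

theorem hh_ne {u v : V} (h : u ≠ v) : hh d u v = co (rel d (BP u v)) := if_neg h

theorem hh_self (u : V) : hh d u u = 0 := if_pos rfl

theorem hh_comm (u v : V) : hh d u v = hh d v u := by
  by_cases h : u = v
  · rw [h]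
  · rw [hh_ne h, hh_ne (Ne.symm h), BP_comm]

theorem hh_symm (u v : V) (f g : omega d → ℝ) : ip (hh d u v f) g = ip f (hh d u v g) := by
  by_cases h : u = v
  · simp [h, hh_self, ip_zero_left, ip_zero_right]
  · rw [hh_ne h, co_symm]

theorem ip_hh (u v : V) (f : omega d → ℝ) :
    ip f (hh d u v f) = ip (hh d u v f) (hh d u v f) := by
  by_cases h : u = v
  · simp [h, hh_self, ip_zero_left, ip_zero_right]
  · rw [hh_ne h, ip_co_self]

open Classical in
theorem johnson_sum (f : omega d → ℝ) :
    ∑ u, ∑ v, ∑ x, ∑ y, (if Dist4 u v x y then loss u v x y (hh d u v f) else 0) +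
      2 * ∑ u, ∑ v, ip (hh d u v f) (hh d u v f) ≤
      ∑ u, ∑ v, ∑ x, ∑ y, if Dist4 u v x y then
        ip (co (rel d (BS u v x y)) f) (co (rel d (BS u v x y)) f) else 0 := by
  simp only [Finset.mul_sum, ← Finset.sum_add_distrib]
  refine Finset.sum_le_sum fun u _ => Finset.sum_le_sum fun v _ => ?_
  by_cases h : u = v
  · subst h
    have : ∀ x y, ¬ Dist4 u u x y := fun x y h' => h'.1 rfl
    simp [this, hh_self, ip_zero_left]
  · rw [hh_ne h]
    refine (graph_johnson h _ (cnd_co _ f)).trans (le_of_eq ?_)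
    refine Finset.sum_congr rfl fun x _ => Finset.sum_congr rfl fun y _ => ?_
    split_ifs with h4
    · have : co (rel d (BS u v x y)) (co (rel d (BP u v)) f) = co (rel d (BS u v x y)) f := by
        rw [co_apply (rel d (BP u v)), map_sub, co_apply _ (cnd _ f),
          cnd_le' (rel_mono (BS_le h4)), sub_self, sub_zero]
      rw [this]
    · rfl

theorem loss_nonneg (u v x y : V) (g : omega d → ℝ) : 0 ≤ loss u v x y g :=
  Finset.sum_nonneg fun _ _ => sq_nonneg _

theorem sum_comm4 (F : V → V → V → V → ℝ) :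
    ∑ u, ∑ v, ∑ x, ∑ y, F x y u v = ∑ u, ∑ v, ∑ x, ∑ y, F u v x y := by
  simp only [← Fintype.sum_prod_type']
  exact Fintype.sum_equiv ⟨fun p => (p.2.2.1, p.2.2.2, p.1, p.2.1),
    fun p => (p.2.2.1, p.2.2.2, p.1, p.2.1), fun _ => rfl, fun _ => rfl⟩ _ _ fun _ => rfl

theorem bochner (f : omega d → ℝ) :
    2 * ip f ((∑ u, ∑ v, hh d u v) f) ≤
      ip ((∑ u, ∑ v, hh d u v) f) ((∑ u, ∑ v, hh d u v) f) := by
  classical
  simp only [LinearMap.sum_apply, ip_sum_right, ip_hh]
  simp only [ip_sum_left]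
  set g : V → V → omega d → ℝ := fun u v => hh d u v f with hg
  have gc : ∀ u v, g u v = g v u := fun u v => by simp only [hg, hh_comm u v]
  have g0 : ∀ u, g u u = 0 := fun u => by simp [hg, hh_self]
  let T : V → V → V → ℝ := fun u v w => if u ≠ v ∧ u ≠ w ∧ v ≠ w then ip (g u w) (g u v) else 0
  have hT : 0 ≤ ∑ u, ∑ v, ∑ w, T u v w := by
    have e1 : ∑ u, ∑ v, ∑ w, T v u w = ∑ u, ∑ v, ∑ w, T u v w := Finset.sum_comm
    have e2 : ∑ u, ∑ v, ∑ w, T w u v = ∑ u, ∑ v, ∑ w, T u v w := by
      rw [← e1]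
      exact Finset.sum_congr rfl fun u _ => Finset.sum_comm
    have : 0 ≤ ∑ u, ∑ v, ∑ w, (T w u v + T v u w + T u v w) := by
      refine Finset.sum_nonneg fun u _ => Finset.sum_nonneg fun v _ =>
        Finset.sum_nonneg fun w _ => ?_
      by_cases h : u ≠ v ∧ u ≠ w ∧ v ≠ w
      · have := graph_triple h.1 h.2.1 h.2.2 f
        simp only [T]
        rw [if_pos h, if_pos ⟨h.2.1.symm, h.2.2.symm, h.1⟩, if_pos ⟨h.1.symm, h.2.2, h.2.1⟩,
          gc w v, gc w u, gc v u, ip_comm (g u w) (g u v), ip_comm (g u v) (g u w)]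
        simpa only [hg, hh_ne h.1, hh_ne h.2.1, hh_ne h.2.2] using this
      · simp only [T]
        rw [if_neg h, if_neg (by tauto), if_neg (by tauto)]
        simp
    simp only [Finset.sum_add_distrib, e1, e2] at this
    linarith
  have hD : 0 ≤ ∑ u, ∑ v, ∑ x, ∑ y, if Dist4 u v x y then ip (g x y) (g u v) else 0 := by
    have h1 := johnson_sum f
    have h2 : ∑ u, ∑ v, ∑ x, ∑ y, ((if Dist4 u v x y then
        ip (co (rel d (BS u v x y)) f) (co (rel d (BS u v x y)) f) else 0) -
        ((if Dist4 u v x y then loss u v x y (hh d u v f) else 0) +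
          (if Dist4 x y u v then loss x y u v (hh d x y f) else 0)) / 2) ≤
        ∑ u, ∑ v, ∑ x, ∑ y, if Dist4 u v x y then ip (g x y) (g u v) else 0 := by
      refine Finset.sum_le_sum fun u _ => Finset.sum_le_sum fun v _ =>
        Finset.sum_le_sum fun x _ => Finset.sum_le_sum fun y _ => ?_
      by_cases h : Dist4 u v x y
      · simp only [if_pos h, if_pos h.flip, hg, hh_ne h.1, hh_ne h.2.2.2.2.2]
        rw [ip_comm (co (rel d (BP x y)) f)]
        exact graph_pair h f
      · simp [if_neg h, if_neg (mt Dist4.flip h)]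
    simp only [Finset.sum_sub_distrib, ← Finset.sum_div, Finset.sum_add_distrib] at h2
    rw [sum_comm4 fun u v x y => if Dist4 u v x y then loss u v x y (hh d u v f) else 0] at h2
    have h3 : 0 ≤ ∑ u, ∑ v, ip (hh d u v f) (hh d u v f) :=
      Finset.sum_nonneg fun u _ => Finset.sum_nonneg fun v _ => ip_self_nonneg _
    linarith
  have key : ∀ u v, ∑ x, ∑ y, ip (g x y) (g u v) = 2 * ip (g u v) (g u v) +
      2 * (∑ w, T u v w + ∑ w, T v u w) +
      ∑ x, ∑ y, if Dist4 u v x y then ip (g x y) (g u v) else 0 := by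
    intro u v
    by_cases h : u = v
    · subst h
      have : ∀ x y, ¬ Dist4 u u x y := fun x y h' => h'.1 rfl
      simp [this, g0, ip_zero_right, T]
    · have e1 : ∑ w, T u v w = ∑ w, if w ≠ u ∧ w ≠ v then ip (g u w) (g u v) else 0 :=
        Finset.sum_congr rfl fun w _ => if_congr (by tauto) rfl rfl
      have e2 : ∑ w, T v u w = ∑ w, if w ≠ u ∧ w ≠ v then ip (g v w) (g u v) else 0 :=
        Finset.sum_congr rfl fun w _ => if_congr (by tauto) (by rw [gc v u]) rfl
      have e3 : ∑ x, (if x ≠ u ∧ x ≠ v then ∑ y, ip (g x y) (g u v) else 0) =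
          ∑ x, ((if x ≠ u ∧ x ≠ v then ip (g u x) (g u v) else 0) +
            (if x ≠ u ∧ x ≠ v then ip (g v x) (g u v) else 0) +
            ∑ y, if Dist4 u v x y then ip (g x y) (g u v) else 0) := by
        refine Finset.sum_congr rfl fun x _ => ?_
        split_ifs with hx
        · rw [sum_split h, gc x u, gc x v]
          congr 1
          refine Finset.sum_congr rfl fun y _ => ?_
          by_cases hxy : x = y
          · simp [hxy, g0, ip_zero_left]
          · exact if_congr (by unfold Dist4; grind) rfl rfl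
        · have : ∀ y, ¬ Dist4 u v x y := fun y => by unfold Dist4; grind
          simp [this]
      rw [sum_split h, sum_split h (fun y => ip (g u y) (g u v)),
        sum_split h (fun y => ip (g v y) (g u v)), e1, e2, e3, g0, g0, ip_zero_left, gc v u]
      simp only [Finset.sum_add_distrib]
      ring
  show 2 * ∑ u, ∑ v, ip (g u v) (g u v) ≤ ∑ u, ∑ v, ∑ x, ∑ y, ip (g x y) (g u v)
  simp only [key, Finset.sum_add_distrib, ← Finset.mul_sum]
  rw [Finset.sum_comm (f := fun u v => ∑ w, T v u w)]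
  linarith

open Classical in
theorem poincare (f : omega d → ℝ) (hf : ∑ G, f G = 0) :
    16 * ip f f ≤ ∑ u, ∑ v, ∑ x, ∑ y, ∑ G, (f G - f (sw u v x y G)) ^ 2 := by
  have e : ∀ f : omega d → ℝ, ip f ((∑ u, ∑ v, hh d u v) f) =
      ∑ u, ∑ v, ip (hh d u v f) (hh d u v f) := fun f => by
    simp only [LinearMap.sum_apply, ip_sum_right, ip_hh]
  have h1 := spec_gap (∑ u, ∑ v, hh d u v) (fun f g => by
    simp only [LinearMap.sum_apply, ip_sum_right, ip_sum_left, hh_symm]) (γ := 2)
    (fun f => by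
      rw [e]
      exact Finset.sum_nonneg fun u _ => Finset.sum_nonneg fun v _ => ip_self_nonneg _)
    bochner f (fun k hk => by
      have h2 := e k
      rw [hk, ip_zero_right] at h2
      have h3 : ∀ G G', k G = k G' := connected k fun u v huv G G' hG => by
        have h4 := (Finset.sum_eq_zero_iff_of_nonneg fun v _ => ip_self_nonneg _).1
          ((Finset.sum_eq_zero_iff_of_nonneg fun u _ => Finset.sum_nonneg fun v _ =>
            ip_self_nonneg _).1 h2.symm u (mem_univ _)) v (mem_univ _)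
        have h5 := ip_self_eq_zero h4
        rw [hh_ne huv, co_apply, sub_eq_zero] at h5
        rw [h5]
        exact cnd_inv k hG
      rcases isEmpty_or_nonempty (omega d) with h0 | ⟨⟨G₀⟩⟩
      · simp [ip]
      · rw [ip, Finset.sum_congr rfl fun G _ => by rw [h3 G G₀], ← Finset.sum_mul, hf, zero_mul])
  have h2 := johnson_sum f
  have h3 : 0 ≤ ∑ u, ∑ v, ∑ x, ∑ y, (if Dist4 u v x y then loss u v x y (hh d u v f) else 0) :=
    Finset.sum_nonneg fun u _ => Finset.sum_nonneg fun v _ => Finset.sum_nonneg fun x _ =>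
      Finset.sum_nonneg fun y _ => by
        split_ifs
        exacts [loss_nonneg _ _ _ _ _, le_rfl]
  have h4 : ∑ u, ∑ v, ∑ x, ∑ y, (if Dist4 u v x y then
      ip (co (rel d (BS u v x y)) f) (co (rel d (BS u v x y)) f) else 0) =
      (∑ u, ∑ v, ∑ x, ∑ y, ∑ G, (f G - f (sw u v x y G)) ^ 2) / 4 := by
    simp only [Finset.sum_div]
    refine Finset.sum_congr rfl fun u _ => Finset.sum_congr rfl fun v _ =>
      Finset.sum_congr rfl fun x _ => Finset.sum_congr rfl fun y _ => ?_
    split_ifs with h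
    · refine Finset.sum_congr rfl fun G _ => ?_
      rw [co_sw h]
      ring
    · simp [sw, h]
  rw [e] at h1
  linarith

end Vale.Agent.P335
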