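import Mathlib

namespace Vale.Agent.P335

open Finset

variable {Ω : Type*} [Fintype Ω]

/-- The counting inner product. -/
def ip (f g : Ω → ℝ) : ℝ := ∑ ω, f ω * g ω

theorem ip_comm (f g : Ω → ℝ) : ip f g = ip g f :=
  Finset.sum_congr rfl fun _ _ => mul_comm _ _

theorem ip_add_left (f f' g : Ω → ℝ) : ip (f + f') g = ip f g + ip f' g := by
  simp [ip, add_mul, Finset.sum_add_distrib]

theorem ip_add_right (f g g' : Ω → ℝ) : ip f (g + g') = ip f g + ip f g' := by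
  simp [ip, mul_add, Finset.sum_add_distrib]

theorem ip_sub_left (f f' g : Ω → ℝ) : ip (f - f') g = ip f g - ip f' g := by
  simp [ip, sub_mul, Finset.sum_sub_distrib]

theorem ip_sub_right (f g g' : Ω → ℝ) : ip f (g - g') = ip f g - ip f g' := by
  simp [ip, mul_sub, Finset.sum_sub_distrib]

theorem ip_smul_left (c : ℝ) (f g : Ω → ℝ) : ip (c • f) g = c * ip f g := by
  simp [ip, Finset.mul_sum, mul_assoc]

theorem ip_smul_right (c : ℝ) (f g : Ω → ℝ) : ip f (c • g) = c * ip f g := by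
  rw [ip_comm, ip_smul_left, ip_comm]

theorem ip_zero_left (g : Ω → ℝ) : ip 0 g = 0 := by simp [ip]

theorem ip_zero_right (g : Ω → ℝ) : ip g 0 = 0 := by simp [ip]

theorem ip_sum_left {ι : Type*} (s : Finset ι) (f : ι → Ω → ℝ) (g : Ω → ℝ) :
    ip (∑ i ∈ s, f i) g = ∑ i ∈ s, ip (f i) g := by
  simp only [ip, Finset.sum_apply, Finset.sum_mul]
  rw [Finset.sum_comm]

theorem ip_sum_right {ι : Type*} (s : Finset ι) (f : ι → Ω → ℝ) (g : Ω → ℝ) :
    ip g (∑ i ∈ s, f i) = ∑ i ∈ s, ip g (f i) := by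
  rw [ip_comm, ip_sum_left]
  exact Finset.sum_congr rfl fun _ _ => ip_comm _ _

theorem ip_self_nonneg (f : Ω → ℝ) : 0 ≤ ip f f :=
  Finset.sum_nonneg fun _ _ => mul_self_nonneg _

theorem ip_self_eq_zero {f : Ω → ℝ} (h : ip f f = 0) : f = 0 := by
  funext ω
  have := (Finset.sum_eq_zero_iff_of_nonneg fun _ _ => mul_self_nonneg _).1 h ω (mem_univ ω)
  simpa using this

/-- Spectral theorem. -/
theorem exists_eigenbasis (T : (Ω → ℝ) →ₗ[ℝ] (Ω → ℝ)) (hT : ∀ f g, ip (T f) g = ip f (T g)) :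
    ∃ (n : ℕ) (l : Fin n → ℝ) (b : Fin n → Ω → ℝ), (∀ i, T (b i) = l i • b i) ∧ (∀ i, b i ≠ 0) ∧
      ∀ f g, ip f g = ∑ i, ip f (b i) * ip g (b i) := by
  classical
  let e := (WithLp.linearEquiv 2 ℝ (Ω → ℝ))
  let T' : EuclideanSpace ℝ Ω →ₗ[ℝ] EuclideanSpace ℝ Ω := e.symm.toLinearMap ∘ₗ T ∘ₗ e.toLinearMap
  have hin : ∀ x y : EuclideanSpace ℝ Ω, inner ℝ x y = ip (e x) (e y) := by
    intro x y
    rw [PiLp.inner_apply, ip]
    refine Finset.sum_congr rfl fun ω _ => ?_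
    simp [e, mul_comm]
  have hT' : T'.IsSymmetric := by
    intro x y
    rw [hin, hin]
    simp only [T', LinearMap.comp_apply, LinearEquiv.coe_coe, LinearEquiv.apply_symm_apply]
    exact hT _ _
  refine ⟨_, hT'.eigenvalues rfl, fun i => e (hT'.eigenvectorBasis rfl i), fun i => ?_,
    fun i => ?_, fun f g => ?_⟩
  · have := congrArg e (hT'.apply_eigenvectorBasis rfl i)
    simpa only [T', LinearMap.comp_apply, LinearEquiv.coe_coe, LinearEquiv.apply_symm_apply,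
      map_smul, RCLike.ofReal_real_eq_id, id] using this
  · intro h
    exact (hT'.hasEigenvector_eigenvectorBasis rfl i).2 (e.map_eq_zero_iff.1 h)
  · have := (hT'.eigenvectorBasis rfl).sum_inner_mul_inner (e.symm f) (e.symm g)
    simp only [hin, LinearEquiv.apply_symm_apply] at this
    rw [← this]
    exact Finset.sum_congr rfl fun i _ => by rw [ip_comm g]

theorem spec_nonneg (T : (Ω → ℝ) →ₗ[ℝ] (Ω → ℝ)) (hT : ∀ f g, ip (T f) g = ip f (T g))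
    (h : ∀ (l : ℝ) (v : Ω → ℝ), v ≠ 0 → T v = l • v → 0 ≤ l) (f : Ω → ℝ) : 0 ≤ ip f (T f) := by
  obtain ⟨n, l, b, h1, h2, h3⟩ := exists_eigenbasis T hT
  rw [h3]
  refine Finset.sum_nonneg fun i _ => ?_
  rw [hT, h1, ip_smul_right]
  have := h _ _ (h2 i) (h1 i)
  nlinarith [mul_self_nonneg (ip f (b i))]

theorem spec_sq (T : (Ω → ℝ) →ₗ[ℝ] (Ω → ℝ)) (hT : ∀ f g, ip (T f) g = ip f (T g))
    (h : ∀ (l : ℝ) (v : Ω → ℝ), v ≠ 0 → T v = l • v → l ≤ l ^ 2) (f : Ω → ℝ) :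
    ip f (T f) ≤ ip (T f) (T f) := by
  obtain ⟨n, l, b, h1, h2, h3⟩ := exists_eigenbasis T hT
  rw [h3, h3 (T f)]
  refine Finset.sum_le_sum fun i _ => ?_
  rw [hT, h1, ip_smul_right]
  have := h _ _ (h2 i) (h1 i)
  nlinarith [mul_self_nonneg (ip f (b i))]

theorem spec_gap (T : (Ω → ℝ) →ₗ[ℝ] (Ω → ℝ)) (hT : ∀ f g, ip (T f) g = ip f (T g)) {γ : ℝ}
    (h0 : ∀ f, 0 ≤ ip f (T f)) (h : ∀ f, γ * ip f (T f) ≤ ip (T f) (T f)) (f : Ω → ℝ)
    (hf : ∀ v, T v = 0 → ip f v = 0) : γ * ip f f ≤ ip f (T f) := by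
  obtain ⟨n, l, b, h1, h2, h3⟩ := exists_eigenbasis T hT
  rw [h3, h3 f (T f), Finset.mul_sum]
  refine Finset.sum_le_sum fun i _ => ?_
  rw [hT, h1, ip_smul_right]
  have hb : 0 < ip (b i) (b i) :=
    lt_of_le_of_ne (ip_self_nonneg _) fun e => h2 i (ip_self_eq_zero e.symm)
  have a0 := h0 (b i)
  have a1 := h (b i)
  rw [h1, ip_smul_right] at a0 a1
  rw [ip_smul_left, ip_smul_right] at a1
  by_cases hl : l i = 0
  · rw [hf (b i) (by rw [h1, hl, zero_smul])]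
    simp
  · have l0 : 0 < l i := lt_of_le_of_ne (nonneg_of_mul_nonneg_left a0 hb) (Ne.symm hl)
    have : γ ≤ l i := by
      by_contra hc
      push Not at hc
      nlinarith [mul_pos l0 hb]
    nlinarith [mul_self_nonneg (ip f (b i))]

open Classical in
/-- The class of a point, as a finset. -/
noncomputable def cls (r : Setoid Ω) (ω : Ω) : Finset Ω := univ.filter fun ω' => r ω ω'

theorem mem_cls {r : Setoid Ω} {ω ω' : Ω} : ω' ∈ cls r ω ↔ r ω ω' := by simp [cls]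

theorem cls_eq {r : Setoid Ω} {ω ω' : Ω} (h : r ω ω') : cls r ω = cls r ω' := by
  ext x
  simp only [mem_cls]
  exact ⟨fun h' => r.trans' (r.symm' h) h', fun h' => r.trans' h h'⟩

theorem card_cls_pos (r : Setoid Ω) (ω : Ω) : (0 : ℝ) < (cls r ω).card := by
  exact_mod_cast Finset.card_pos.2 ⟨ω, mem_cls.2 (r.refl' ω)⟩

/-- Averaging over the classes of an equivalence relation. -/
noncomputable def cnd (r : Setoid Ω) : (Ω → ℝ) →ₗ[ℝ] (Ω → ℝ) where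
  toFun f ω := (∑ ω' ∈ cls r ω, f ω') / (cls r ω).card
  map_add' f g := by
    funext ω
    simp [Finset.sum_add_distrib, add_div]
  map_smul' c f := by
    funext ω
    simp [← Finset.mul_sum, mul_div_assoc]

theorem cnd_apply (r : Setoid Ω) (f : Ω → ℝ) (ω : Ω) :
    cnd r f ω = (∑ ω' ∈ cls r ω, f ω') / (cls r ω).card := rfl

theorem cnd_inv {r : Setoid Ω} (f : Ω → ℝ) {ω ω' : Ω} (h : r ω ω') : cnd r f ω = cnd r f ω' := by
  rw [cnd_apply, cnd_apply, cls_eq h]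

theorem cnd_congr {r : Setoid Ω} {f g : Ω → ℝ} {ω : Ω} (h : ∀ ω', r ω ω' → f ω' = g ω') :
    cnd r f ω = cnd r g ω := by
  rw [cnd_apply, cnd_apply, Finset.sum_congr rfl fun ω' h' => h ω' (mem_cls.1 h')]

theorem cnd_const {r : Setoid Ω} {f : Ω → ℝ} {ω : Ω} {c : ℝ} (h : ∀ ω', r ω ω' → f ω' = c) :
    cnd r f ω = c := by
  rw [cnd_apply, Finset.sum_congr rfl fun ω' h' => h ω' (mem_cls.1 h'), Finset.sum_const,
    nsmul_eq_mul, mul_div_cancel_left₀ _ (card_cls_pos r ω).ne']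

theorem cnd_fix {r : Setoid Ω} {f : Ω → ℝ} (h : ∀ ω ω', r ω ω' → f ω = f ω') : cnd r f = f :=
  funext fun ω => cnd_const fun ω' h' => (h ω ω' h').symm

theorem cnd_abs_le {r : Setoid Ω} {f : Ω → ℝ} {ω : Ω} {M : ℝ} (h : ∀ ω', r ω ω' → |f ω'| ≤ M) :
    |cnd r f ω| ≤ M := by
  rw [cnd_apply, abs_div, abs_of_pos (card_cls_pos r ω), div_le_iff₀ (card_cls_pos r ω)]
  refine (Finset.abs_sum_le_sum_abs _ _).trans ((Finset.sum_le_sum fun ω' h' =>
    h ω' (mem_cls.1 h')).trans (le_of_eq ?_))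
  rw [Finset.sum_const, nsmul_eq_mul, mul_comm]

theorem cnd_symm (r : Setoid Ω) (f g : Ω → ℝ) : ip (cnd r f) g = ip f (cnd r g) := by
  classical
  have key : ∀ f g : Ω → ℝ, ip (cnd r f) g =
      ∑ ω, ∑ ω', if r ω ω' then f ω' * g ω / (cls r ω).card else 0 := by
    intro f g
    refine Finset.sum_congr rfl fun ω _ => ?_
    rw [cnd_apply, Finset.sum_div, Finset.sum_mul, ← Finset.sum_filter]
    refine Finset.sum_congr (by ext; simp [mem_cls]) fun ω' _ => by ring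
  rw [ip_comm f, key, key, Finset.sum_comm]
  refine Finset.sum_congr rfl fun ω _ => Finset.sum_congr rfl fun ω' _ => ?_
  by_cases h : r ω ω'
  · rw [if_pos h, if_pos (r.symm' h), cls_eq h, mul_comm]
  · rw [if_neg h, if_neg fun h' => h (r.symm' h')]

theorem ip_ext {f f' : Ω → ℝ} (h : ∀ g, ip f g = ip f' g) : f = f' := by
  have := h (f - f')
  rw [← sub_eq_zero, ← ip_sub_left] at this
  exact sub_eq_zero.1 (ip_self_eq_zero this)

theorem cnd_le' {r r' : Setoid Ω} (h : ∀ ω ω', r ω ω' → r' ω ω') (f : Ω → ℝ) :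
    cnd r (cnd r' f) = cnd r' f := cnd_fix fun ω ω' h' => cnd_inv f (h ω ω' h')

theorem cnd_le {r r' : Setoid Ω} (h : ∀ ω ω', r ω ω' → r' ω ω') (f : Ω → ℝ) :
    cnd r' (cnd r f) = cnd r' f :=
  ip_ext fun g => by rw [cnd_symm, cnd_symm, cnd_le' h, cnd_symm]

theorem cnd_idem (r : Setoid Ω) (f : Ω → ℝ) : cnd r (cnd r f) = cnd r f :=
  cnd_le' (fun _ _ h => h) f

theorem cnd_mul {r : Setoid Ω} {g : Ω → ℝ} (h : ∀ ω ω', r ω ω' → g ω = g ω') (f : Ω → ℝ) :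
    cnd r (g * f) = g * cnd r f := by
  funext ω
  rw [Pi.mul_apply, cnd_apply, cnd_apply, ← mul_div_assoc, Finset.mul_sum]
  congr 1
  exact Finset.sum_congr rfl fun ω' h' => by rw [Pi.mul_apply, h ω ω' (mem_cls.1 h')]

theorem ip_cnd_self (r : Setoid Ω) (f : Ω → ℝ) : ip (cnd r f) (cnd r f) = ip f (cnd r f) := by
  rw [cnd_symm, cnd_idem]

theorem ip_cnd_le (r : Setoid Ω) (f : Ω → ℝ) : ip (cnd r f) (cnd r f) ≤ ip f f := by
  have := ip_self_nonneg (f - cnd r f)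
  rw [ip_sub_left, ip_sub_right, ip_sub_right, ip_cnd_self, ip_comm (cnd r f) f] at this
  rw [ip_cnd_self]
  linarith

theorem cnd_equiv {r r' : Setoid Ω} (e : Ω ≃ Ω) (h : ∀ ω ω', r (e ω) (e ω') ↔ r' ω ω')
    (f : Ω → ℝ) (ω : Ω) : cnd r' (f ∘ e) ω = cnd r f (e ω) := by
  have h1 : cls r (e ω) = (cls r' ω).map e.toEmbedding := by
    ext x
    simp only [mem_cls, Finset.mem_map_equiv]
    rw [← h ω (e.symm x), Equiv.apply_symm_apply]
  rw [cnd_apply, cnd_apply, h1, Finset.sum_map, Finset.card_map]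
  rfl

theorem cnd_pair {r : Setoid Ω} {ω t : Ω} (h : ∀ ω', r ω ω' ↔ ω' = ω ∨ ω' = t) (f : Ω → ℝ) :
    cnd r f ω = (f ω + f t) / 2 := by
  classical
  by_cases ht : t = ω
  · subst ht
    rw [cnd_const (c := f t) fun ω' h' => by rcases (h ω').1 h' with rfl | rfl <;> rfl]
    ring
  · have : cls r ω = {ω, t} := by
      ext x
      simp [mem_cls, h]
    rw [cnd_apply, this, Finset.sum_pair (Ne.symm ht), Finset.card_pair (Ne.symm ht)]
    norm_num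

/-- Restriction to an invariant set. -/
theorem cnd_restrict {r : Setoid Ω} {Y : Ω → Prop} [Fintype {ω // Y ω}]
    (hY : ∀ ω ω', Y ω → r ω ω' → Y ω') (r' : Setoid {ω // Y ω})
    (hr : ∀ ω ω', r' ω ω' ↔ r ω.1 ω'.1) (f : Ω → ℝ) (ω : {ω // Y ω}) :
    cnd r' (fun x => f x.1) ω = cnd r f ω.1 := by
  have h1 : cls r ω.1 = (cls r' ω).map (Function.Embedding.subtype Y) := by
    ext x
    simp only [mem_cls, Finset.mem_map, Function.Embedding.coe_subtype]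
    constructor
    · intro h
      exact ⟨⟨x, hY _ _ ω.2 h⟩, (hr _ _).2 h, rfl⟩
    · rintro ⟨y, h, rfl⟩
      exact (hr _ _).1 h
  rw [cnd_apply, cnd_apply, h1, Finset.sum_map, Finset.card_map]
  rfl

/-- Commutation of two averaging operators on an invariant set with a product structure. -/
theorem cnd_comm_on {r r' : Setoid Ω} {Y : Ω → Prop}
    (hY : ∀ ω ω', Y ω → r ω ω' → Y ω') (hY' : ∀ ω ω', Y ω → r' ω ω' → Y ω')
    (huniq : ∀ ω ω', Y ω → r ω ω' → r' ω ω' → ω = ω')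
    (hex : ∀ ω ω₁ ω₂, Y ω → r ω ω₁ → r' ω ω₂ → ∃ ω₃, r' ω₁ ω₃ ∧ r ω₂ ω₃)
    (f : Ω → ℝ) {ω : Ω} (hω : Y ω) : cnd r (cnd r' f) ω = cnd r' (cnd r f) ω := by
  classical
  choose! φ h1 h2 using hex
  -- bijections between classes
  have b1 : ∀ (g : Ω → ℝ) ω₁, r ω ω₁ →
      ∑ x ∈ cls r' ω₁, g x = ∑ ω₂ ∈ cls r' ω, g (φ ω ω₁ ω₂) := by
    intro g ω₁ hω₁
    symm
    refine Finset.sum_bij (fun ω₂ _ => φ ω ω₁ ω₂) (fun ω₂ h => mem_cls.2 (h1 _ _ _ hω hω₁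
      (mem_cls.1 h))) (fun a ha b hb e => ?_) (fun x hx => ?_) (fun _ _ => rfl)
    · have ha' := mem_cls.1 ha
      have hb' := mem_cls.1 hb
      refine huniq a b (hY' _ _ hω ha') (r.trans' (h2 _ _ _ hω hω₁ ha') ?_)
        (r'.trans' (r'.symm' ha') hb')
      rw [e]
      exact r.symm' (h2 _ _ _ hω hω₁ hb')
    · have hx' := mem_cls.1 hx
      have y1 := hY _ _ hω hω₁
      have a1 := h1 ω₁ ω x y1 (r.symm' hω₁) hx'
      have a2 := h2 ω₁ ω x y1 (r.symm' hω₁) hx'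
      refine ⟨φ ω₁ ω x, mem_cls.2 a1, ?_⟩
      have a3 := h1 ω ω₁ _ hω hω₁ a1
      have a4 := h2 ω ω₁ _ hω hω₁ a1
      exact (huniq x _ (hY' _ _ y1 hx') (r.trans' a2 a4) (r'.trans' (r'.symm' hx') a3)).symm
  have b2 : ∀ (g : Ω → ℝ) ω₂, r' ω ω₂ →
      ∑ x ∈ cls r ω₂, g x = ∑ ω₁ ∈ cls r ω, g (φ ω ω₁ ω₂) := by
    intro g ω₂ hω₂
    symm
    refine Finset.sum_bij (fun ω₁ _ => φ ω ω₁ ω₂) (fun ω₁ h => mem_cls.2 (h2 _ _ _ hω
      (mem_cls.1 h) hω₂)) (fun a ha b hb e => ?_) (fun x hx => ?_) (fun _ _ => rfl)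
    · have ha' := mem_cls.1 ha
      have hb' := mem_cls.1 hb
      refine huniq a b (hY _ _ hω ha') (r.trans' (r.symm' ha') hb')
        (r'.trans' (h1 _ _ _ hω ha' hω₂) ?_)
      rw [e]
      exact r'.symm' (h1 _ _ _ hω hb' hω₂)
    · have hx' := mem_cls.1 hx
      have y1 := hY' _ _ hω hω₂
      have a1 := h1 ω₂ x ω y1 hx' (r'.symm' hω₂)
      have a2 := h2 ω₂ x ω y1 hx' (r'.symm' hω₂)
      refine ⟨φ ω₂ x ω, mem_cls.2 a2, ?_⟩
      have a3 := h1 ω _ ω₂ hω a2 hω₂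
      have a4 := h2 ω _ ω₂ hω a2 hω₂
      exact (huniq x _ (hY _ _ y1 hx') (r.trans' (r.symm' hx') a4) (r'.trans' a1 a3)).symm
  have c1 : ∀ ω₁, r ω ω₁ → ((cls r' ω₁).card : ℝ) = (cls r' ω).card := by
    intro ω₁ h
    simpa using b1 (fun _ => 1) ω₁ h
  have c2 : ∀ ω₂, r' ω ω₂ → ((cls r ω₂).card : ℝ) = (cls r ω).card := by
    intro ω₂ h
    simpa using b2 (fun _ => 1) ω₂ h
  rw [cnd_apply, cnd_apply]
  rw [Finset.sum_congr rfl fun ω₁ h => by
    rw [cnd_apply, b1 f ω₁ (mem_cls.1 h), c1 ω₁ (mem_cls.1 h)]]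
  rw [Finset.sum_congr rfl (s₁ := cls r' ω) fun ω₂ h => by
    rw [cnd_apply, b2 f ω₂ (mem_cls.1 h), c2 ω₂ (mem_cls.1 h)]]
  rw [← Finset.sum_div, ← Finset.sum_div, Finset.sum_comm, div_right_comm]

end Vale.Agent.P335
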