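import Mathlib

namespace Vale.Agent.P335

open Finset

variable {V : Type} [Fintype V] [DecidableEq V]

open Classical in
/-- The set of labelled simple graphs on `V` in which each vertex `i` has degree `d i`. -/
noncomputable def omega (d : V → ℕ) : Finset (SimpleGraph V) :=
  univ.filter fun G => ∀ i, G.degree i = d i

/-- `F` is a perfect matching of the complete graph on the vertex set `S`. -/
def IsPM (S : Finset V) (F : Finset (Sym2 V)) : Prop :=
  (∀ e ∈ F, ¬ e.IsDiag ∧ ∀ v ∈ e, v ∈ S) ∧ ∀ v ∈ S, ∃! e, e ∈ F ∧ v ∈ e

open Classical in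
/-- The ordered pairs of distinct perfect matchings of the complete graph on `S`. -/
noncomputable def pmPairs (S : Finset V) : Finset (Finset (Sym2 V) × Finset (Sym2 V)) :=
  univ.filter fun q => IsPM S q.1 ∧ IsPM S q.2 ∧ q.1 ≠ q.2

open Classical in
/-- If all edges of `F` are present and all edges of `F'` are absent, replace `F` by `F'`;
otherwise stay put. -/
noncomputable def switch (G : SimpleGraph V) (F F' : Finset (Sym2 V)) : SimpleGraph V :=
  if (∀ e ∈ F, e ∈ G.edgeSet) ∧ (∀ e ∈ F', e ∉ G.edgeSet) then
    SimpleGraph.fromEdgeSet ((G.edgeSet \ (F : Set (Sym2 V))) ∪ (F' : Set (Sym2 V)))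
  else G

open Classical in
/-- The transition matrix of the switch chain on `omega d`: with probability `1/2` stay put;
otherwise choose a uniform `4`-element set `S`, then a uniform ordered pair of distinct perfect
matchings of the complete graph on `S`, and apply `switch`. -/
noncomputable def chain (d : V → ℕ) : Matrix (omega d) (omega d) ℝ := fun G G' =>
  1 / 2 * (if G = G' then 1 else 0) +
    1 / 2 * ∑ S ∈ powersetCard 4 (univ : Finset V), 1 / ((Fintype.card V).choose 4 : ℝ) *
      ∑ q ∈ pmPairs S, 1 / ((pmPairs S).card : ℝ) *
        (if switch G.1 q.1 q.2 = G'.1 then 1 else 0)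

open Classical in
/-- Total variation distance between the law of the chain after `t` steps from `G` and the uniform
distribution on `omega d`. -/
noncomputable def tvDist (d : V → ℕ) (t : ℕ) (G : omega d) : ℝ :=
  1 / 2 * ∑ G' : omega d, |(chain d ^ t) G G' - 1 / ((omega d).card : ℝ)|

/-- The times at which the chain is within `1/4` of uniform from every starting point. -/
def mixedTimes (d : V → ℕ) : Set ℕ := {t | ∀ G : omega d, tvDist d t G ≤ 1 / 4}

/-- The mixing time. -/
noncomputable def tmix (d : V → ℕ) : ℕ := sInf (mixedTimes d)

end Vale.Agent.P335
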