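import Vale.Agent.P335.Johnson

namespace Vale.Agent.P335

open Finset

variable {C : Type*} [DecidableEq C]

/-- Sets of size `m` between `L` and `W`. -/
def fam (L W : Finset C) (m : ℕ) : Finset (Finset C) := (powersetCard m W).filter (L ⊆ ·)

theorem mem_fam {L W Z : Finset C} {m : ℕ} : Z ∈ fam L W m ↔ L ⊆ Z ∧ Z ⊆ W ∧ Z.card = m := by
  simp only [fam, Finset.mem_filter, Finset.mem_powersetCard]
  tauto

theorem card_fam {L W : Finset C} {m : ℕ} (h : L ⊆ W) (hm : L.card ≤ m) :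
    (fam L W m).card = (W.card - L.card).choose (m - L.card) := by
  rw [← Finset.card_sdiff_of_subset h, ← Finset.card_powersetCard]
  refine Finset.card_bij (fun Z _ => Z \ L) (fun Z hZ => ?_) (fun Z hZ Z' hZ' e => ?_)
    (fun T hT => ?_)
  · obtain ⟨a, b, c⟩ := mem_fam.1 hZ
    exact Finset.mem_powersetCard.2 ⟨Finset.sdiff_subset_sdiff b le_rfl, by
      rw [Finset.card_sdiff_of_subset a, c]⟩
  · rw [← Finset.sdiff_union_of_subset (mem_fam.1 hZ).1, e,
      Finset.sdiff_union_of_subset (mem_fam.1 hZ').1]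
  · obtain ⟨a, b⟩ := Finset.mem_powersetCard.1 hT
    have hd : Disjoint T L := Finset.disjoint_of_subset_left a Finset.sdiff_disjoint
    refine ⟨T ∪ L, mem_fam.2 ⟨Finset.subset_union_right,
      Finset.union_subset (a.trans Finset.sdiff_subset) h, ?_⟩, ?_⟩
    · rw [Finset.card_union_of_disjoint hd]
      omega
    · exact Finset.union_sdiff_cancel_right hd

theorem biregular {Y : Type*} (U U' : Finset Y) (ρ : Y → Y → Prop) [∀ u u', Decidable (ρ u u')]
    {a b : ℕ} (ha : 0 < a) (h1 : ∀ u ∈ U, (U'.filter fun u' => ρ u u').card = a)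
    (h2 : ∀ u' ∈ U', (U.filter fun u => ρ u u').card = b) (F : Y → ℝ) {M : ℝ}
    (h : ∀ u ∈ U, ∀ u' ∈ U', ρ u u' → |F u - F u'| ≤ M) (hU' : U'.Nonempty) :
    |∑ u ∈ U, F u - U.card * ((∑ u' ∈ U', F u') / U'.card)| ≤ U.card * M := by
  have e1 : ∀ G : Y → ℝ, ∑ u ∈ U, ∑ u' ∈ U', (if ρ u u' then G u else 0) = a * ∑ u ∈ U, G u := by
    intro G
    rw [Finset.mul_sum]
    refine Finset.sum_congr rfl fun u hu => ?_
    rw [← Finset.sum_filter, Finset.sum_const, h1 u hu, nsmul_eq_mul]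
  have e2 : ∀ G : Y → ℝ, ∑ u ∈ U, ∑ u' ∈ U', (if ρ u u' then G u' else 0) =
      b * ∑ u' ∈ U', G u' := by
    intro G
    rw [Finset.mul_sum, Finset.sum_comm]
    refine Finset.sum_congr rfl fun u hu => ?_
    rw [← Finset.sum_filter, Finset.sum_const, h2 u hu, nsmul_eq_mul]
  have e3 : (a : ℝ) * U.card = b * U'.card := by
    have := (e1 fun _ => 1).symm.trans (e2 fun _ => 1)
    simpa using this
  have e4 : |(a : ℝ) * ∑ u ∈ U, F u - b * ∑ u' ∈ U', F u'| ≤ a * (U.card * M) := by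
    rw [← e1, ← e2, ← Finset.sum_sub_distrib]
    have := e1 fun _ => M
    rw [Finset.sum_const, nsmul_eq_mul] at this
    rw [← this]
    refine (Finset.abs_sum_le_sum_abs _ _).trans (Finset.sum_le_sum fun u hu => ?_)
    rw [← Finset.sum_sub_distrib]
    refine (Finset.abs_sum_le_sum_abs _ _).trans (Finset.sum_le_sum fun u' hu' => ?_)
    split_ifs with hρ
    · exact h u hu u' hu' hρ
    · simp
  have a0 : (0 : ℝ) < a := by exact_mod_cast ha
  have c0 : (0 : ℝ) < U'.card := by exact_mod_cast hU'.card_pos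
  have e5 : (b : ℝ) * ∑ u' ∈ U', F u' = a * (U.card * ((∑ u' ∈ U', F u') / U'.card)) := by
    rw [← mul_assoc, e3]
    field_simp
  rw [e5, ← mul_sub, abs_mul, abs_of_pos a0] at e4
  exact le_of_mul_le_mul_left e4 a0

/-- A finset parametrised by a family of sets. -/
structure Param {Y : Type*} (U : Finset Y) (κ : Y → Finset C) (L W : Finset C) (m : ℕ) :
    Prop where
  maps : ∀ u ∈ U, κ u ∈ fam L W m
  inj : ∀ u ∈ U, ∀ u' ∈ U, κ u = κ u' → u = u'
  surj : ∀ Z ∈ fam L W m, ∃ u ∈ U, κ u = Z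

theorem Param.card_filter {Y : Type*} {U : Finset Y} {κ : Y → Finset C} {L W : Finset C} {m : ℕ}
    (h : Param U κ L W m) (p : Finset C → Prop) [DecidablePred p] :
    (U.filter fun u => p (κ u)).card = ((fam L W m).filter p).card := by
  refine Finset.card_bij (fun u _ => κ u) (fun u hu => ?_) (fun u hu u' hu' e => ?_)
    (fun Z hZ => ?_)
  · rw [Finset.mem_filter] at hu ⊢
    exact ⟨h.maps u hu.1, hu.2⟩
  · exact h.inj u (Finset.mem_filter.1 hu).1 u' (Finset.mem_filter.1 hu').1 e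
  · rw [Finset.mem_filter] at hZ
    obtain ⟨u, hu, rfl⟩ := h.surj Z hZ.1
    exact ⟨u, Finset.mem_filter.2 ⟨hu, hZ.2⟩, rfl⟩

theorem fam_filter_sup {L W Z : Finset C} {m m' : ℕ} (hZ : Z ∈ fam L W m) (hm : m ≤ m') :
    ((fam L W m').filter fun Z' => Z ⊆ Z').card = (W.card - m).choose (m' - m) := by
  obtain ⟨a, b, c⟩ := mem_fam.1 hZ
  rw [← c, ← card_fam b (c ▸ hm)]
  congr 1
  ext Z'
  simp only [Finset.mem_filter, mem_fam]
  exact ⟨fun h => ⟨h.2, h.1.2⟩, fun h => ⟨⟨a.trans h.1, h.2⟩, h.1⟩⟩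

theorem fam_filter_sub {L W Z : Finset C} {m m' : ℕ} (hZ : Z ∈ fam L W m) (hm : L.card ≤ m') :
    ((fam L W m').filter fun Z' => Z' ⊆ Z).card = (m - L.card).choose (m' - L.card) := by
  obtain ⟨a, b, c⟩ := mem_fam.1 hZ
  rw [← c, ← card_fam a hm]
  congr 1
  ext Z'
  simp only [Finset.mem_filter, mem_fam]
  exact ⟨fun h => ⟨h.1.1, h.2, h.1.2.2⟩, fun h => ⟨⟨h.1, h.2.1.trans b, h.2.2⟩, h.2.1⟩⟩

theorem avg_param {Y : Type*} {U U' : Finset Y} {κ : Y → Finset C} {L W : Finset C} {m m' : ℕ}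
    (h : Param U κ L W m) (h' : Param U' κ L W m') (F : Y → ℝ) {M : ℝ}
    (hF : ∀ u ∈ U, ∀ u' ∈ U', (κ u ⊆ κ u' ∨ κ u' ⊆ κ u) → |F u - F u'| ≤ M) (hU : U.Nonempty)
    (hU' : U'.Nonempty) :
    |∑ u ∈ U, F u - U.card * ((∑ u' ∈ U', F u') / U'.card)| ≤ U.card * M := by
  obtain ⟨u₀, hu₀⟩ := hU
  obtain ⟨u₁, hu₁⟩ := hU'
  obtain ⟨a0, b0, c0⟩ := mem_fam.1 (h.maps _ hu₀)
  obtain ⟨a1, b1, c1⟩ := mem_fam.1 (h'.maps _ hu₁)
  have d0 := Finset.card_le_card a0
  have d1 := Finset.card_le_card a1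
  have e0 := Finset.card_le_card b0
  have e1 := Finset.card_le_card b1
  rcases le_total m m' with hm | hm
  · refine biregular U U' (fun u u' => κ u ⊆ κ u') (a := (W.card - m).choose (m' - m))
      (b := (m' - L.card).choose (m - L.card)) (Nat.choose_pos (by omega)) (fun u hu => ?_)
      (fun u hu => ?_) F (fun u hu u' hu' e => hF u hu u' hu' (Or.inl e)) ⟨u₁, hu₁⟩
    · rw [h'.card_filter (fun Z => κ u ⊆ Z), fam_filter_sup (h.maps u hu) hm]
    · rw [h.card_filter (fun Z => Z ⊆ κ u), fam_filter_sub (h'.maps u hu) (by omega)]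
  · refine biregular U U' (fun u u' => κ u' ⊆ κ u) (b := (W.card - m').choose (m - m'))
      (a := (m - L.card).choose (m' - L.card)) (Nat.choose_pos (by omega)) (fun u hu => ?_)
      (fun u hu => ?_) F (fun u hu u' hu' e => hF u hu u' hu' (Or.inr e)) ⟨u₁, hu₁⟩
    · rw [h'.card_filter (fun Z => Z ⊆ κ u), fam_filter_sub (h.maps u hu) (by omega)]
    · rw [h.card_filter (fun Z => κ u ⊆ Z), fam_filter_sup (h'.maps u hu) hm]

theorem card_inter_le_of_subset {Z Z' : Finset C} (A : Finset C) (h : Z ⊆ Z') :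
    (Z ∩ A).card ≤ (Z' ∩ A).card ∧ (Z' ∩ A).card + Z.card ≤ (Z ∩ A).card + Z'.card := by
  refine ⟨Finset.card_le_card (Finset.inter_subset_inter h le_rfl), ?_⟩
  have h1 := Finset.card_sdiff_add_card_inter Z A
  have h2 := Finset.card_sdiff_add_card_inter Z' A
  have h3 := Finset.card_le_card (Finset.sdiff_subset_sdiff h (le_refl A))
  omega

end Vale.Agent.P335
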