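import Vale.Agent.P335.Graph

namespace Vale.Agent.P335

open Finset

variable {V : Type} [Fintype V] [DecidableEq V] {d : V → ℕ}

theorem sum_nonneg_of_cls {Ω : Type*} [Fintype Ω] (r : Setoid Ω) (Φ : Ω → ℝ)
    (h : ∀ ω₀, 0 ≤ ∑ ω ∈ cls r ω₀, Φ ω) : 0 ≤ ∑ ω, Φ ω := by
  have := cnd_symm r Φ 1
  rw [cnd_fix (f := 1) fun _ _ _ => rfl] at this
  simp only [ip, Pi.one_apply, mul_one] at this
  rw [← this]
  exact Finset.sum_nonneg fun ω _ => div_nonneg (h ω) (card_cls_pos r ω).le

theorem exists_sw {u v x y : V} (h : Dist4 u v x y) (G : omega d) :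
    ∃ G', (∀ G'', rel d (BS u v x y) G G'' ↔ G'' = G ∨ G'' = G') ∧
      (DD u v x y G → (G'.1.Adj u x ↔ ¬ G.1.Adj u x) ∧ (G'.1.Adj u y ↔ ¬ G.1.Adj u y)) ∧
      (¬ DD u v x y G → G' = G) := by
  have ext : ∀ G₁ G₂ : omega d, rel d (BS u v x y) G₁ G₂ → (G₁.1.Adj u x ↔ G₂.1.Adj u x) →
      G₂ = G₁ := by
    intro G₁ G₂ h4 h5
    obtain ⟨a, b⟩ := colsum2 h (rel_mono (BS_le h) _ _ h4)
    obtain ⟨c, e⟩ := rowsum h (rel_mono (BS_le' h) _ _ h4)
    have h3 : rel d (fun _ _ => False) G₁ G₂ := by
      have := ad_cases G₁.1 u x; have := ad_cases G₁.1 u y; have := ad_cases G₁.1 v x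
      have := ad_cases G₁.1 v y; have := ad_cases G₂.1 u x; have := ad_cases G₂.1 u y
      have := ad_cases G₂.1 v x; have := ad_cases G₂.1 v y
      refine rel_of_block h4 (fun _ _ h => Or.inr h) ?_ ?_ ?_ ?_ <;> grind
    exact omega_ext fun p q => (h3 p q not_false).symm
  by_cases hD : DD u v x y G
  · obtain ⟨H, a, b1, b2, b3, b4⟩ := exists_block h G.1 (¬ G.1.Adj u x) (¬ G.1.Adj u y)
      (¬ G.1.Adj v x) (¬ G.1.Adj v y)
    have hH : H ∈ omega d := by
      unfold DD at hD
      have := ad_cases G.1 u x; have := ad_cases G.1 u y; have := ad_cases G.1 v x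
      have := ad_cases G.1 v y; have := ad_cases H u x; have := ad_cases H u y
      have := ad_cases H v x; have := ad_cases H v y
      refine block_mem h G a ?_ ?_ ?_ ?_ <;> grind
    have hS : rel d (BS u v x y) G ⟨H, hH⟩ := fun p q hb => (a p q hb).symm
    refine ⟨⟨H, hH⟩, fun G'' => ⟨fun h1 => ?_, ?_⟩, fun _ => ⟨b1, b2⟩, fun h' => absurd hD h'⟩
    · by_cases h2 : G.1.Adj u x ↔ G''.1.Adj u x
      · exact Or.inl (ext _ _ h1 h2)
      · exact Or.inr (ext _ _ ((rel d _).trans' ((rel d _).symm' hS) h1) (by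
          show H.Adj u x ↔ _
          tauto))
    · rintro (rfl | rfl)
      · exact (rel d _).refl' _
      · exact hS
  · refine ⟨G, fun G'' => ⟨fun h1 => Or.inl (ext _ _ h1 ?_), ?_⟩, fun h' => absurd h' hD,
      fun _ => rfl⟩
    · obtain ⟨a, b⟩ := colsum2 h (rel_mono (BS_le h) _ _ h1)
      obtain ⟨c, e⟩ := rowsum h (rel_mono (BS_le' h) _ _ h1)
      unfold DD at hD
      have := ad_cases G.1 u x; have := ad_cases G.1 u y; have := ad_cases G.1 v x
      have := ad_cases G.1 v y; have := ad_cases G''.1 u x; have := ad_cases G''.1 u y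
      have := ad_cases G''.1 v x; have := ad_cases G''.1 v y
      grind
    · rintro (rfl | rfl) <;> exact (rel d _).refl' _

open Classical in
/-- The switch on rows `u, v` and columns `x, y`. -/
noncomputable def sw (u v x y : V) (G : omega d) : omega d :=
  if h : Dist4 u v x y then (exists_sw h G).choose else G

theorem sw_spec {u v x y : V} (h : Dist4 u v x y) (G : omega d) :
    (∀ G'', rel d (BS u v x y) G G'' ↔ G'' = G ∨ G'' = sw u v x y G) ∧
      (DD u v x y G → ((sw u v x y G).1.Adj u x ↔ ¬ G.1.Adj u x) ∧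
        ((sw u v x y G).1.Adj u y ↔ ¬ G.1.Adj u y)) ∧ (¬ DD u v x y G → sw u v x y G = G) := by
  rw [sw, dif_pos h]
  exact (exists_sw h G).choose_spec

theorem co_sw {u v x y : V} (h : Dist4 u v x y) (g : omega d → ℝ) (G : omega d) :
    co (rel d (BS u v x y)) g G = (g G - g (sw u v x y G)) / 2 := by
  rw [co_apply, Pi.sub_apply, cnd_pair (sw_spec h G).1]
  ring

set_option maxHeartbeats 1000000 in
open Classical in
theorem graph_johnson {u v : V} (huv : u ≠ v) (g : omega d → ℝ)
    (hg : cnd (rel d (BP u v)) g = 0) :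
    ∑ x, ∑ y, (if Dist4 u v x y then loss u v x y g else 0) + 2 * ip g g ≤
      ∑ x, ∑ y, if Dist4 u v x y then
        ip (co (rel d (BS u v x y)) g) (co (rel d (BS u v x y)) g) else 0 := by
  have key := sum_nonneg_of_cls (rel d (BP u v)) (fun ω => ∑ x, ∑ y,
    (if Dist4 u v x y then (co (rel d (BS u v x y)) g ω) ^ 2 -
      (chi (DD u v x y) ω * cnd (rel d (BP u v) ⊓ Setoid.ker (DD u v x y)) g ω) ^ 2 else 0) -
      2 * (g ω * g ω)) ?_
  · rw [Finset.sum_sub_distrib, ← Finset.mul_sum, Finset.sum_comm] at key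
    have : ∑ x, ∑ ω, ∑ y, (if Dist4 u v x y then (co (rel d (BS u v x y)) g ω) ^ 2 -
        (chi (DD u v x y) ω * cnd (rel d (BP u v) ⊓ Setoid.ker (DD u v x y)) g ω) ^ 2 else 0) =
        (∑ x, ∑ y, if Dist4 u v x y then
          ip (co (rel d (BS u v x y)) g) (co (rel d (BS u v x y)) g) else 0) -
        ∑ x, ∑ y, (if Dist4 u v x y then loss u v x y g else 0) := by
      rw [← Finset.sum_sub_distrib]
      refine Finset.sum_congr rfl fun x _ => ?_
      rw [Finset.sum_comm, ← Finset.sum_sub_distrib]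
      refine Finset.sum_congr rfl fun y _ => ?_
      split_ifs
      · simp only [ip, loss, Finset.sum_sub_distrib, sq]
      · simp
    rw [this] at key
    unfold ip at *
    linarith
  · intro ω₀
    set P := rel d (BP u v) with hP
    set act : Finset V := univ.filter fun w => w ≠ u ∧ w ≠ v ∧
      ¬ (ω₀.1.Adj u w ↔ ω₀.1.Adj v w) with hact
    have mact : ∀ w, w ∈ act ↔ w ≠ u ∧ w ≠ v ∧ ¬ (ω₀.1.Adj u w ↔ ω₀.1.Adj v w) := fun w => by
      simp only [hact, Finset.mem_filter, Finset.mem_univ, true_and]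
    have cs : ∀ (ω : omega d), P ω₀ ω → ∀ w, w ≠ u → w ≠ v →
        (w ∈ act → ¬ (ω.1.Adj u w ↔ ω.1.Adj v w)) ∧
        (w ∉ act → (ω.1.Adj u w ↔ ω₀.1.Adj u w) ∧ (ω.1.Adj v w ↔ ω.1.Adj u w)) := by
      intro ω hω w h1 h2
      have := colsum huv h1 h2 hω
      have := mact w
      have := ad_cases ω.1 u w; have := ad_cases ω.1 v w; have := ad_cases ω₀.1 u w
      have := ad_cases ω₀.1 v w
      grind
    have row : ∀ (ω : omega d), P ω₀ ω → ∀ w, w ∉ act → (ω.1.Adj u w ↔ ω₀.1.Adj u w) := by
      intro ω hω w hw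
      by_cases h1 : w = u
      · simp [h1]
      · by_cases h2 : w = v
        · exact (hω u w (by unfold BP; grind)).symm
        · exact ((cs ω hω w h1 h2).2 hw).1
    let mem : {ω // P ω₀ ω} → Finset V := fun ω => act.filter fun w => ω.1.1.Adj u w
    have mmem : ∀ ω w, w ∈ mem ω ↔ w ∈ act ∧ ω.1.1.Adj u w := fun ω w => Finset.mem_filter
    have swP : ∀ x y (ω : omega d), P ω (sw u v x y ω) := by
      intro x y ω
      by_cases h : Dist4 u v x y
      · exact rel_mono (BS_le h) _ _ (((sw_spec h ω).1 _).2 (Or.inr rfl))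
      · rw [sw, dif_neg h]
    let t : V → V → {ω // P ω₀ ω} → {ω // P ω₀ ω} := fun x y ω =>
      ⟨sw u v x y ω.1, P.trans' ω.2 (swP x y ω.1)⟩
    have d4 : ∀ x ∈ act, ∀ y ∈ act, x ≠ y → Dist4 u v x y := by
      intro x hx y hy hxy
      have := (mact x).1 hx
      have := (mact y).1 hy
      unfold Dist4
      grind
    have hSep : ∀ x ∈ act, ∀ y ∈ act, ∀ ω : {ω // P ω₀ ω},
        DD u v x y ω.1 ↔ ¬ (x ∈ mem ω ↔ y ∈ mem ω) := by
      intro x hx y hy ω
      have a := (cs ω.1 ω.2 x ((mact x).1 hx).1 ((mact x).1 hx).2.1).1 hx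
      have b := (cs ω.1 ω.2 y ((mact y).1 hy).1 ((mact y).1 hy).2.1).1 hy
      rw [mmem, mmem]
      unfold DD
      grind
    have J := johnson act mem (fun ω => Finset.filter_subset _ _) ?_ ?_ t ?_
      (fun x y ω => DD u v x y ω.1) hSep (fun ω => g ω.1) ?_
    · rw [Finset.sum_subtype (cls P ω₀) (p := fun ω => P ω₀ ω) (fun ω => mem_cls),
        Finset.sum_sub_distrib, ← Finset.mul_sum, sub_nonneg]
      rw [← le_sub_iff_add_le', ← Finset.sum_sub_distrib] at J
      refine J.trans ?_
      rw [Finset.sum_comm]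
      have nn : ∀ x y (ω : {ω // P ω₀ ω}), (x ∉ act ∨ y ∉ act) →
          0 ≤ (if Dist4 u v x y then (co (rel d (BS u v x y)) g ω.1) ^ 2 -
          (chi (DD u v x y) ω.1 * cnd (P ⊓ Setoid.ker (DD u v x y)) g ω.1) ^ 2 else 0) := by
        intro x y ω hxy
        split_ifs with h
        · rw [chi_neg, zero_mul]
          · simpa using sq_nonneg _
          · have a := cs ω.1 ω.2 x h.2.1.symm h.2.2.2.1.symm
            have b := cs ω.1 ω.2 y h.2.2.1.symm h.2.2.2.2.1.symm
            unfold DD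
            grind
        · rfl
      refine le_trans (Finset.sum_le_sum fun x hx => ?_)
        (Finset.sum_le_sum_of_subset_of_nonneg (Finset.subset_univ act) fun x _ hx =>
          Finset.sum_nonneg fun ω _ => Finset.sum_nonneg fun y _ => nn x y ω (Or.inl hx))
      rw [Finset.sum_comm (s := univ), ← Finset.sum_sub_distrib]
      refine le_trans (le_of_eq (Finset.sum_congr rfl fun y hy => ?_))
        (Finset.sum_le_sum_of_subset_of_nonneg (Finset.subset_univ act) fun y _ hy =>
          Finset.sum_nonneg fun ω _ => nn x y ω (Or.inr hy))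
      rw [← Finset.sum_sub_distrib]
      refine Finset.sum_congr rfl fun ω _ => ?_
      by_cases hxy : x = y
      · have h1 : ¬ Dist4 u v x y := fun h => h.2.2.2.2.2 hxy
        have h2 : sw u v x y ω.1 = ω.1 := by rw [sw, dif_neg h1]
        rw [if_neg h1, chi_neg (by rw [hSep x hx y hy, hxy]; simp)]
        simp [t, h2]
      · rw [if_pos (d4 x hx y hy hxy), co_sw (d4 x hx y hy hxy),
          cnd_restrict (r := P ⊓ Setoid.ker (DD u v x y)) (fun a b p q => P.trans' p q.1)
            (Setoid.ker fun ω : {ω // P ω₀ ω} => DD u v x y ω.1) (fun a b => ⟨fun q => ⟨P.trans' (P.symm' a.2) b.2, q⟩, fun q => q.2⟩)]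
        rfl
    · have : ∀ ω : {ω // P ω₀ ω}, ((mem ω).card : ℤ) = d u - ∑ w ∈ actᶜ, ad ω₀.1 u w := by
        intro ω
        rw [← dg_eq ω.1 u, dg, ← Finset.sum_add_sum_compl act,
          Finset.sum_congr rfl fun w hw => ad_congr (row ω.1 ω.2 w (Finset.mem_compl.1 hw))]
        simp [mem, ad, Finset.sum_boole]
      intro ω ω'
      exact_mod_cast (this ω).trans (this ω').symm
    · intro ω ω' e
      have r1 : ∀ w, ω.1.1.Adj u w ↔ ω'.1.1.Adj u w := by
        intro w
        by_cases hw : w ∈ act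
        · have := mmem ω w
          rw [e, mmem] at this
          tauto
        · exact (row _ ω.2 w hw).trans (row _ ω'.2 w hw).symm
      have r2 : ∀ w, w ≠ u → w ≠ v → (ω.1.1.Adj v w ↔ ω'.1.1.Adj v w) := by
        intro w h1 h2
        have := cs _ ω.2 w h1 h2
        have := cs _ ω'.2 w h1 h2
        have := r1 w
        grind
      refine Subtype.ext (omega_ext fun a b => ?_)
      by_cases hb : BP u v a b
      · rcases hb with ⟨rfl | rfl, p, q⟩ | ⟨rfl | rfl, p, q⟩
        · exact r1 _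
        · exact r2 _ p q
        · rw [SimpleGraph.adj_comm, ω'.1.1.adj_comm]
          exact r1 _
        · rw [SimpleGraph.adj_comm, ω'.1.1.adj_comm]
          exact r2 _ p q
      · exact (P.trans' (P.symm' ω.2) ω'.2) a b hb
    · intro x hx y hy ω c
      by_cases hD : DD u v x y ω.1
      · have hxy : x ≠ y := by
          rintro rfl
          exact (hSep x hx x hx ω).1 hD Iff.rfl
        obtain ⟨s1, s2, -⟩ := sw_spec (d4 x hx y hy hxy) ω.1
        obtain ⟨s3, s4⟩ := s2 hD
        have s5 := (s1 _).2 (Or.inr rfl)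
        rw [mmem, mmem, Equiv.swap_apply_def]
        unfold DD at hD
        split_ifs with h1 h2
        · subst h1
          show _ ∧ (sw u v c y ω.1).1.Adj u c ↔ _
          tauto
        · subst h2
          show _ ∧ (sw u v x c ω.1).1.Adj u c ↔ _
          tauto
        · exact and_congr_right fun _ => (s5 u c (by
            have := d4 x hx y hy hxy
            unfold BS Dist4 at *
            grind)).symm
      · have e : t x y ω = ω := by
          refine Subtype.ext ?_
          show sw u v x y ω.1 = ω.1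
          by_cases h : Dist4 u v x y
          · exact (sw_spec h ω.1).2.2 hD
          · rw [sw, dif_neg h]
        rw [hSep x hx y hy, not_not] at hD
        rw [e, Equiv.swap_apply_def]
        split_ifs with h1 h2
        · rw [h1, hD]
        · rw [h2, hD]
        · rfl
    · have := congrFun hg ω₀
      rw [cnd_apply, Pi.zero_apply, div_eq_zero_iff] at this
      rw [← Finset.sum_subtype (cls P ω₀) (p := fun ω => P ω₀ ω) (fun ω => mem_cls)]
      exact this.resolve_right (card_cls_pos _ _).ne'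

end Vale.Agent.P335
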