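import Vale.Agent.P335.Pair
import Vale.Agent.P335.Defs

namespace Vale.Agent.P335

open Finset

variable {V : Type} [Fintype V] [DecidableEq V] {d : V → ℕ}

open Classical in
/-- Adjacency indicator. -/
noncomputable def ad (G : SimpleGraph V) (a b : V) : ℤ := if G.Adj a b then 1 else 0

theorem ad_cases (G : SimpleGraph V) (a b : V) :
    (G.Adj a b ∧ ad G a b = 1) ∨ (¬ G.Adj a b ∧ ad G a b = 0) := by
  by_cases h : G.Adj a b
  · exact Or.inl ⟨h, if_pos h⟩
  · exact Or.inr ⟨h, if_neg h⟩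

theorem ad_bd (G : SimpleGraph V) (a b : V) : 0 ≤ ad G a b ∧ ad G a b ≤ 1 := by
  rcases ad_cases G a b with ⟨-, q⟩ | ⟨-, q⟩ <;> omega

theorem ad_congr {G G' : SimpleGraph V} {a b a' b' : V} (h : G.Adj a b ↔ G'.Adj a' b') :
    ad G a b = ad G' a' b' := by
  rcases ad_cases G a b with ⟨p, q⟩ | ⟨p, q⟩ <;> rcases ad_cases G' a' b' with ⟨p', q'⟩ | ⟨p', q'⟩ <;>
    first | omega | tauto

theorem ad_comm (G : SimpleGraph V) (a b : V) : ad G a b = ad G b a := ad_congr (G.adj_comm a b)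

theorem ad_self (G : SimpleGraph V) (a : V) : ad G a a = 0 := if_neg (G.irrefl)

/-- Degree as a sum. -/
noncomputable def dg (G : SimpleGraph V) (a : V) : ℤ := ∑ b, ad G a b

theorem mem_omega {G : SimpleGraph V} : G ∈ omega d ↔ ∀ a, dg G a = d a := by
  classical
  have : ∀ a, dg G a = (G.degree a : ℕ) := by
    intro a
    rw [dg, ← SimpleGraph.card_neighborFinset_eq_degree, SimpleGraph.neighborFinset_eq_filter]
    simp only [ad, Finset.sum_boole]
  simp only [omega, Finset.mem_filter, Finset.mem_univ, true_and, this, Nat.cast_inj]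

theorem dg_eq (G : omega d) (a : V) : dg G.1 a = d a := mem_omega.1 G.2 a

/-- A graph from a symmetric irreflexive relation. -/
def mkG (r : V → V → Prop) (h1 : ∀ a b, r a b → r b a) (h2 : ∀ a, ¬ r a a) : SimpleGraph V :=
  ⟨r, ⟨h1⟩, ⟨h2⟩⟩

theorem dg_congr {G G' : SimpleGraph V} {c : V} (h : ∀ e, G.Adj c e ↔ G'.Adj c e) :
    dg G c = dg G' c := Finset.sum_congr rfl fun e _ => ad_congr (h e)

theorem dg_two {G G' : SimpleGraph V} {c a b : V} (hab : a ≠ b)
    (h : ∀ e, e ≠ a → e ≠ b → (G.Adj c e ↔ G'.Adj c e)) :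
    dg G c - dg G' c = ad G c a + ad G c b - (ad G' c a + ad G' c b) := by
  rw [dg, dg, ← Finset.sum_sub_distrib, Fintype.sum_eq_add a b hab fun e he => by
    rw [ad_congr (h e he.1 he.2), sub_self]]
  ring

/-- Agreement off a block of pairs. -/
def rel (d : V → ℕ) (B : V → V → Prop) : Setoid (omega d) where
  r G G' := ∀ a b, ¬ B a b → (G.1.Adj a b ↔ G'.1.Adj a b)
  iseqv := ⟨fun _ _ _ _ => Iff.rfl, fun h a b hb => (h a b hb).symm,
    fun h h' a b hb => (h a b hb).trans (h' a b hb)⟩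

theorem rel_def {B : V → V → Prop} {G G' : omega d} :
    rel d B G G' ↔ ∀ a b, ¬ B a b → (G.1.Adj a b ↔ G'.1.Adj a b) := Iff.rfl

theorem rel_mono {B B' : V → V → Prop} (h : ∀ a b, B a b → B' a b) (G G' : omega d)
    (hG : rel d B G G') : rel d B' G G' := fun a b hb => hG a b fun h' => hb (h a b h')

theorem omega_ext {G G' : omega d} (h : ∀ a b, G.1.Adj a b ↔ G'.1.Adj a b) : G = G' :=
  Subtype.ext (by ext a b; exact h a b)

/-- Combination of two graphs along a block. -/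
def mix (B : V → V → Prop) (hB : ∀ a b, B a b → B b a) (G G' : SimpleGraph V) : SimpleGraph V :=
  mkG (fun a b => (B a b ∧ G.Adj a b) ∨ (¬ B a b ∧ G'.Adj a b))
    (fun a b h => h.imp (fun h => ⟨hB _ _ h.1, h.2.symm⟩)
      fun h => ⟨fun h' => h.1 (hB _ _ h'), h.2.symm⟩)
    (fun a h => h.elim (fun h => G.irrefl h.2) fun h => G'.irrefl h.2)

theorem mix_pos {B : V → V → Prop} {hB : ∀ a b, B a b → B b a} {G G' : SimpleGraph V} {a b : V}
    (h : B a b) : (mix B hB G G').Adj a b ↔ G.Adj a b := by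
  show _ ∨ _ ↔ _
  tauto

theorem mix_neg {B : V → V → Prop} {hB : ∀ a b, B a b → B b a} {G G' : SimpleGraph V} {a b : V}
    (h : ¬ B a b) : (mix B hB G G').Adj a b ↔ G'.Adj a b := by
  show _ ∨ _ ↔ _
  tauto

theorem dg_three {G G₁ G₂ G₃ : SimpleGraph V} {c : V}
    (h : ∀ e, ((G₃.Adj c e ↔ G₁.Adj c e) ∧ (G₂.Adj c e ↔ G.Adj c e)) ∨
      ((G₃.Adj c e ↔ G₂.Adj c e) ∧ (G₁.Adj c e ↔ G.Adj c e))) :
    dg G₃ c = dg G₁ c + dg G₂ c - dg G c := by
  simp only [dg, ← Finset.sum_add_distrib, ← Finset.sum_sub_distrib]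
  refine Finset.sum_congr rfl fun e _ => ?_
  rcases h e with ⟨p, q⟩ | ⟨p, q⟩ <;> rw [ad_congr p, ad_congr q] <;> ring

theorem rel_comm {B B' : V → V → Prop} (hB : ∀ a b, B a b → B b a)
    (hd : ∀ a b, B a b → ¬ B' a b) (f : omega d → ℝ) :
    cnd (rel d B) (cnd (rel d B') f) = cnd (rel d B') (cnd (rel d B) f) := by
  funext ω
  refine cnd_comm_on (Y := fun _ => True) (fun _ _ _ _ => trivial) (fun _ _ _ _ => trivial)
    (fun ω ω' _ h h' => omega_ext fun a b => ?_) (fun ω ω₁ ω₂ _ h1 h2 => ?_) f trivial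
  · by_cases hb : B a b
    · exact h' a b (hd a b hb)
    · exact h a b hb
  · refine ⟨⟨mix B hB ω₁.1 ω₂.1, mem_omega.2 fun c => ?_⟩, fun a b hb => ?_, fun a b hb => ?_⟩
    · rw [dg_three (G := ω.1) (G₁ := ω₁.1) (G₂ := ω₂.1), dg_eq, dg_eq, dg_eq]
      · ring
      · intro e
        by_cases hb : B c e
        · exact Or.inl ⟨mix_pos hb, (h2 c e (hd c e hb)).symm⟩
        · exact Or.inr ⟨mix_neg hb, (h1 c e hb).symm⟩
    · by_cases hb' : B a b
      · exact (mix_pos (hB := hB) hb').symm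
      · exact ((h1 a b hb').symm.trans (h2 a b hb)).trans (mix_neg (hB := hB) hb').symm
    · exact (mix_neg (hB := hB) hb).symm

/-- Pairs between `{u, v}` and the other vertices. -/
def BP (u v a b : V) : Prop :=
  ((a = u ∨ a = v) ∧ b ≠ u ∧ b ≠ v) ∨ ((b = u ∨ b = v) ∧ a ≠ u ∧ a ≠ v)

/-- Pairs between `{u, v}` and the vertices outside `{u, v, x, y}`. -/
def BA (u v x y a b : V) : Prop :=
  ((a = u ∨ a = v) ∧ b ≠ u ∧ b ≠ v ∧ b ≠ x ∧ b ≠ y) ∨
    ((b = u ∨ b = v) ∧ a ≠ u ∧ a ≠ v ∧ a ≠ x ∧ a ≠ y)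

/-- Pairs between `{u, v}` and `{x, y}`. -/
def BS (u v x y a b : V) : Prop :=
  ((a = u ∨ a = v) ∧ (b = x ∨ b = y)) ∨ ((b = u ∨ b = v) ∧ (a = x ∨ a = y))

/-- Four distinct vertices. -/
def Dist4 (u v x y : V) : Prop := u ≠ v ∧ u ≠ x ∧ u ≠ y ∧ v ≠ x ∧ v ≠ y ∧ x ≠ y

/-- The two by two block is a permutation matrix. -/
def DD (u v x y : V) (G : omega d) : Prop :=
  (G.1.Adj u x ↔ ¬ G.1.Adj v x) ∧ (G.1.Adj u y ↔ ¬ G.1.Adj v y) ∧ (G.1.Adj u x ↔ ¬ G.1.Adj u y)

/-- The two by two block has an odd number of edges. -/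
def OO (u v x y : V) (G : omega d) : Prop :=
  ¬ ((G.1.Adj u x ↔ G.1.Adj u y) ↔ (G.1.Adj v x ↔ G.1.Adj v y))

theorem colsum {u v w : V} (huv : u ≠ v) (h1 : w ≠ u) (h2 : w ≠ v) {G G' : omega d}
    (h : rel d (BP u v) G G') :
    ad G.1 u w + ad G.1 v w = ad G'.1 u w + ad G'.1 v w := by
  have := dg_two (G := G.1) (G' := G'.1) (c := w) huv fun e e1 e2 => h w e (by
    unfold BP; tauto)
  rw [dg_eq, dg_eq, ad_comm G.1 w, ad_comm G.1 w, ad_comm G'.1 w, ad_comm G'.1 w] at this
  omega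

theorem exists_block {u v x y : V} (h : Dist4 u v x y) (G : SimpleGraph V) (p1 p2 p3 p4 : Prop) :
    ∃ G' : SimpleGraph V, (∀ a b, ¬ BS u v x y a b → (G'.Adj a b ↔ G.Adj a b)) ∧
      (G'.Adj u x ↔ p1) ∧ (G'.Adj u y ↔ p2) ∧ (G'.Adj v x ↔ p3) ∧ (G'.Adj v y ↔ p4) := by
  obtain ⟨h1, h2, h3, h4, h5, h6⟩ := h
  let r : V → V → Prop := fun a b => (a = u ∧ b = x ∧ p1) ∨ (a = u ∧ b = y ∧ p2) ∨
    (a = v ∧ b = x ∧ p3) ∨ (a = v ∧ b = y ∧ p4)
  let H := mkG (fun a b => r a b ∨ r b a) (fun a b h => h.symm) (fun a => by grind)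
  have hB : ∀ a b, BS u v x y a b → BS u v x y b a := fun a b h => h.symm
  refine ⟨mix _ hB H G, fun a b hb => mix_neg hb, ?_, ?_, ?_, ?_⟩
  all_goals
    rw [mix_pos (by simp [BS])]
    show r _ _ ∨ r _ _ ↔ _
    grind

theorem block_mem {u v x y : V} (h : Dist4 u v x y) (G : omega d) {G' : SimpleGraph V}
    (hG : ∀ a b, ¬ BS u v x y a b → (G'.Adj a b ↔ G.1.Adj a b))
    (r1 : ad G' u x + ad G' u y = ad G.1 u x + ad G.1 u y)
    (r2 : ad G' v x + ad G' v y = ad G.1 v x + ad G.1 v y)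
    (c1 : ad G' u x + ad G' v x = ad G.1 u x + ad G.1 v x)
    (c2 : ad G' u y + ad G' v y = ad G.1 u y + ad G.1 v y) : G' ∈ omega d := by
  obtain ⟨h1, h2, h3, h4, h5, h6⟩ := h
  refine mem_omega.2 fun c => ?_
  rw [← dg_eq G]
  by_cases a1 : c = u ∨ c = v
  · have := dg_two (G := G') (G' := G.1) (c := c) h6 fun e e1 e2 => hG c e (by unfold BS; grind)
    rcases a1 with rfl | rfl <;> omega
  · by_cases a2 : c = x ∨ c = y
    · have := dg_two (G := G') (G' := G.1) (c := c) h1 fun e e1 e2 => hG c e (by unfold BS; grind)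
      rw [ad_comm G' c, ad_comm G' c, ad_comm G.1 c, ad_comm G.1 c] at this
      rcases a2 with rfl | rfl <;> omega
    · exact dg_congr fun e => hG c e (by unfold BS; grind)

theorem Dist4.flip {u v x y : V} (h : Dist4 u v x y) : Dist4 x y u v := by
  unfold Dist4 at *
  grind

theorem BS_flip (u v x y : V) : BS x y u v = BS u v x y := by
  funext a b
  unfold BS
  grind

theorem DD_flip (u v x y : V) : DD (d := d) x y u v = DD u v x y := by
  funext G
  unfold DD
  rw [G.1.adj_comm x u, G.1.adj_comm y u, G.1.adj_comm x v, G.1.adj_comm y v]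
  grind

theorem OO_flip (u v x y : V) : OO (d := d) x y u v = OO u v x y := by
  funext G
  unfold OO
  rw [G.1.adj_comm x u, G.1.adj_comm y u, G.1.adj_comm x v, G.1.adj_comm y v]
  grind

theorem rowsum {u v x y : V} (h : Dist4 u v x y) {G G' : omega d} (hG : rel d (BP x y) G G') :
    ad G.1 u x + ad G.1 u y = ad G'.1 u x + ad G'.1 u y ∧
      ad G.1 v x + ad G.1 v y = ad G'.1 v x + ad G'.1 v y := by
  obtain ⟨h1, h2, h3, h4, h5, h6⟩ := h
  have a := colsum h6 h2 h3 hG
  have b := colsum h6 h4 h5 hG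
  rw [ad_comm G.1 x, ad_comm G.1 y, ad_comm G'.1 x, ad_comm G'.1 y] at a b
  exact ⟨a, b⟩

theorem colsum2 {u v x y : V} (h : Dist4 u v x y) {G G' : omega d} (hG : rel d (BP u v) G G') :
    ad G.1 u x + ad G.1 v x = ad G'.1 u x + ad G'.1 v x ∧
      ad G.1 u y + ad G.1 v y = ad G'.1 u y + ad G'.1 v y := by
  obtain ⟨h1, h2, h3, h4, h5, h6⟩ := h
  exact ⟨colsum h1 h2.symm h4.symm hG, colsum h1 h3.symm h5.symm hG⟩

theorem BA_le {u v x y : V} (a b : V) (h : BA u v x y a b) : BP u v a b := by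
  unfold BA BP at *
  grind

theorem BS_le {u v x y : V} (h4 : Dist4 u v x y) (a b : V) (h : BS u v x y a b) : BP u v a b := by
  unfold BS BP Dist4 at *
  grind

theorem BS_le' {u v x y : V} (h4 : Dist4 u v x y) (a b : V) (h : BS u v x y a b) :
    BP x y a b := by
  unfold BS BP Dist4 at *
  grind

theorem rel_of_block {u v x y : V} {B B' : V → V → Prop} {G G' : omega d} (h : rel d B G G')
    (hB : ∀ a b, B a b → B' a b ∨ BS u v x y a b) (e1 : G.1.Adj u x ↔ G'.1.Adj u x)
    (e2 : G.1.Adj u y ↔ G'.1.Adj u y) (e3 : G.1.Adj v x ↔ G'.1.Adj v x)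
    (e4 : G.1.Adj v y ↔ G'.1.Adj v y) : rel d B' G G' := by
  intro a b hb
  by_cases h1 : B a b
  · rcases (hB a b h1).resolve_left hb with ⟨rfl | rfl, rfl | rfl⟩ | ⟨rfl | rfl, rfl | rfl⟩ <;>
      first | assumption | (rw [G.1.adj_comm, G'.1.adj_comm]; assumption)
  · exact h a b h1

theorem BP_split {u v x y : V} (a b : V) (h : BP u v a b) : BA u v x y a b ∨ BS u v x y a b := by
  unfold BS BP BA at *
  grind

theorem oP {u v x y : V} (h : Dist4 u v x y) (G G' : omega d) (hG : rel d (BP u v) G G') :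
    OO u v x y G ↔ OO u v x y G' := by
  obtain ⟨a, b⟩ := colsum2 h hG
  unfold OO
  have := ad_cases G.1 u x; have := ad_cases G.1 u y; have := ad_cases G.1 v x
  have := ad_cases G.1 v y; have := ad_cases G'.1 u x; have := ad_cases G'.1 u y
  have := ad_cases G'.1 v x; have := ad_cases G'.1 v y
  grind

theorem dA {u v x y : V} (h : Dist4 u v x y) (G G' : omega d) (hG : rel d (BA u v x y) G G') :
    DD u v x y G ↔ DD u v x y G' := by
  unfold DD
  rw [hG u x (by unfold BA Dist4 at *; grind), hG u y (by unfold BA Dist4 at *; grind),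
    hG v x (by unfold BA Dist4 at *; grind), hG v y (by unfold BA Dist4 at *; grind)]

theorem dS {u v x y : V} (h : Dist4 u v x y) (G G' : omega d) (hG : rel d (BS u v x y) G G') :
    DD u v x y G ↔ DD u v x y G' := by
  obtain ⟨a, b⟩ := colsum2 h (rel_mono (BS_le h) _ _ hG)
  obtain ⟨c, e⟩ := rowsum h (rel_mono (BS_le' h) _ _ hG)
  unfold DD
  have := ad_cases G.1 u x; have := ad_cases G.1 u y; have := ad_cases G.1 v x
  have := ad_cases G.1 v y; have := ad_cases G'.1 u x; have := ad_cases G'.1 u y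
  have := ad_cases G'.1 v x; have := ad_cases G'.1 v y
  grind

theorem conn {u v x y : V} (h : Dist4 u v x y) (G G' : omega d) (h1 : DD u v x y G)
    (h2 : DD u v x y G') (hG : rel d (BP u v) G G') :
    ∃ G₁, rel d (BS u v x y) G G₁ ∧ rel d (BA u v x y) G₁ G' := by
  obtain ⟨H, a, b1, b2, b3, b4⟩ := exists_block h G.1 (G'.1.Adj u x) (G'.1.Adj u y) (G'.1.Adj v x)
    (G'.1.Adj v y)
  have hH : H ∈ omega d := by
    unfold DD at h1 h2
    have := ad_cases G.1 u x; have := ad_cases G.1 u y; have := ad_cases G.1 v x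
    have := ad_cases G.1 v y; have := ad_cases H u x; have := ad_cases H u y
    have := ad_cases H v x; have := ad_cases H v y
    refine block_mem h G a ?_ ?_ ?_ ?_ <;> grind
  have hS : rel d (BS u v x y) G ⟨H, hH⟩ := fun p q hb => (a p q hb).symm
  exact ⟨⟨H, hH⟩, hS, rel_of_block ((rel d (BP u v)).trans' ((rel d (BP u v)).symm'
    (rel_mono (BS_le h) _ _ hS)) hG) BP_split b1 b2 b3 b4⟩

theorem ev1 {u v x y : V} (h : Dist4 u v x y) (G : omega d) (h1 : G.1.Adj u x ↔ G.1.Adj v x)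
    (h2 : G.1.Adj u y ↔ G.1.Adj v y) (G' : omega d) (hG : rel d (BP u v) G G') :
    rel d (BA u v x y) G G' := by
  obtain ⟨a, b⟩ := colsum2 h hG
  have := ad_cases G.1 u x; have := ad_cases G.1 u y; have := ad_cases G.1 v x
  have := ad_cases G.1 v y; have := ad_cases G'.1 u x; have := ad_cases G'.1 u y
  have := ad_cases G'.1 v x; have := ad_cases G'.1 v y
  refine rel_of_block hG BP_split ?_ ?_ ?_ ?_ <;> grind

theorem odd_comm {u v x y : V} (h : Dist4 u v x y) (f : omega d → ℝ) (ω : omega d)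
    (hω : OO u v x y ω) : cnd (rel d (BP u v)) (cnd (rel d (BP x y)) f) ω =
      cnd (rel d (BP x y)) (cnd (rel d (BP u v)) f) ω := by
  refine cnd_comm_on (Y := OO u v x y) (fun G G' a b => (oP h G G' b).1 a)
    (fun G G' a b => ?_) (fun G G' o h1 h2 => ?_) (fun G G₁ G₂ o h1 h2 => ?_) f hω
  · have := oP h.flip G G' b
    rw [OO_flip] at this
    exact this.1 a
  · obtain ⟨a, b⟩ := colsum2 h h1
    obtain ⟨c, e⟩ := rowsum h h2
    have h3 : rel d (fun _ _ => False) G G' := by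
      have h4 : rel d (BS u v x y) G G' := by
        intro p q hb
        by_cases h5 : BP u v p q
        · exact h2 p q (by unfold BP BS Dist4 at *; grind)
        · exact h1 p q h5
      unfold OO at o
      have := ad_cases G.1 u x; have := ad_cases G.1 u y; have := ad_cases G.1 v x
      have := ad_cases G.1 v y; have := ad_cases G'.1 u x; have := ad_cases G'.1 u y
      have := ad_cases G'.1 v x; have := ad_cases G'.1 v y
      refine rel_of_block h4 (fun _ _ h => Or.inr h) ?_ ?_ ?_ ?_ <;> grind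
    exact omega_ext fun p q => h3 p q not_false
  · obtain ⟨a, b⟩ := colsum2 h h1
    obtain ⟨c, e⟩ := rowsum h h2
    have hB : ∀ a b, BA u v x y a b → BA u v x y b a := fun a b h => h.symm
    obtain ⟨H, k, b1, b2, b3, b4⟩ := exists_block h (mix _ hB G₁.1 G₂.1)
      (ad G₁.1 u x + ad G₁.1 u y + ad G₂.1 u x + ad G₂.1 v x ≥
        (ad G.1 u x + ad G.1 u y + ad G.1 v x + ad G.1 v y + 3) / 2)
      (ad G₁.1 u x + ad G₁.1 u y + ad G₂.1 u y + ad G₂.1 v y ≥
        (ad G.1 u x + ad G.1 u y + ad G.1 v x + ad G.1 v y + 3) / 2)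
      (ad G₁.1 v x + ad G₁.1 v y + ad G₂.1 u x + ad G₂.1 v x ≥
        (ad G.1 u x + ad G.1 u y + ad G.1 v x + ad G.1 v y + 3) / 2)
      (ad G₁.1 v x + ad G₁.1 v y + ad G₂.1 u y + ad G₂.1 v y ≥
        (ad G.1 u x + ad G.1 u y + ad G.1 v x + ad G.1 v y + 3) / 2)
    have m : (ad H u x + ad H u y = ad G₁.1 u x + ad G₁.1 u y ∧
        ad H v x + ad H v y = ad G₁.1 v x + ad G₁.1 v y) ∧
        (ad H u x + ad H v x = ad G₂.1 u x + ad G₂.1 v x ∧
        ad H u y + ad H v y = ad G₂.1 u y + ad G₂.1 v y) := by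
      have o' : ad G.1 u x + ad G.1 u y + ad G.1 v x + ad G.1 v y = 1 ∨
          ad G.1 u x + ad G.1 u y + ad G.1 v x + ad G.1 v y = 3 := by
        unfold OO at o
        have := ad_cases G.1 u x; have := ad_cases G.1 u y; have := ad_cases G.1 v x
        have := ad_cases G.1 v y
        grind
      have := ad_bd G₁.1 u x; have := ad_bd G₁.1 u y; have := ad_bd G₁.1 v x
      have := ad_bd G₁.1 v y; have := ad_bd G₂.1 u x; have := ad_bd G₂.1 u y
      have := ad_bd G₂.1 v x; have := ad_bd G₂.1 v y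
      have q1 := ad_cases H u x
      have q2 := ad_cases H u y
      have q3 := ad_cases H v x
      have q4 := ad_cases H v y
      rw [b1] at q1
      rw [b2] at q2
      rw [b3] at q3
      rw [b4] at q4
      omega
    have k1 : ∀ p q, ¬ BP x y p q → (H.Adj p q ↔ G₁.1.Adj p q) := by
      intro p q hb
      rw [k p q fun h' => hb (BS_le' h p q h')]
      by_cases h5 : BA u v x y p q
      · exact mix_pos h5
      · rw [mix_neg h5, ← h2 p q hb]
        exact h1 p q (by unfold BP BA Dist4 at *; grind)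
    have k2 : ∀ p q, ¬ BP u v p q → (H.Adj p q ↔ G₂.1.Adj p q) := by
      intro p q hb
      rw [k p q fun h' => hb (BS_le h p q h')]
      exact mix_neg fun h' => hb (BA_le p q h')
    have hH : H ∈ omega d := by
      obtain ⟨h1', h2', h3, h4, h5, h6⟩ := id h
      refine mem_omega.2 fun z => ?_
      by_cases a1 : z = u ∨ z = v
      · have := dg_two (G := H) (G' := G₁.1) (c := z) h6 fun e e1 e2 =>
          k1 z e (by unfold BP; grind)
        rw [dg_eq] at this
        rcases a1 with rfl | rfl <;> omega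
      · by_cases a2 : z = x ∨ z = y
        · have := dg_two (G := H) (G' := G₂.1) (c := z) h1' fun e e1 e2 =>
            k2 z e (by unfold BP; grind)
          rw [ad_comm H z, ad_comm H z, ad_comm G₂.1 z, ad_comm G₂.1 z, dg_eq] at this
          rcases a2 with rfl | rfl <;> omega
        · rw [dg_three (G := G.1) (G₁ := G₁.1) (G₂ := G₂.1), dg_eq, dg_eq, dg_eq]
          · ring
          · intro e
            by_cases hb : BP u v z e
            · have hb' : ¬ BP x y z e := by unfold BP at *; grind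
              exact Or.inl ⟨k1 z e hb', (h2 z e hb').symm⟩
            · exact Or.inr ⟨k2 z e hb, (h1 z e hb).symm⟩
    exact ⟨⟨H, hH⟩, fun p q hb => (k1 p q hb).symm, fun p q hb => (k2 p q hb).symm⟩

/-- The loss term. -/
noncomputable def loss (u v x y : V) (g : omega d → ℝ) : ℝ :=
  ∑ ω, (chi (DD u v x y) ω * cnd (rel d (BP u v) ⊓ Setoid.ker (DD u v x y)) g ω) ^ 2

theorem graph_pair {u v x y : V} (h : Dist4 u v x y) (f : omega d → ℝ) :
    ip (co (rel d (BS u v x y)) f) (co (rel d (BS u v x y)) f) -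
      (loss u v x y (co (rel d (BP u v)) f) + loss x y u v (co (rel d (BP x y)) f)) / 2 ≤
      ip (co (rel d (BP u v)) f) (co (rel d (BP x y)) f) := by
  unfold loss
  rw [DD_flip u v x y]
  refine pair_ineq (A := rel d (BA u v x y)) (A' := rel d (BA x y u v)) (O := OO u v x y)
    (rel_mono BA_le) (rel_mono BA_le) (rel_mono (BS_le h)) (rel_mono (BS_le' h))
    (rel_comm (fun a b h => h.symm) ?_) (rel_comm (fun a b h => h.symm) ?_)
    (rel_comm (fun a b h => h.symm) ?_) (rel_comm (fun a b h => h.symm) ?_)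
    (rel_comm (fun a b h => h.symm) ?_) (oP h) ?_ (odd_comm h) ?_ (dA h) ?_ (dS h) (conn h) ?_ f
  · unfold BP BA Dist4 at *
    grind
  · unfold BP BA Dist4 at *
    grind
  · unfold BA Dist4 at *
    grind
  · unfold BS BA Dist4 at *
    grind
  · unfold BS BA Dist4 at *
    grind
  · intro G G' hG
    have := oP h.flip G G' hG
    rwa [OO_flip u v x y] at this
  · intro G h1 h2
    by_cases h3 : (G.1.Adj u x ↔ G.1.Adj v x) ∧ (G.1.Adj u y ↔ G.1.Adj v y)
    · exact Or.inl (ev1 h G h3.1 h3.2)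
    · refine Or.inr (ev1 h.flip G ?_ ?_)
      · rw [G.1.adj_comm x, G.1.adj_comm y]
        unfold OO DD at *
        grind
      · rw [G.1.adj_comm x, G.1.adj_comm y]
        unfold OO DD at *
        grind
  · intro G G' hG
    have := dA h.flip G G' hG
    rwa [DD_flip u v x y] at this
  · intro G G' h1 h2 hG
    rw [← DD_flip u v x y] at h1 h2
    have := conn h.flip G G' h1 h2 hG
    rwa [BS_flip u v x y] at this

end Vale.Agent.P335
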