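import Vale.Agent.P335.Cnd

namespace Vale.Agent.P335

open Finset

theorem swap_connect {C : Type*} [DecidableEq C] (A S' : Finset C) (Q : Finset C → Prop)
    (hQ : ∀ S x y, Q S → x ∈ S → x ∉ S' → y ∈ S' → y ∉ S → (x ∈ A ↔ y ∈ A) →
      Q (insert y (S.erase x))) (S : Finset C) (h : Q S) (h1 : S.card = S'.card)
    (h2 : (S ∩ A).card = (S' ∩ A).card) : Q S' := by
  obtain ⟨n, hn⟩ : ∃ n, (S \ S').card = n := ⟨_, rfl⟩
  induction n generalizing S with
  | zero =>
    have : S ⊆ S' := Finset.sdiff_eq_empty_iff_subset.1 (Finset.card_eq_zero.1 hn)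
    rwa [← Finset.eq_of_subset_of_card_le this h1.ge]
  | succ n ih =>
    obtain ⟨x, y, x1, x2, y1, y2, hxy⟩ : ∃ x y, x ∈ S ∧ x ∉ S' ∧ y ∈ S' ∧ y ∉ S ∧
        (x ∈ A ↔ y ∈ A) := by
      by_cases hA : ∃ x ∈ S, x ∉ S' ∧ x ∈ A
      · obtain ⟨x, x1, x2, x3⟩ := hA
        by_contra hc
        have h3 : S' ∩ A ⊆ (S ∩ A).erase x := by
          intro y hy
          rw [Finset.mem_inter] at hy
          rw [Finset.mem_erase, Finset.mem_inter]
          refine ⟨fun e => x2 (e ▸ hy.1), ?_, hy.2⟩
          by_contra y2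
          exact hc ⟨x, y, x1, x2, hy.1, y2, iff_of_true x3 hy.2⟩
        have h4 := Finset.card_le_card h3
        have h5 := Finset.card_erase_lt_of_mem (Finset.mem_inter.2 ⟨x1, x3⟩)
        omega
      · push Not at hA
        obtain ⟨x, hx⟩ := Finset.card_pos.1 (by omega : 0 < (S \ S').card)
        rw [Finset.mem_sdiff] at hx
        have h3 : S ∩ A ⊆ S' ∩ A := by
          intro c hc
          rw [Finset.mem_inter] at hc ⊢
          refine ⟨?_, hc.2⟩
          by_contra h'
          exact hA c hc.1 h' hc.2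
        have h4 := Finset.eq_of_subset_of_card_le h3 h2.ge
        obtain ⟨y, y1, y2⟩ : ∃ y ∈ S', y ∉ S := by
          by_contra hc
          push Not at hc
          have := Finset.eq_of_subset_of_card_le (show S' ⊆ S from hc) h1.le
          exact hx.2 (this ▸ hx.1)
        refine ⟨x, y, hx.1, hx.2, y1, y2, iff_of_false (hA x hx.1 hx.2) fun y3 => y2 ?_⟩
        have : y ∈ S ∩ A := h4 ▸ Finset.mem_inter.2 ⟨y1, y3⟩
        exact (Finset.mem_inter.1 this).1
    have y3 : y ∉ S.erase x := fun h => y2 (Finset.mem_of_mem_erase h)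
    refine ih _ (hQ S x y h x1 x2 y1 y2 hxy) ?_ ?_ ?_
    · rw [Finset.card_insert_of_notMem y3, Finset.card_erase_add_one x1, h1]
    · rw [← h2]
      by_cases hA : x ∈ A
      · rw [Finset.insert_inter_of_mem (hxy.1 hA), Finset.erase_inter,
          Finset.card_insert_of_notMem, Finset.card_erase_add_one (Finset.mem_inter.2 ⟨x1, hA⟩)]
        exact fun h => y2 (Finset.mem_inter.1 (Finset.mem_of_mem_erase h)).1
      · rw [Finset.insert_inter_of_notMem (fun h => hA (hxy.2 h)), Finset.erase_inter,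
          Finset.erase_eq_of_notMem fun h => hA (Finset.mem_inter.1 h).2]
    · have : insert y (S.erase x) \ S' = (S \ S').erase x := by
        ext c
        simp only [Finset.mem_sdiff, Finset.mem_insert, Finset.mem_erase]
        constructor
        · rintro ⟨rfl | h, h'⟩
          · exact absurd y1 h'
          · exact ⟨h.1, h.2, h'⟩
        · rintro ⟨a, b, c⟩
          exact ⟨Or.inr ⟨a, b⟩, c⟩
      rw [this, Finset.card_erase_of_mem (Finset.mem_sdiff.2 ⟨x1, x2⟩), hn]
      rfl

theorem mem_swap_insert {C : Type*} [DecidableEq C] {S S' : Finset C} {x y : C} (hx : x ∈ S)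
    (hy : y ∉ S) (h : ∀ c, c ∈ S' ↔ Equiv.swap x y c ∈ S) : S' = insert y (S.erase x) := by
  ext c
  rw [h, Finset.mem_insert, Finset.mem_erase, Equiv.swap_apply_def]
  split_ifs with h1 h2
  · subst h1
    simp only [ne_eq, not_true, false_and, or_false]
    exact iff_of_false hy fun e => hy (e ▸ hx)
  · simp [h2, hx]
  · simp [h1, h2]

variable {Y : Type*} [Fintype Y]

open Classical in
/-- The indicator function. -/
noncomputable def chi (D : Y → Prop) : Y → ℝ := fun ω => if D ω then 1 else 0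

theorem chi_pos {D : Y → Prop} {ω : Y} (h : D ω) : chi D ω = 1 := if_pos h

theorem chi_neg {D : Y → Prop} {ω : Y} (h : ¬ D ω) : chi D ω = 0 := if_neg h

theorem chi_congr {D : Y → Prop} {ω ω' : Y} (h : D ω ↔ D ω') : chi D ω = chi D ω' := by
  by_cases h1 : D ω
  · rw [chi_pos h1, chi_pos (h.1 h1)]
  · rw [chi_neg h1, chi_neg fun h2 => h1 (h.2 h2)]

theorem chi_mul_self (D : Y → Prop) (f : Y → ℝ) : chi D * (chi D * f) = chi D * f := by
  funext ω
  by_cases h : D ω <;> simp [chi, h]

theorem ip_mul (c f g : Y → ℝ) : ip (c * f) g = ip f (c * g) :=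
  Finset.sum_congr rfl fun ω _ => by simp only [Pi.mul_apply]; ring

theorem ip_comp_invol {t : Y → Y} (ht : Function.Involutive t) (f g : Y → ℝ) :
    ip (f ∘ t) g = ip f (g ∘ t) := by
  unfold ip
  rw [← Equiv.sum_comp ht.toPerm]
  refine Finset.sum_congr rfl fun ω _ => ?_
  simp [ht ω]

theorem johnson {C : Type*} [DecidableEq C] (act : Finset C) (mem : Y → Finset C)
    (hsub : ∀ ω, mem ω ⊆ act) (hcard : ∀ ω ω', (mem ω).card = (mem ω').card)
    (hinj : Function.Injective mem) (t : C → C → Y → Y)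
    (ht : ∀ x ∈ act, ∀ y ∈ act, ∀ ω c, c ∈ mem (t x y ω) ↔ Equiv.swap x y c ∈ mem ω)
    (Sep : C → C → Y → Prop) (hSep : ∀ x ∈ act, ∀ y ∈ act, ∀ ω,
      Sep x y ω ↔ ¬ (x ∈ mem ω ↔ y ∈ mem ω))
    (g : Y → ℝ) (hg : ∑ ω, g ω = 0) :
    ∑ x ∈ act, ∑ y ∈ act, ∑ ω, (chi (Sep x y) ω * cnd (Setoid.ker (Sep x y)) g ω) ^ 2 +
      2 * ip g g ≤ ∑ x ∈ act, ∑ y ∈ act, ∑ ω, ((g ω - g (t x y ω)) / 2) ^ 2 := by
  classical
  have inv : ∀ x ∈ act, ∀ y ∈ act, Function.Involutive (t x y) := by
    intro x hx y hy ω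
    apply hinj
    ext c
    rw [ht x hx y hy, ht x hx y hy, Equiv.swap_apply_self]
  let L : C → C → (Y → ℝ) →ₗ[ℝ] (Y → ℝ) := fun x y =>
    (1 / 2 : ℝ) • (LinearMap.id - LinearMap.funLeft ℝ ℝ (t x y))
  let Pr : C → C → (Y → ℝ) →ₗ[ℝ] (Y → ℝ) := fun x y =>
    LinearMap.mulLeft ℝ (chi (Sep x y)) ∘ₗ cnd (Setoid.ker (Sep x y))
  have hL : ∀ x y f ω, L x y f ω = (f ω - f (t x y ω)) / 2 := by
    intro x y f ω
    simp only [L, LinearMap.smul_apply, LinearMap.sub_apply, LinearMap.id_apply, Pi.smul_apply,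
      Pi.sub_apply, LinearMap.funLeft_apply, smul_eq_mul]
    ring
  have hP : ∀ x y f, Pr x y f = chi (Sep x y) * cnd (Setoid.ker (Sep x y)) f := fun x y f => rfl
  have chiinv : ∀ x y ω ω', Setoid.ker (Sep x y) ω ω' → chi (Sep x y) ω = chi (Sep x y) ω' :=
    fun x y ω ω' h => chi_congr (iff_of_eq h)
  let Z : (Y → ℝ) →ₗ[ℝ] (Y → ℝ) := ∑ x ∈ act, ∑ y ∈ act, (L x y - Pr x y)
  have hZ : ∀ f, Z f = ∑ x ∈ act, ∑ y ∈ act, (L x y f - Pr x y f) := by
    intro f
    simp only [Z, LinearMap.sum_apply, LinearMap.sub_apply]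
  have Lsym : ∀ x ∈ act, ∀ y ∈ act, ∀ f f', ip (L x y f) f' = ip f (L x y f') := by
    intro x hx y hy f f'
    have := ip_comp_invol (inv x hx y hy) f f'
    simp only [L, LinearMap.smul_apply, LinearMap.sub_apply, LinearMap.id_apply, ip_smul_left,
      ip_smul_right, ip_sub_left, ip_sub_right]
    exact congrArg (fun z => 1 / 2 * (ip f f' - z)) this
  have Psym : ∀ x y f f', ip (Pr x y f) f' = ip f (Pr x y f') := by
    intro x y f f'
    rw [hP, hP, ip_mul, cnd_symm, cnd_mul (chiinv x y)]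
  have Zsym : ∀ f f', ip (Z f) f' = ip f (Z f') := by
    intro f f'
    simp only [hZ, ip_sum_left, ip_sum_right, ip_sub_left, ip_sub_right]
    exact Finset.sum_congr rfl fun x hx => Finset.sum_congr rfl fun y hy => by
      rw [Lsym x hx y hy, Psym]
  let h : (Y → ℝ) →ₗ[ℝ] (Y → ℝ) := LinearMap.id - cnd ⊤
  have hh : ∀ f, h f = f - cnd ⊤ f := fun f => rfl
  have hsym : ∀ f f', ip (h f) f' = ip f (h f') := by
    intro f f'
    rw [hh, hh, ip_sub_left, ip_sub_right, cnd_symm]
  have key := spec_nonneg (h ∘ₗ (Z - (2 : ℝ) • LinearMap.id) ∘ₗ h) (fun f f' => by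
    simp only [LinearMap.comp_apply, LinearMap.sub_apply, LinearMap.smul_apply, LinearMap.id_apply]
    rw [hsym, ip_sub_left, Zsym, ← hsym f, ip_sub_right, ip_smul_left, ip_smul_right]) ?_ g
  · have hg' : h g = g := by
      rw [hh, sub_eq_self]
      funext ω
      rw [cnd_apply, show cls ⊤ ω = univ by ext; simp [mem_cls], hg, zero_div]
      rfl
    simp only [LinearMap.comp_apply, LinearMap.sub_apply, LinearMap.smul_apply,
      LinearMap.id_apply] at key
    rw [← hsym, hg', ip_sub_right, ip_smul_right, hZ] at key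
    simp only [ip_sum_right, ip_sub_right, Finset.sum_sub_distrib] at key
    have e1 : ∀ x ∈ act, ∀ y ∈ act,
        ip g (L x y g) = ∑ ω, ((g ω - g (t x y ω)) / 2) ^ 2 := by
      intro x hx y hy
      have : L x y (L x y g) = L x y g := by
        funext ω
        rw [hL, hL, hL, inv x hx y hy ω]
        ring
      rw [← this, ← Lsym x hx y hy, ip]
      exact Finset.sum_congr rfl fun ω _ => by rw [hL, sq]
    have e2 : ∀ x y, ip g (Pr x y g) =
        ∑ ω, (chi (Sep x y) ω * cnd (Setoid.ker (Sep x y)) g ω) ^ 2 := by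
      intro x y
      have : Pr x y (Pr x y g) = Pr x y g := by
        rw [hP, hP, cnd_mul (chiinv x y), cnd_idem, chi_mul_self]
      rw [← this, ← Psym, ip]
      exact Finset.sum_congr rfl fun ω _ => by rw [hP, sq]; rfl
    rw [Finset.sum_congr rfl fun x hx => Finset.sum_congr rfl fun y hy => e1 x hx y hy] at key
    simp only [e2] at key
    linarith
  · intro l v v0 hv
    by_contra hl
    push Not at hl
    simp only [LinearMap.comp_apply, LinearMap.sub_apply, LinearMap.smul_apply,
      LinearMap.id_apply] at hv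
    have c0 : cnd ⊤ v = 0 := by
      have := congrArg (cnd ⊤) hv
      rw [hh, map_sub, cnd_idem, sub_self, map_smul] at this
      exact (smul_eq_zero.1 this.symm).resolve_left hl.ne
    rw [hh v, c0, sub_zero, hh] at hv
    obtain ⟨a, ha, b, hb, ω₀, hω₀⟩ : ∃ a ∈ act, ∃ b ∈ act, ∃ ω, v ω ≠ v (t a b ω) := by
      by_contra hc
      push Not at hc
      apply v0
      rw [← c0]
      refine (cnd_fix fun ω ω' _ => ?_).symm
      obtain ⟨ω'', e1, e2⟩ := swap_connect ∅ (mem ω') (fun S => ∃ ω'', mem ω'' = S ∧ v ω'' = v ω)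
        (by
          rintro S x y ⟨ω'', rfl, e⟩ x1 x2 y1 y2 -
          exact ⟨t x y ω'', mem_swap_insert x1 y2 (ht x (hsub _ x1) y (hsub _ y1) ω''),
            (hc x (hsub _ x1) y (hsub _ y1) ω'').symm.trans e⟩) (mem ω) ⟨ω, rfl, rfl⟩
        (hcard _ _) (by simp)
      rw [← e2, hinj e1]
    have fix : ∀ x ∈ act, ∀ y ∈ act, ∀ ω, ¬ Sep x y ω → t x y ω = ω := by
      intro x hx y hy ω hs
      rw [hSep x hx y hy, not_not] at hs
      apply hinj
      ext c
      rw [ht x hx y hy, Equiv.swap_apply_def]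
      split_ifs with h1 h2
      · rw [h1, hs]
      · rw [h2, hs]
      · rfl
    have sact : ∀ x ∈ act, Equiv.swap a b x ∈ act := by
      intro x hx
      rw [Equiv.swap_apply_def]
      split_ifs <;> assumption
    have sepconj : ∀ x ∈ act, ∀ y ∈ act, ∀ ω,
        Sep x y (t a b ω) ↔ Sep (Equiv.swap a b x) (Equiv.swap a b y) ω := by
      intro x hx y hy ω
      rw [hSep x hx y hy, hSep _ (sact x hx) _ (sact y hy), ht a ha b hb, ht a ha b hb]
    have Zeq : ∀ ω, Z v (t a b ω) = Z (v ∘ t a b) ω := by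
      intro ω
      simp only [hZ, Finset.sum_apply, Pi.sub_apply]
      refine Finset.sum_bijective (Equiv.swap a b) (Equiv.swap a b).bijective
        (fun x => ⟨sact x, fun hx => by simpa using sact _ hx⟩) fun x hx => ?_
      refine Finset.sum_bijective (Equiv.swap a b) (Equiv.swap a b).bijective
        (fun x => ⟨sact x, fun hx => by simpa using sact _ hx⟩) fun y hy => ?_
      congr 1
      · rw [hL, hL]
        have : t x y (t a b ω) = t a b (t (Equiv.swap a b x) (Equiv.swap a b y) ω) := by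
          apply hinj
          ext c
          rw [ht x hx y hy, ht a ha b hb, ht a ha b hb, ht _ (sact x hx) _ (sact y hy),
            Equiv.swap_apply_apply]
          simp
        rw [this]
        rfl
      · rw [hP, hP, Pi.mul_apply, Pi.mul_apply]
        congr 1
        · by_cases hs : Sep x y (t a b ω)
          · rw [chi_pos hs, chi_pos ((sepconj x hx y hy ω).1 hs)]
          · rw [chi_neg hs, chi_neg fun h' => hs ((sepconj x hx y hy ω).2 h')]
        · refine (cnd_equiv (inv a ha b hb).toPerm (fun ω ω' => ?_) v ω).symm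
          simp only [Setoid.ker_def, Function.Involutive.coe_toPerm, eq_iff_iff,
            sepconj x hx y hy]
    set ψ : Y → ℝ := v - v ∘ t a b with hψ
    have ψe : ∀ ω, Z ψ ω - 2 * ψ ω = l * ψ ω := by
      intro ω
      have h1 := congrFun hv ω
      have h2 := congrFun hv (t a b ω)
      have h3 := cnd_inv (r := ⊤) (Z v - (2 : ℝ) • v) (ω := ω) (ω' := t a b ω) trivial
      simp only [Pi.sub_apply, Pi.smul_apply, smul_eq_mul, Zeq] at h1 h2
      simp only [hψ, map_sub, Pi.sub_apply, Function.comp_apply]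
      linarith
    have ψa : ∀ ω, ψ (t a b ω) = - ψ ω := by
      intro ω
      simp only [hψ, Pi.sub_apply, Function.comp_apply, inv a ha b hb ω]
      ring
    have ψ0 : ∀ ω, ¬ Sep a b ω → ψ ω = 0 := by
      intro ω hs
      simp only [hψ, Pi.sub_apply, Function.comp_apply, fix a ha b hb ω hs, sub_self]
    obtain ⟨ω₁, -, hmax⟩ := Finset.exists_max_image univ ψ ⟨ω₀, mem_univ _⟩
    have habs : ∀ ω, |ψ ω| ≤ ψ ω₁ := by
      intro ω
      have h1 := hmax ω (mem_univ _)
      have h2 := hmax (t a b ω) (mem_univ _)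
      rw [ψa] at h2
      exact abs_le.2 ⟨by linarith, h1⟩
    have Mpos : 0 < ψ ω₁ := lt_of_lt_of_le (abs_pos.2 (sub_ne_zero.2 hω₀)) (habs ω₀)
    have s1 : Sep a b ω₁ := by
      by_contra hs
      exact Mpos.ne' (ψ0 _ hs)
    have hab : a ≠ b := by
      rintro rfl
      rw [hSep a ha a ha] at s1
      exact s1 Iff.rfl
    have avg : ∀ (Q : Y → Prop) (s : Y → Y) (hs : Function.Involutive s),
        (∀ ω, Q (s ω) ↔ Q ω) → ∀ ω, cnd (Setoid.ker Q) ψ ω =
          cnd (Setoid.ker Q) (ψ + ψ ∘ s) ω / 2 := by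
      intro Q s hs hQ ω
      have h1 := cnd_equiv (r := Setoid.ker Q) (r' := Setoid.ker Q) hs.toPerm (fun ω ω' => by
        simp only [Setoid.ker_def, Function.Involutive.coe_toPerm, eq_iff_iff, hQ]) ψ ω
      have h2 := cnd_inv (r := Setoid.ker Q) ψ (ω := s ω) (ω' := ω) (propext (hQ ω))
      simp only [Function.Involutive.coe_toPerm] at h1
      rw [map_add, Pi.add_apply, h1, h2]
      ring
    have P0 : ∀ x ∈ act, ∀ y ∈ act, (∀ ω, Sep x y (t a b ω) ↔ Sep x y ω) → Pr x y ψ ω₁ = 0 := by
      intro x hx y hy hQ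
      rw [hP, Pi.mul_apply, avg _ _ (inv a ha b hb) hQ, cnd_const (c := 0) fun ω' _ => by
        simp [ψa]]
      simp
    have L0 : ∀ x y, 0 ≤ L x y ψ ω₁ := by
      intro x y
      rw [hL]
      linarith [hmax (t x y ω₁) (mem_univ _)]
    have P1 : ∀ x ∈ act, ∀ y ∈ act, (∀ ω, Sep x y ω → Sep a b ω → ¬ Sep a b (t x y ω)) →
        Pr x y ψ ω₁ ≤ L x y ψ ω₁ := by
      intro x hx y hy hQ
      by_cases hs : Sep x y ω₁
      · rw [hP, Pi.mul_apply, chi_pos hs, one_mul, hL, ψ0 _ (hQ _ hs s1),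
          avg _ _ (inv x hx y hy) fun ω => by
            rw [hSep x hx y hy, hSep x hx y hy, ht x hx y hy, ht x hx y hy]
            simp only [Equiv.swap_apply_left, Equiv.swap_apply_right]
            tauto]
        have := cnd_abs_le (r := Setoid.ker (Sep x y)) (f := ψ + ψ ∘ t x y) (ω := ω₁)
          (M := ψ ω₁) fun ω' h' => by
            have hs' : Sep x y ω' := (iff_of_eq h').1 hs
            by_cases h1 : Sep a b ω'
            · simpa [ψ0 _ (hQ _ hs' h1)] using habs ω'
            · simpa [ψ0 _ h1] using habs (t x y ω')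
        linarith [(abs_le.1 this).2]
      · rw [hP, Pi.mul_apply, chi_neg hs, zero_mul]
        exact L0 x y
    have term : ∀ x ∈ act, ∀ y ∈ act, 0 ≤ L x y ψ ω₁ - Pr x y ψ ω₁ := by
      intro x hx y hy
      rw [sub_nonneg]
      by_cases h1 : (x = a ∨ x = b) ↔ (y = a ∨ y = b)
      · rw [P0 x hx y hy]
        · exact L0 x y
        · intro ω
          rw [sepconj x hx y hy, hSep x hx y hy, hSep _ (sact x hx) _ (sact y hy)]
          by_cases h2 : x = a ∨ x = b
          · rcases h2 with rfl | rfl <;> rcases h1.1 (by simp) with rfl | rfl <;>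
              simp [iff_comm]
          · have h3 := mt h1.2 h2
            push Not at h2 h3
            rw [Equiv.swap_apply_of_ne_of_ne h2.1 h2.2, Equiv.swap_apply_of_ne_of_ne h3.1 h3.2]
      · refine P1 x hx y hy fun ω => ?_
        rw [hSep x hx y hy, hSep a ha b hb, hSep a ha b hb, ht x hx y hy, ht x hx y hy]
        by_cases h2 : x = a ∨ x = b
        · have h3 : ¬ (y = a ∨ y = b) := fun h => h1 (iff_of_true h2 h)
          push Not at h3
          rcases h2 with rfl | rfl
          · rw [Equiv.swap_apply_left, Equiv.swap_apply_of_ne_of_ne hab.symm h3.2.symm]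
            tauto
          · rw [Equiv.swap_apply_left, Equiv.swap_apply_of_ne_of_ne hab h3.1.symm]
            tauto
        · have h3 : y = a ∨ y = b := by tauto
          push Not at h2
          rcases h3 with rfl | rfl
          · rw [Equiv.swap_apply_right, Equiv.swap_apply_of_ne_of_ne h2.2.symm hab.symm]
            tauto
          · rw [Equiv.swap_apply_right, Equiv.swap_apply_of_ne_of_ne h2.1.symm hab]
            tauto
    have tba : ∀ ω, t b a ω = t a b ω := by
      intro ω
      apply hinj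
      ext c
      rw [ht a ha b hb, ht b hb a ha, Equiv.swap_comm]
    have tab : L a b ψ ω₁ - Pr a b ψ ω₁ = ψ ω₁ := by
      rw [P0 a ha b hb fun ω => by
        rw [sepconj a ha b hb, hSep a ha b hb, hSep _ (sact a ha) _ (sact b hb)]
        simp [iff_comm], hL, ψa]
      ring
    have tba' : L b a ψ ω₁ - Pr b a ψ ω₁ = ψ ω₁ := by
      rw [P0 b hb a ha fun ω => by
        rw [sepconj b hb a ha, hSep b hb a ha, hSep _ (sact b hb) _ (sact a ha)]
        simp [iff_comm], hL, tba, ψa]
      ring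
    have h1 : 2 * ψ ω₁ ≤ Z ψ ω₁ := by
      simp only [hZ, Finset.sum_apply, Pi.sub_apply]
      have h2 := Finset.single_le_sum (f := fun y => L a y ψ ω₁ - Pr a y ψ ω₁)
        (fun y hy => term a ha y hy) hb
      have h3 := Finset.single_le_sum (f := fun y => L b y ψ ω₁ - Pr b y ψ ω₁)
        (fun y hy => term b hb y hy) ha
      have h4 := Finset.sum_le_sum_of_subset_of_nonneg (s := {a, b}) (t := act)
        (f := fun x => ∑ y ∈ act, (L x y ψ ω₁ - Pr x y ψ ω₁))
        (by intro c hc; rcases Finset.mem_insert.1 hc with rfl | hc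
            · exact ha
            · rwa [Finset.mem_singleton.1 hc])
        (fun x hx _ => Finset.sum_nonneg fun y hy => term x hx y hy)
      rw [Finset.sum_pair hab] at h4
      simp only [tab, tba'] at h2 h3
      linarith
    have := ψe ω₁
    nlinarith

end Vale.Agent.P335
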