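import Vale.Agent.P335.Bochner

namespace Vale.Agent.P335

open Finset

variable {V : Type} [Fintype V] [DecidableEq V] {d : V → ℕ}

theorem mem_pmPairs {S : Finset V} {q : Finset (Sym2 V) × Finset (Sym2 V)} :
    q ∈ pmPairs S ↔ IsPM S q.1 ∧ IsPM S q.2 ∧ q.1 ≠ q.2 := by simp [pmPairs]

theorem switch_adj {G : SimpleGraph V} {S : Finset V} {F F' : Finset (Sym2 V)} (hF' : IsPM S F')
    (h1 : ∀ e ∈ F, e ∈ G.edgeSet) (h2 : ∀ e ∈ F', e ∉ G.edgeSet) (a b : V) :
    (switch G F F').Adj a b ↔ (G.Adj a b ∧ s(a, b) ∉ F) ∨ s(a, b) ∈ F' := by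
  rw [switch, if_pos ⟨h1, h2⟩, SimpleGraph.fromEdgeSet_adj]
  simp only [Set.mem_union, Set.mem_diff, SimpleGraph.mem_edgeSet, Finset.mem_coe]
  refine ⟨fun h => h.1, fun h => ⟨h, ?_⟩⟩
  rcases h with h | h
  · exact h.1.ne
  · simpa using (hF'.1 _ h).1

theorem pm_count {S : Finset V} {F : Finset (Sym2 V)} (hF : IsPM S F) (a : V) :
    ∑ b, (if s(a, b) ∈ F then 1 else 0 : ℤ) = if a ∈ S then 1 else 0 := by
  split_ifs with ha
  · obtain ⟨e, ⟨e1, e2⟩, e3⟩ := hF.2 a ha
    obtain ⟨b, rfl⟩ := Sym2.mem_iff_exists.1 e2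
    rw [Finset.sum_eq_single b, if_pos e1]
    · intro c _ hc
      exact if_neg fun h => hc (Sym2.congr_right.1 (e3 _ ⟨h, Sym2.mem_mk_left _ _⟩))
    · simp
  · exact Finset.sum_eq_zero fun b _ => if_neg fun h => ha ((hF.1 _ h).2 a (Sym2.mem_mk_left _ _))

theorem switch_mem {S : Finset V} {F F' : Finset (Sym2 V)} (hF : IsPM S F) (hF' : IsPM S F')
    (G : omega d) : switch G.1 F F' ∈ omega d := by
  by_cases h : (∀ e ∈ F, e ∈ G.1.edgeSet) ∧ (∀ e ∈ F', e ∉ G.1.edgeSet)
  · refine mem_omega.2 fun a => ?_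
    have : ∀ b, ad (switch G.1 F F') a b = ad G.1 a b - (if s(a, b) ∈ F then 1 else 0) +
        if s(a, b) ∈ F' then 1 else 0 := by
      intro b
      have e1 := switch_adj hF' h.1 h.2 a b
      have e2 := h.1 s(a, b)
      have e3 := h.2 s(a, b)
      rw [SimpleGraph.mem_edgeSet] at e2 e3
      have := ad_cases (switch G.1 F F') a b
      have := ad_cases G.1 a b
      grind
    rw [← dg_eq G, dg, dg]
    simp only [this, Finset.sum_add_distrib, Finset.sum_sub_distrib, pm_count hF, pm_count hF']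
    ring
  · rw [switch, if_neg h]
    exact G.2

theorem switch_back {S : Finset V} {F F' : Finset (Sym2 V)} (hF : IsPM S F) (hF' : IsPM S F')
    {G G' : SimpleGraph V} (h : switch G F F' = G') (hne : G ≠ G') : switch G' F' F = G := by
  have hv : (∀ e ∈ F, e ∈ G.edgeSet) ∧ (∀ e ∈ F', e ∉ G.edgeSet) := by
    by_contra hv
    rw [switch, if_neg hv] at h
    exact hne h
  have e := switch_adj hF' hv.1 hv.2
  rw [h] at e
  have e2 : ∀ a b, s(a, b) ∈ F → G.Adj a b := fun a b h => hv.1 _ h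
  have e3 : ∀ a b, s(a, b) ∈ F' → ¬ G.Adj a b := fun a b h => hv.2 _ h
  ext a b
  rw [switch_adj hF (Sym2.ind fun a b h => (e a b).2 (Or.inr h)) (Sym2.ind fun a b h => by
    rw [SimpleGraph.mem_edgeSet, e]
    grind), e]
  grind

theorem isPM_pair {S : Finset V} {a b c e : V} (h : Dist4 a b c e)
    (hS : ∀ z, z ∈ S ↔ z = a ∨ z = b ∨ z = c ∨ z = e) : IsPM S {s(a, b), s(c, e)} := by
  obtain ⟨h1, h2, h3, h4, h5, h6⟩ := h
  constructor
  · intro x hx
    rcases Finset.mem_insert.1 hx with rfl | hx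
    · simp [h1, hS]
    · rw [Finset.mem_singleton.1 hx]
      simp [h6, hS]
  · intro z hz
    by_cases hz' : z = a ∨ z = b
    · refine ⟨s(a, b), ⟨by simp, by simpa using hz'⟩, fun x hx => ?_⟩
      rcases Finset.mem_insert.1 hx.1 with rfl | hx'
      · rfl
      · have := hx.2
        rw [Finset.mem_singleton.1 hx', Sym2.mem_iff] at this
        grind
    · refine ⟨s(c, e), ⟨by simp, by rw [Sym2.mem_iff]; grind⟩, fun x hx => ?_⟩
      rcases Finset.mem_insert.1 hx.1 with rfl | hx'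
      · exact absurd (Sym2.mem_iff.1 hx.2) hz'
      · exact Finset.mem_singleton.1 hx'

theorem pair_mem {u v x y : V} (h : Dist4 u v x y) {S : Finset V}
    (hS : ∀ z, z ∈ S ↔ z = u ∨ z = v ∨ z = x ∨ z = y) :
    (({s(u, x), s(v, y)}, {s(u, y), s(v, x)}) : Finset (Sym2 V) × Finset (Sym2 V)) ∈
      pmPairs S := by
  refine mem_pmPairs.2 ⟨isPM_pair (by unfold Dist4 at *; grind) (by grind),
    isPM_pair (by unfold Dist4 at *; grind) (by grind), fun e => ?_⟩
  have : s(u, x) ∈ ({s(u, y), s(v, x)} : Finset (Sym2 V)) := by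
    have e' : ({s(u, x), s(v, y)} : Finset (Sym2 V)) = {s(u, y), s(v, x)} := e
    rw [← e']
    simp
  unfold Dist4 at h
  simp only [Finset.mem_insert, Finset.mem_singleton, Sym2.eq_iff] at this
  grind

theorem exists_switch {u v x y : V} (h : Dist4 u v x y) {S : Finset V}
    (hS : ∀ z, z ∈ S ↔ z = u ∨ z = v ∨ z = x ∨ z = y) {G G' : SimpleGraph V}
    (hG : ∀ a b, ¬ BS u v x y a b → (G.Adj a b ↔ G'.Adj a b)) (a1 : G.Adj u x) (a2 : ¬ G.Adj u y)
    (a3 : ¬ G.Adj v x) (a4 : G.Adj v y) (b1 : ¬ G'.Adj u x) (b2 : G'.Adj u y) (b3 : G'.Adj v x)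
    (b4 : ¬ G'.Adj v y) : ∃ q ∈ pmPairs S, switch G q.1 q.2 = G' := by
  refine ⟨_, pair_mem h hS, ?_⟩
  ext a b
  rw [switch_adj (mem_pmPairs.1 (pair_mem h hS)).2.1 (by simp [a1, a4]) (by simp [a2, a3])]
  simp only [Finset.mem_insert, Finset.mem_singleton, Sym2.eq_iff]
  have := hG a b
  have := G.adj_comm u y
  have := G.adj_comm v x
  have := G'.adj_comm u x
  have := G'.adj_comm u y
  have := G'.adj_comm v x
  have := G'.adj_comm v y
  unfold BS Dist4 at *
  grind

theorem sw_switch {u v x y : V} (G : omega d) (hne : sw u v x y G ≠ G) :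
    ∃ S ∈ powersetCard 4 (univ : Finset V), ∃ q ∈ pmPairs S,
      switch G.1 q.1 q.2 = (sw u v x y G).1 := by
  have h : Dist4 u v x y := by
    by_contra h
    exact hne (by rw [sw, dif_neg h])
  obtain ⟨s1, s2, s3⟩ := sw_spec h G
  have hD : DD u v x y G := by
    by_contra hD
    exact hne (s3 hD)
  have s4 := (s1 _).2 (Or.inr rfl)
  have hD' := (dS h _ _ s4).1 hD
  obtain ⟨s5, s6⟩ := s2 hD
  refine ⟨{u, v, x, y}, Finset.mem_powersetCard.2 ⟨Finset.subset_univ _,
    Finset.card_eq_four.2 ⟨u, v, x, y, h.1, h.2.1, h.2.2.1, h.2.2.2.1, h.2.2.2.2.1,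
      h.2.2.2.2.2, rfl⟩⟩, ?_⟩
  unfold DD at hD hD'
  by_cases a1 : G.1.Adj u x
  · refine exists_switch h (by simp) s4 a1 ?_ ?_ ?_ ?_ ?_ ?_ ?_ <;> grind
  · refine exists_switch (u := u) (v := v) (x := y) (y := x) (by unfold Dist4 at *; grind)
      (by simp only [Finset.mem_insert, Finset.mem_singleton]; grind)
      (fun a b hb => s4 a b (by unfold BS at *; grind)) ?_ ?_ ?_ ?_ ?_ ?_ ?_ ?_ <;> grind

theorem card_pmPairs {S : Finset V} (hS : S.card = 4) :
    0 < (pmPairs S).card ∧ (pmPairs S).card ≤ 2 ^ 20 := by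
  constructor
  · obtain ⟨u, v, x, y, h1, h2, h3, h4, h5, h6, rfl⟩ := Finset.card_eq_four.1 hS
    exact Finset.card_pos.2 ⟨_, pair_mem ⟨h1, h2, h3, h4, h5, h6⟩ (by simp)⟩
  · have : pmPairs S ⊆ S.sym2.powerset ×ˢ S.sym2.powerset := by
      intro q hq
      obtain ⟨a, b, -⟩ := mem_pmPairs.1 hq
      exact Finset.mem_product.2 ⟨Finset.mem_powerset.2 fun e he =>
        Finset.mem_sym2_iff.2 (a.1 e he).2, Finset.mem_powerset.2 fun e he =>
        Finset.mem_sym2_iff.2 (b.1 e he).2⟩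
    refine (Finset.card_le_card this).trans ?_
    rw [Finset.card_product, Finset.card_powerset, Finset.card_sym2, hS]
    decide

open Classical in
/-- The non-lazy part of the chain. -/
noncomputable def KK (d : V → ℕ) (G G' : omega d) : ℝ :=
  ∑ S ∈ powersetCard 4 (univ : Finset V), 1 / ((Fintype.card V).choose 4 : ℝ) *
    ∑ q ∈ pmPairs S, 1 / ((pmPairs S).card : ℝ) * (if switch G.1 q.1 q.2 = G'.1 then 1 else 0)

open Classical in
theorem chain_eq (G G' : omega d) :
    chain d G G' = 1 / 2 * (if G = G' then 1 else 0) + 1 / 2 * KK d G G' := rfl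

theorem KK_nonneg (G G' : omega d) : 0 ≤ KK d G G' :=
  Finset.sum_nonneg fun _ _ => mul_nonneg (by positivity) (Finset.sum_nonneg fun _ _ =>
    mul_nonneg (by positivity) (by split_ifs <;> norm_num))

theorem KK_symm (G G' : omega d) : KK d G G' = KK d G' G := by
  classical
  by_cases h : G = G'
  · rw [h]
  have h' : G.1 ≠ G'.1 := fun e => h (Subtype.ext e)
  refine Finset.sum_congr rfl fun S _ => congrArg _ ?_
  refine Finset.sum_bijective Prod.swap Prod.swap_bijective (fun q => ?_) fun q hq => ?_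
  · simp only [mem_pmPairs, Prod.fst_swap, Prod.snd_swap]
    exact ⟨fun h => ⟨h.2.1, h.1, h.2.2.symm⟩, fun h => ⟨h.2.1, h.1, h.2.2.symm⟩⟩
  · obtain ⟨a, b, -⟩ := mem_pmPairs.1 hq
    congr 1
    exact if_congr ⟨fun e => switch_back a b e h', fun e => switch_back b a e h'.symm⟩ rfl rfl

theorem KK_sum (hV : 4 ≤ Fintype.card V) (G : omega d) : ∑ G', KK d G G' = 1 := by
  classical
  unfold KK
  rw [Finset.sum_comm]
  have hc : (0 : ℝ) < (Fintype.card V).choose 4 := by exact_mod_cast Nat.choose_pos hV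
  rw [Finset.sum_congr rfl (g := fun _ => 1 / ((Fintype.card V).choose 4 : ℝ)) fun S hS => ?_]
  · rw [Finset.sum_const, Finset.card_powersetCard, Finset.card_univ, nsmul_eq_mul,
      mul_one_div_cancel hc.ne']
  · have h1 : (0 : ℝ) < (pmPairs S).card := by
      exact_mod_cast (card_pmPairs (Finset.mem_powersetCard.1 hS).2).1
    rw [← Finset.mul_sum, Finset.sum_comm, Finset.sum_congr rfl
      (g := fun _ => 1 / ((pmPairs S).card : ℝ)) fun q hq => ?_]
    · rw [Finset.sum_const, nsmul_eq_mul, mul_one_div_cancel h1.ne', mul_one]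
    · obtain ⟨a, b, -⟩ := mem_pmPairs.1 hq
      rw [← Finset.mul_sum, Finset.sum_eq_single ⟨_, switch_mem a b G⟩]
      · simp
      · intro G' _ hG'
        exact if_neg fun e => hG' (Subtype.ext e.symm)
      · simp

theorem KK_sw (hV : 4 ≤ Fintype.card V) {u v x y : V} (G : omega d) (hne : sw u v x y G ≠ G) :
    1 / ((Fintype.card V : ℝ) ^ 4 * 2 ^ 20) ≤ KK d G (sw u v x y G) := by
  classical
  obtain ⟨S, hS, q, hq, e⟩ := sw_switch G hne
  obtain ⟨c1, c2⟩ := card_pmPairs (Finset.mem_powersetCard.1 hS).2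
  refine le_trans ?_ (Finset.single_le_sum (f := fun S => 1 / ((Fintype.card V).choose 4 : ℝ) *
    ∑ q ∈ pmPairs S, 1 / ((pmPairs S).card : ℝ) *
      (if switch G.1 q.1 q.2 = (sw u v x y G).1 then 1 else 0)) (fun _ _ =>
    mul_nonneg (by positivity) (Finset.sum_nonneg fun _ _ =>
    mul_nonneg (by positivity) (by split_ifs <;> norm_num))) hS)
  have h1 := Finset.single_le_sum (f := fun q : Finset (Sym2 V) × Finset (Sym2 V) =>
    1 / ((pmPairs S).card : ℝ) * (if switch G.1 q.1 q.2 = (sw u v x y G).1 then 1 else 0))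
    (fun _ _ => mul_nonneg (by positivity) (by split_ifs <;> norm_num)) hq
  simp only [if_pos e, mul_one] at h1
  rw [← one_div_mul_one_div]
  refine mul_le_mul (one_div_le_one_div_of_le (by exact_mod_cast Nat.choose_pos hV)
    (by exact_mod_cast Nat.choose_le_pow _ _)) (le_trans (one_div_le_one_div_of_le
    (by exact_mod_cast c1) (by exact_mod_cast c2)) h1) (by positivity) (by positivity)

theorem contract (hV : 4 ≤ Fintype.card V) (f : omega d → ℝ) (hf : ∑ G, f G = 0) :
    ∑ G, (∑ G', chain d G G' * f G') ^ 2 ≤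
      (1 - 1 / ((Fintype.card V : ℝ) ^ 8 * 2 ^ 20)) * ∑ G, f G ^ 2 := by
  classical
  have n0 : (0 : ℝ) < Fintype.card V := by exact_mod_cast (by omega : 0 < Fintype.card V)
  have e1 : ∀ G, ∑ G', chain d G G' * f G' = (f G + ∑ G', KK d G G' * f G') / 2 := by
    intro G
    simp only [chain_eq, add_mul, Finset.sum_add_distrib, mul_assoc, ← Finset.mul_sum, ite_mul,
      one_mul, zero_mul, Finset.sum_ite_eq, Finset.mem_univ, if_true]
    ring
  have col : ∑ G, ∑ G', KK d G G' * f G' ^ 2 = ∑ G, f G ^ 2 := by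
    rw [Finset.sum_comm]
    refine Finset.sum_congr rfl fun G' _ => ?_
    rw [← Finset.sum_mul, Finset.sum_congr rfl fun G _ => KK_symm G G', KK_sum hV, one_mul]
  have e2 : ∑ G, (∑ G', KK d G G' * f G') ^ 2 ≤ ∑ G, f G ^ 2 := by
    rw [← col]
    refine Finset.sum_le_sum fun G _ => ?_
    have h1 : 0 ≤ ∑ G', KK d G G' * (f G' - ∑ G'', KK d G G'' * f G'') ^ 2 :=
      Finset.sum_nonneg fun G' _ => mul_nonneg (KK_nonneg _ _) (sq_nonneg _)
    generalize hm : ∑ G'', KK d G G'' * f G'' = m at h1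
    have h2 : ∑ G', KK d G G' * (f G' - m) ^ 2 = ∑ G', KK d G G' * f G' ^ 2 -
        2 * m * ∑ G', KK d G G' * f G' + m ^ 2 * ∑ G', KK d G G' := by
      simp only [Finset.mul_sum, ← Finset.sum_sub_distrib, ← Finset.sum_add_distrib]
      exact Finset.sum_congr rfl fun _ _ => by ring
    rw [h2, hm, KK_sum hV] at h1
    linarith
  have e3 : ∑ G, ∑ G', KK d G G' * (f G - f G') ^ 2 =
      2 * ∑ G, f G ^ 2 - 2 * ∑ G, f G * ∑ G', KK d G G' * f G' := by
    have : ∑ G, ∑ G', KK d G G' * f G ^ 2 = ∑ G, f G ^ 2 :=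
      Finset.sum_congr rfl fun G _ => by rw [← Finset.sum_mul, KK_sum hV, one_mul]
    rw [two_mul (∑ G, f G ^ 2)]
    conv_rhs => rw [← col]; enter [1, 1]; rw [col, ← this]
    simp only [Finset.mul_sum, ← Finset.sum_sub_distrib, ← Finset.sum_add_distrib]
    exact Finset.sum_congr rfl fun _ _ => Finset.sum_congr rfl fun _ _ => by ring
  have e4 : ∀ u v x y, ∑ G, (f G - f (sw u v x y G)) ^ 2 ≤
      ((Fintype.card V : ℝ) ^ 4 * 2 ^ 20) * ∑ G, ∑ G', KK d G G' * (f G - f G') ^ 2 := by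
    intro u v x y
    rw [Finset.mul_sum]
    refine Finset.sum_le_sum fun G _ => ?_
    have h1 := Finset.single_le_sum (f := fun G' => KK d G G' * (f G - f G') ^ 2)
      (fun G' _ => mul_nonneg (KK_nonneg _ _) (sq_nonneg _)) (mem_univ (sw u v x y G))
    refine le_trans ?_ (mul_le_mul_of_nonneg_left h1 (by positivity))
    by_cases h : sw u v x y G = G
    · simp [h]
    · have h2 := KK_sw hV G h
      rw [div_le_iff₀ (by positivity)] at h2
      nlinarith [sq_nonneg (f G - f (sw u v x y G))]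
  have e5 := (poincare f hf).trans (Finset.sum_le_sum fun u _ => Finset.sum_le_sum fun v _ =>
    Finset.sum_le_sum fun x _ => Finset.sum_le_sum fun y _ => e4 u v x y)
  simp only [Finset.sum_const, Finset.card_univ, nsmul_eq_mul] at e5
  have e6 : ip f f = ∑ G, f G ^ 2 := Finset.sum_congr rfl fun _ _ => (sq _).symm
  have e7 : ∑ G, (∑ G', chain d G G' * f G') ^ 2 = (∑ G, f G ^ 2 +
      2 * ∑ G, f G * ∑ G', KK d G G' * f G' + ∑ G, (∑ G', KK d G G' * f G') ^ 2) / 4 := by
    rw [Finset.mul_sum, ← Finset.sum_add_distrib, ← Finset.sum_add_distrib, Finset.sum_div]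
    exact Finset.sum_congr rfl fun G _ => by rw [e1]; ring
  rw [e6] at e5
  have e8 : 1 / ((Fintype.card V : ℝ) ^ 8 * 2 ^ 20) * ∑ G, f G ^ 2 ≤
      (∑ G, ∑ G', KK d G G' * (f G - f G') ^ 2) / 4 := by
    have : 0 ≤ ∑ G, f G ^ 2 := Finset.sum_nonneg fun _ _ => sq_nonneg _
    rw [one_div_mul_eq_div, div_le_div_iff₀ (by positivity) (by norm_num)]
    nlinarith
  rw [e7]
  linarith

theorem card_omega_le : (omega d).card ≤ 2 ^ (Fintype.card V ^ 2) := by
  classical
  refine (Finset.card_le_univ _).trans ((Fintype.card_le_of_injective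
    (fun G : SimpleGraph V => G.Adj) fun G G' e => SimpleGraph.ext e).trans (le_of_eq ?_))
  simp [← pow_mul, sq]

theorem mixed (hV : 4 ≤ Fintype.card V) :
    Fintype.card V ^ 8 * 2 ^ 20 * (Fintype.card V ^ 2 + 2) ∈ mixedTimes d := by
  classical
  intro G
  have n0 : (1 : ℝ) ≤ Fintype.card V := by exact_mod_cast (by omega : 1 ≤ Fintype.card V)
  set N : ℝ := ((omega d).card : ℝ) with hN
  have N1 : 1 ≤ N := by
    rw [hN]
    exact_mod_cast Finset.card_pos.2 ⟨G.1, G.2⟩
  set B : ℝ := (Fintype.card V : ℝ) ^ 8 * 2 ^ 20 with hB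
  have B1 : 1 ≤ B := one_le_mul_of_one_le_of_one_le (one_le_pow₀ n0) (by norm_num)
  have γ0 : 0 ≤ 1 - 1 / B := by
    rw [sub_nonneg, div_le_one (by linarith)]
    exact B1
  have csym : ∀ H H' : omega d, chain d H H' = chain d H' H := by
    intro H H'
    rw [chain_eq, chain_eq, KK_symm]
    simp only [eq_comm]
  have crow : ∀ H : omega d, ∑ H', chain d H H' = 1 := by
    intro H
    simp only [chain_eq, Finset.sum_add_distrib, ← Finset.mul_sum, KK_sum hV, Finset.sum_ite_eq,
      Finset.mem_univ, if_true]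
    norm_num
  have key : ∀ t : ℕ, ∑ H, ((chain d ^ t) G H - 1 / N) = 0 ∧
      ∑ H, ((chain d ^ t) G H - 1 / N) ^ 2 ≤ (1 - 1 / B) ^ t := by
    intro t
    induction t with
    | zero =>
      have a : ∀ H : omega d, ((1 : Matrix (omega d) (omega d) ℝ) G H - 1 / N) ^ 2 =
          (1 - 2 / N) * (if G = H then 1 else 0) + 1 / N ^ 2 := by
        intro H
        rw [Matrix.one_apply]
        split_ifs <;> ring
      simp only [pow_zero, a]
      simp only [Matrix.one_apply, Finset.sum_sub_distrib, Finset.sum_add_distrib,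
        ← Finset.mul_sum, Finset.sum_ite_eq, Finset.mem_univ, if_true, Finset.sum_const,
        Finset.card_univ, Fintype.card_coe, nsmul_eq_mul, ← hN]
      constructor
      · field_simp
        ring
      · have : N * (1 / N ^ 2) = 1 / N := by field_simp
        have h2 : 2 / N = 2 * (1 / N) := by ring
        have h3 : 0 ≤ 1 / N := by positivity
        linarith
    | succ t ih =>
      have a : ∀ H, (chain d ^ (t + 1)) G H - 1 / N =
          ∑ H', chain d H H' * ((chain d ^ t) G H' - 1 / N) := by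
        intro H
        simp only [mul_sub, Finset.sum_sub_distrib, ← Finset.sum_mul, crow, one_mul]
        rw [pow_succ, Matrix.mul_apply]
        congr 1
        exact Finset.sum_congr rfl fun H' _ => by rw [csym H H', mul_comm]
      simp only [a]
      constructor
      · rw [Finset.sum_comm, ← ih.1]
        refine Finset.sum_congr rfl fun H' _ => ?_
        rw [← Finset.sum_mul, Finset.sum_congr rfl fun H _ => csym H H', crow, one_mul]
      · rw [pow_succ']
        exact (contract hV _ ih.1).trans (mul_le_mul_of_nonneg_left ih.2 γ0)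
  set t := Fintype.card V ^ 8 * 2 ^ 20 * (Fintype.card V ^ 2 + 2) with ht
  have h1 := sq_sum_le_card_mul_sum_sq (s := univ)
    (f := fun H : omega d => |(chain d ^ t) G H - 1 / N|)
  simp only [sq_abs, Finset.card_univ, Fintype.card_coe, ← hN] at h1
  have h2 : (1 - 1 / B) ^ t ≤ Real.exp (-((Fintype.card V : ℝ) ^ 2 + 2)) := by
    refine (pow_le_pow_left₀ γ0 (Real.one_sub_le_exp_neg _) t).trans (le_of_eq ?_)
    rw [← Real.exp_nat_mul, ht]
    congr 1
    push_cast
    rw [hB]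
    field_simp
    norm_num
  have h3 : N ≤ Real.exp ((Fintype.card V : ℝ) ^ 2) := by
    have a : N ≤ 2 ^ (Fintype.card V ^ 2) := by
      rw [hN]
      exact_mod_cast card_omega_le
    refine a.trans ((pow_le_pow_left₀ (by norm_num) (show (2 : ℝ) ≤ Real.exp 1 by
      linarith [Real.add_one_le_exp (1 : ℝ)]) _).trans (le_of_eq ?_))
    rw [← Real.exp_nat_mul]
    simp
  have h4 : N * (1 - 1 / B) ^ t ≤ (1 / 2) ^ 2 := by
    refine (mul_le_mul h3 h2 (pow_nonneg γ0 _) (Real.exp_pos _).le).trans ?_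
    rw [← Real.exp_add, show (Fintype.card V : ℝ) ^ 2 + -((Fintype.card V : ℝ) ^ 2 + 2) =
      (2 : ℕ) * (-1 : ℝ) by push_cast; ring, Real.exp_nat_mul]
    refine pow_le_pow_left₀ (Real.exp_pos _).le ?_ 2
    rw [Real.exp_neg, ← one_div]
    exact one_div_le_one_div_of_le (by norm_num) (by linarith [Real.add_one_le_exp (1 : ℝ)])
  have h5 := h1.trans ((mul_le_mul_of_nonneg_left (key t).2 (by linarith)).trans h4)
  have h6 := (pow_le_pow_iff_left₀ (Finset.sum_nonneg fun _ _ => abs_nonneg _) (by norm_num)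
    two_ne_zero).1 h5
  unfold tvDist
  linarith

end Vale.Agent.P335
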