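import Vale.Agent.P335.Triple

namespace Vale.Agent.P335

open Finset

variable {Ω : Type*} [Fintype Ω]

/-- The complementary projection. -/
noncomputable def co (r : Setoid Ω) : (Ω → ℝ) →ₗ[ℝ] (Ω → ℝ) := LinearMap.id - cnd r

theorem co_apply (r : Setoid Ω) (f : Ω → ℝ) : co r f = f - cnd r f := rfl

theorem co_symm (r : Setoid Ω) (f g : Ω → ℝ) : ip (co r f) g = ip f (co r g) := by
  rw [co_apply, co_apply, ip_sub_left, ip_sub_right, cnd_symm]

theorem cnd_co (r : Setoid Ω) (f : Ω → ℝ) : cnd r (co r f) = 0 := by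
  rw [co_apply, map_sub, cnd_idem, sub_self]

theorem co_idem (r : Setoid Ω) (f : Ω → ℝ) : co r (co r f) = co r f := by
  rw [co_apply r (co r f), cnd_co, sub_zero]

theorem ip_co_self (r : Setoid Ω) (f : Ω → ℝ) : ip (co r f) (co r f) = ip f (co r f) := by
  rw [co_symm, co_idem]

theorem triple_ineq {C : Type*} [DecidableEq C] [Fintype C] (r1 r2 r3 : Setoid Ω)
    (K : Ω → Ω → Prop) (R1 R2 R3 : Ω → Finset C) (col : Ω → C → ℕ) (hK : ∀ ω, K ω ω)
    (k1 : ∀ ω₀ ω ω', K ω₀ ω → (r1 ω ω' ↔ K ω₀ ω' ∧ R1 ω = R1 ω'))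
    (k2 : ∀ ω₀ ω ω', K ω₀ ω → (r2 ω ω' ↔ K ω₀ ω' ∧ R2 ω = R2 ω'))
    (k3 : ∀ ω₀ ω ω', K ω₀ ω → (r3 ω ω' ↔ K ω₀ ω' ∧ R3 ω = R3 ω'))
    (hT : ∀ ω₀, Tri (fun ω : {ω // K ω₀ ω} => R1 ω.1) (fun ω => R2 ω.1) (fun ω => R3 ω.1)
      (col ω₀)) (f : Ω → ℝ) :
    0 ≤ ip (co r1 f) (co r2 f) + ip (co r1 f) (co r3 f) + ip (co r2 f) (co r3 f) := by
  classical
  have := spec_sq (co r1 + co r2 + co r3) (fun f g => by
    simp only [LinearMap.add_apply, ip_add_left, ip_add_right, co_symm]) ?_ f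
  · simp only [LinearMap.add_apply, ip_add_left, ip_add_right, ip_co_self] at this
    rw [ip_comm (co r2 f) (co r1 f), ip_comm (co r3 f) (co r1 f),
      ip_comm (co r3 f) (co r2 f)] at this
    linarith
  · intro l v v0 hv
    by_contra hl
    push Not at hl
    have l0 : 0 < l := by nlinarith
    have l1 : l < 1 := by nlinarith
    apply v0
    funext ω₀
    have := tri_eig (hT ω₀) (f := fun ω => v ω.1) (l := 3 - l) (by linarith) (by linarith) (by
      funext ω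
      have e := congrFun hv ω.1
      simp only [LinearMap.add_apply, co_apply, Pi.add_apply, Pi.sub_apply, Pi.smul_apply,
        smul_eq_mul] at e ⊢
      rw [cnd_restrict (r := r1) (fun ω ω' a b => ((k1 ω₀ ω ω' a).1 b).1) _
          (fun ω ω' => by rw [k1 ω₀ _ _ ω.2, Setoid.ker_def]; simp [ω'.2]),
        cnd_restrict (r := r2) (fun ω ω' a b => ((k2 ω₀ ω ω' a).1 b).1) _
          (fun ω ω' => by rw [k2 ω₀ _ _ ω.2, Setoid.ker_def]; simp [ω'.2]),
        cnd_restrict (r := r3) (fun ω ω' a b => ((k3 ω₀ ω ω' a).1 b).1) _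
          (fun ω ω' => by rw [k3 ω₀ _ _ ω.2, Setoid.ker_def]; simp [ω'.2])]
      linarith)
    exact congrFun this ⟨ω₀, hK ω₀⟩

theorem loss_bound {P A A' S : Setoid Ω} {D : Ω → Prop}
    (hA : ∀ ω ω', A ω ω' → P ω ω') (hS : ∀ ω ω', S ω ω' → P ω ω')
    (dA : ∀ ω ω', A ω ω' → (D ω ↔ D ω')) (dA' : ∀ ω ω', A' ω ω' → (D ω ↔ D ω'))
    (dS : ∀ ω ω', S ω ω' → (D ω ↔ D ω'))
    (cSA : ∀ f, cnd S (cnd A f) = cnd A (cnd S f))
    (conn : ∀ ω ω', D ω → D ω' → P ω ω' → ∃ ω₁, S ω ω₁ ∧ A ω₁ ω') (g : Ω → ℝ) :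
    ∑ ω, (chi D ω * cnd A' (cnd A (cnd S g)) ω) ^ 2 ≤
      ∑ ω, (chi D ω * cnd (P ⊓ Setoid.ker D) g ω) ^ 2 := by
  have e1 : chi D * cnd A (cnd S g) = chi D * cnd (P ⊓ Setoid.ker D) g := by
    have h1 : cnd (P ⊓ Setoid.ker D) (chi D * cnd A (cnd S g)) = chi D * cnd A (cnd S g) := by
      refine cnd_fix fun ω ω' h => ?_
      have h2 : D ω ↔ D ω' := iff_of_eq h.2
      by_cases h3 : D ω
      · obtain ⟨ω₁, a, b⟩ := conn ω ω' h3 (h2.1 h3) h.1
        rw [Pi.mul_apply, Pi.mul_apply, chi_congr h2, ← cnd_inv _ b, ← cSA, cnd_inv _ a]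
      · rw [Pi.mul_apply, Pi.mul_apply, chi_neg h3, chi_neg (mt h2.2 h3), zero_mul, zero_mul]
    rw [← h1, cnd_mul (r := P ⊓ Setoid.ker D) fun ω ω' h => chi_congr (iff_of_eq h.2),
      cnd_le (r := A) (r' := P ⊓ Setoid.ker D) fun ω ω' h => ⟨hA ω ω' h, propext (dA ω ω' h)⟩,
      cnd_le (r := S) (r' := P ⊓ Setoid.ker D) fun ω ω' h => ⟨hS ω ω' h, propext (dS ω ω' h)⟩]
  have e2 := ip_cnd_le A' (chi D * cnd A (cnd S g))
  rw [cnd_mul fun ω ω' h => chi_congr (dA' ω ω' h)] at e2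
  conv_rhs at e2 => rw [e1]
  simpa only [ip, sq, Pi.mul_apply] using e2

theorem pair_ineq {P P' A A' S : Setoid Ω} {D O : Ω → Prop}
    (hA : ∀ ω ω', A ω ω' → P ω ω') (hA' : ∀ ω ω', A' ω ω' → P' ω ω')
    (hS : ∀ ω ω', S ω ω' → P ω ω') (hS' : ∀ ω ω', S ω ω' → P' ω ω')
    (cPA' : ∀ f, cnd P (cnd A' f) = cnd A' (cnd P f))
    (cP'A : ∀ f, cnd P' (cnd A f) = cnd A (cnd P' f))
    (cAA' : ∀ f, cnd A (cnd A' f) = cnd A' (cnd A f))
    (cSA : ∀ f, cnd S (cnd A f) = cnd A (cnd S f))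
    (cSA' : ∀ f, cnd S (cnd A' f) = cnd A' (cnd S f))
    (oP : ∀ ω ω', P ω ω' → (O ω ↔ O ω')) (oP' : ∀ ω ω', P' ω ω' → (O ω ↔ O ω'))
    (oc : ∀ f ω, O ω → cnd P (cnd P' f) ω = cnd P' (cnd P f) ω)
    (ev : ∀ ω, ¬ O ω → ¬ D ω → (∀ ω', P ω ω' → A ω ω') ∨ (∀ ω', P' ω ω' → A' ω ω'))
    (dA : ∀ ω ω', A ω ω' → (D ω ↔ D ω')) (dA' : ∀ ω ω', A' ω ω' → (D ω ↔ D ω'))
    (dS : ∀ ω ω', S ω ω' → (D ω ↔ D ω'))
    (conn : ∀ ω ω', D ω → D ω' → P ω ω' → ∃ ω₁, S ω ω₁ ∧ A ω₁ ω')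
    (conn' : ∀ ω ω', D ω → D ω' → P' ω ω' → ∃ ω₁, S ω ω₁ ∧ A' ω₁ ω') (f : Ω → ℝ) :
    ip (co S f) (co S f) - (∑ ω, (chi D ω * cnd (P ⊓ Setoid.ker D) (co P f) ω) ^ 2 +
      ∑ ω, (chi D ω * cnd (P' ⊓ Setoid.ker D) (co P' f) ω) ^ 2) / 2 ≤
      ip (co P f) (co P' f) := by
  have l1 := loss_bound hA hS dA dA' dS cSA conn (co P f)
  have l2 := loss_bound hA' hS' dA' dA dS cSA' conn' (co P' f)
  set g := cnd S f with hg
  set a := co S f with ha
  set F := cnd A (cnd A' g) with hF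
  have fa : f = a + g := by rw [ha, co_apply, sub_add_cancel]
  have Pa : cnd P a = 0 := by rw [ha, co_apply, map_sub, cnd_le hS, sub_self]
  have P'a : cnd P' a = 0 := by rw [ha, co_apply, map_sub, cnd_le hS', sub_self]
  have ag : ip a g = 0 := by rw [hg, ← cnd_symm, ha, cnd_co, ip_zero_left]
  have s1 : ip (co P f) (co P' f) = ip a a + ip (co P g) (co P' g) := by
    have b1 : ip a (cnd P g) = 0 := by rw [← cnd_symm, Pa, ip_zero_left]
    have b2 : ip a (cnd P' g) = 0 := by rw [← cnd_symm, P'a, ip_zero_left]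
    rw [fa, map_add, map_add, co_apply P a, co_apply P' a, Pa, P'a, sub_zero, ip_add_left,
      ip_add_right, ip_add_right, ip_comm (co P g) a, co_apply P g, co_apply P' g,
      ip_sub_right a, ip_sub_right a, ag, b1, b2]
    ring
  have Qsym : ∀ u v, ip (cnd A (cnd A' u)) v = ip u (cnd A (cnd A' v)) := by
    intro u v
    rw [cnd_symm, cnd_symm, cAA']
  have QF : cnd A (cnd A' F) = F := by rw [hF, ← cAA', cnd_idem, cnd_idem]
  have QP : ∀ u, cnd A (cnd A' (cnd P u)) = cnd P (cnd A (cnd A' u)) := by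
    intro u
    rw [cnd_le hA, cAA', cnd_le' hA, cPA']
  have QP' : ∀ u, cnd A (cnd A' (cnd P' u)) = cnd P' (cnd A (cnd A' u)) := by
    intro u
    rw [cnd_le' hA', cAA', cnd_le hA', cP'A]
  set k := g - F with hk
  have Qk : cnd A (cnd A' k) = 0 := by rw [hk, map_sub, map_sub, QF, sub_self]
  have orth : ∀ u v, cnd A (cnd A' u) = u → cnd A (cnd A' v) = 0 → ip u v = 0 := by
    intro u v hu hv
    rw [← hu, Qsym, hv, ip_zero_right]
  have s2 : ip (co P F) (co P' F) ≤ ip (co P g) (co P' g) := by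
    have e : g = F + k := by rw [hk, add_sub_cancel]
    have b1 : ip (co P F) (co P' k) = 0 := orth _ _
      (by rw [co_apply, map_sub, map_sub, QP, QF])
      (by rw [co_apply, map_sub, map_sub, QP', Qk, map_zero, sub_zero])
    have b2 : ip (co P' F) (co P k) = 0 := orth _ _
      (by rw [co_apply, map_sub, map_sub, QP', QF])
      (by rw [co_apply, map_sub, map_sub, QP, Qk, map_zero, sub_zero])
    have b3 : cnd P (cnd P' k) = 0 := by
      rw [← cnd_le' hA' k, ← cnd_le hA, QP', Qk, map_zero, map_zero]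
    have b4 : ip (cnd P k) (cnd P' k) = 0 := by rw [cnd_symm, b3, ip_zero_right]
    have b5 := ip_self_nonneg (k - cnd P k - cnd P' k)
    simp only [ip_sub_left, ip_sub_right, ip_cnd_self, b4, ip_comm (cnd P' k) (cnd P k),
      ip_comm (cnd P k) k, ip_comm (cnd P' k) k] at b5
    conv_rhs => rw [e, map_add, map_add, ip_add_left, ip_add_right, ip_add_right, b1,
      ip_comm (co P k) (co P' F), b2, co_apply P k, co_apply P' k]
    simp only [ip_sub_left, ip_sub_right, b4, ip_comm (cnd P k) k]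
    linarith
  have FA : ∀ ω ω', A ω ω' → F ω = F ω' := fun ω ω' h => cnd_inv _ h
  have FA' : ∀ ω ω', A' ω ω' → F ω = F ω' := fun ω ω' h => by
    rw [hF, cAA']
    exact cnd_inv _ h
  have s3 : 0 ≤ ip (chi O * co P F) (co P' F) := by
    have cP : ∀ u, cnd P (chi O * u) = chi O * cnd P u :=
      cnd_mul fun ω ω' h => chi_congr (oP ω ω' h)
    have cP' : ∀ u, cnd P' (chi O * u) = chi O * cnd P' u :=
      cnd_mul fun ω ω' h => chi_congr (oP' ω ω' h)
    have cc : cnd P (cnd P' (chi O * F)) = cnd P' (cnd P (chi O * F)) := by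
      rw [cP', cP, cP, cP']
      funext ω
      by_cases h : O ω
      · simp only [Pi.mul_apply, oc F ω h]
      · simp [chi_neg h]
    have e1 : ip (chi O * co P F) (co P' F) = ip (co P (chi O * F)) (co P' (chi O * F)) := by
      rw [← chi_mul_self, ip_mul]
      simp only [co_apply, cP, cP', mul_sub]
    have e2 : co P (co P' (chi O * F)) = co P' (co P (chi O * F)) := by
      simp only [co_apply, map_sub, cc]
      abel
    have e3 := ip_self_nonneg (co P (co P' (chi O * F)))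
    rw [ip_co_self, e2, ← co_symm, co_idem, ip_comm] at e3
    rw [e1]
    exact e3
  have s4 : ip (chi O * co P F) (co P' F) - (∑ ω, (chi D ω * co P F ω) ^ 2 +
      ∑ ω, (chi D ω * co P' F ω) ^ 2) / 2 ≤ ip (co P F) (co P' F) := by
    rw [ip, ip, ← Finset.sum_add_distrib, Finset.sum_div, ← Finset.sum_sub_distrib]
    refine Finset.sum_le_sum fun ω _ => ?_
    rw [Pi.mul_apply]
    by_cases h1 : O ω
    · rw [chi_pos h1]
      nlinarith [sq_nonneg (chi D ω * co P F ω), sq_nonneg (chi D ω * co P' F ω)]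
    · rw [chi_neg h1]
      by_cases h2 : D ω
      · rw [chi_pos h2]
        nlinarith [sq_nonneg (co P F ω + co P' F ω)]
      · rw [chi_neg h2]
        rcases ev ω h1 h2 with h3 | h3
        · have : co P F ω = 0 := by
            rw [co_apply, Pi.sub_apply, cnd_const fun ω' h => (FA ω ω' (h3 ω' h)).symm, sub_self]
          simp [this]
        · have : co P' F ω = 0 := by
            rw [co_apply, Pi.sub_apply, cnd_const fun ω' h => (FA' ω ω' (h3 ω' h)).symm, sub_self]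
          simp [this]
  have t1 : co P F = cnd A' (cnd A (cnd S (co P f))) := by
    have PF : cnd P F = cnd A (cnd A' (cnd P f)) := by rw [hF, ← QP, hg, cnd_le hS]
    rw [co_apply, co_apply, PF, ← cAA', map_sub, map_sub, map_sub, cnd_le' hS]
  have t2 : co P' F = cnd A (cnd A' (cnd S (co P' f))) := by
    have PF : cnd P' F = cnd A (cnd A' (cnd P' f)) := by rw [hF, ← QP', hg, cnd_le hS']
    rw [co_apply, co_apply, PF, map_sub, map_sub, map_sub, cnd_le' hS']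
  rw [← t1] at l1
  rw [← t2] at l2
  linarith

end Vale.Agent.P335
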