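import Vale.Agent.P335.Fam

namespace Vale.Agent.P335

open Finset

variable {C : Type*} [DecidableEq C] [Fintype C] {Y : Type*}

/-- The indicator of a finset. -/
def ind (S : Finset C) (c : C) : ℕ := if c ∈ S then 1 else 0

theorem ind_pos {S : Finset C} {c : C} (h : c ∈ S) : ind S c = 1 := if_pos h

theorem ind_neg {S : Finset C} {c : C} (h : c ∉ S) : ind S c = 0 := if_neg h

theorem ind_cases (S : Finset C) (c : C) : (c ∈ S ∧ ind S c = 1) ∨ (c ∉ S ∧ ind S c = 0) := by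
  by_cases h : c ∈ S
  · exact Or.inl ⟨h, ind_pos h⟩
  · exact Or.inr ⟨h, ind_neg h⟩

theorem sum_ind (S : Finset C) : ∑ c, ind S c = S.card := by simp [ind]

theorem sum_ind_inter (S A : Finset C) : ∑ c ∈ A, ind S c = (S ∩ A).card := by
  simp only [ind, Finset.sum_boole, Nat.cast_id]
  congr 1
  ext c
  simp [and_comm]

/-- Three-row zero-one matrices with prescribed margins. -/
structure Tri (R1 R2 R3 : Y → Finset C) (col : C → ℕ) : Prop where
  c1 : ∀ ω ω', (R1 ω).card = (R1 ω').card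
  c2 : ∀ ω ω', (R2 ω).card = (R2 ω').card
  c3 : ∀ ω ω', (R3 ω).card = (R3 ω').card
  hs : ∀ ω c, ind (R1 ω) c + ind (R2 ω) c + ind (R3 ω) c = col c
  inj : ∀ ω ω', R1 ω = R1 ω' → R2 ω = R2 ω' → R3 ω = R3 ω' → ω = ω'
  surj : ∀ ω S1 S2 S3, S1.card = (R1 ω).card → S2.card = (R2 ω).card → S3.card = (R3 ω).card →
    (∀ c, ind S1 c + ind S2 c + ind S3 c = col c) → ∃ ω', R1 ω' = S1 ∧ R2 ω' = S2 ∧ R3 ω' = S3

variable {R1 R2 R3 : Y → Finset C} {col : C → ℕ}

theorem Tri.rot (h : Tri R1 R2 R3 col) : Tri R2 R3 R1 col where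
  c1 := h.c2
  c2 := h.c3
  c3 := h.c1
  hs ω c := by rw [← h.hs ω c]; ring
  inj ω ω' a b c := h.inj ω ω' c a b
  surj ω S1 S2 S3 a b c d := by
    obtain ⟨ω', e1, e2, e3⟩ := h.surj ω S3 S1 S2 c a b fun x => by rw [← d x]; ring
    exact ⟨ω', e2, e3, e1⟩

theorem Tri.inj2 (h : Tri R1 R2 R3 col) {ω ω' : Y} (h1 : R1 ω = R1 ω') (h2 : R2 ω = R2 ω') :
    ω = ω' := by
  refine h.inj ω ω' h1 h2 ?_
  ext c
  have a := h.hs ω c
  have b := h.hs ω' c
  rw [h1, h2] at a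
  rcases ind_cases (R3 ω) c with ⟨p, q⟩ | ⟨p, q⟩ <;>
    rcases ind_cases (R3 ω') c with ⟨p', q'⟩ | ⟨p', q'⟩ <;> first | omega | simp [p, p']

theorem Tri.surj2 (h : Tri R1 R2 R3 col) (ω : Y) (S1 S2 : Finset C) (h1 : S1.card = (R1 ω).card)
    (h2 : S2.card = (R2 ω).card)
    (h3 : ∀ c, ind S1 c + ind S2 c ≤ col c ∧ col c ≤ ind S1 c + ind S2 c + 1) :
    ∃ ω', R1 ω' = S1 ∧ R2 ω' = S2 := by
  have h4 : ∀ c, ind S1 c + ind S2 c +
      ind (univ.filter fun c => col c = ind S1 c + ind S2 c + 1) c = col c := by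
    intro c
    have := h3 c
    rcases ind_cases (univ.filter fun c => col c = ind S1 c + ind S2 c + 1) c with
      ⟨p, q⟩ | ⟨p, q⟩ <;> simp only [Finset.mem_filter, Finset.mem_univ, true_and] at p <;> omega
  obtain ⟨ω', e1, e2, -⟩ := h.surj ω S1 S2 _ h1 h2 (by
    have a := Finset.sum_congr rfl fun c (_ : c ∈ univ) => h4 c
    have b := Finset.sum_congr rfl fun c (_ : c ∈ univ) => h.hs ω c
    simp only [Finset.sum_add_distrib, sum_ind] at a b
    omega) h4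
  exact ⟨ω', e1, e2⟩

theorem Tri.exists_swap (h : Tri R1 R2 R3 col) {x y : C} (hxy : col x = col y) :
    ∃ t : Y → Y, Function.Involutive t ∧ (∀ ω c, c ∈ R1 (t ω) ↔ Equiv.swap x y c ∈ R1 ω) ∧
      (∀ ω c, c ∈ R2 (t ω) ↔ Equiv.swap x y c ∈ R2 ω) ∧
      (∀ ω c, c ∈ R3 (t ω) ↔ Equiv.swap x y c ∈ R3 ω) := by
  have hm : ∀ (S : Finset C) c, c ∈ S.map (Equiv.swap x y).toEmbedding ↔
      Equiv.swap x y c ∈ S := fun S c => by simp [Finset.mem_map_equiv]
  have hi : ∀ (S : Finset C) c, ind (S.map (Equiv.swap x y).toEmbedding) c =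
      ind S (Equiv.swap x y c) := fun S c => by simp only [ind, hm]
  have := fun ω => h.surj ω ((R1 ω).map (Equiv.swap x y).toEmbedding)
    ((R2 ω).map (Equiv.swap x y).toEmbedding) ((R3 ω).map (Equiv.swap x y).toEmbedding)
    (Finset.card_map _) (Finset.card_map _) (Finset.card_map _) fun c => by
      rw [hi, hi, hi, h.hs, Equiv.swap_apply_def]
      split_ifs with h1 h2
      · rw [h1, hxy]
      · rw [h2, hxy]
      · rfl
  choose t t1 t2 t3 using this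
  refine ⟨t, fun ω => h.inj _ _ ?_ ?_ ?_, fun ω c => by rw [t1, hm], fun ω c => by rw [t2, hm],
    fun ω c => by rw [t3, hm]⟩
  · ext c
    rw [t1, hm, t1, hm, Equiv.swap_apply_self]
  · ext c
    rw [t2, hm, t2, hm, Equiv.swap_apply_self]
  · ext c
    rw [t3, hm, t3, hm, Equiv.swap_apply_self]

theorem eq_of_swap {S S' : Finset C} {x y : C} (h : ∀ c, c ∈ S' ↔ Equiv.swap x y c ∈ S)
    (hxy : x ∈ S ↔ y ∈ S) : S' = S := by
  ext c
  rw [h, Equiv.swap_apply_def]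
  split_ifs with h1 h2
  · rw [h1, hxy]
  · rw [h2, hxy]
  · rfl

variable [Fintype Y]

/-- The eigenvalue equations. -/
structure Eig (R1 R2 R3 : Y → Finset C) (φ1 φ2 φ3 : Y → ℝ) (μ : ℝ) : Prop where
  m1 : ∀ ω ω', R1 ω = R1 ω' → φ1 ω = φ1 ω'
  m2 : ∀ ω ω', R2 ω = R2 ω' → φ2 ω = φ2 ω'
  m3 : ∀ ω ω', R3 ω = R3 ω' → φ3 ω = φ3 ω'
  e1 : ∀ ω, μ * φ1 ω = cnd (Setoid.ker R1) (φ2 + φ3) ω
  e2 : ∀ ω, μ * φ2 ω = cnd (Setoid.ker R2) (φ3 + φ1) ω
  e3 : ∀ ω, μ * φ3 ω = cnd (Setoid.ker R3) (φ1 + φ2) ω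

variable {φ1 φ2 φ3 : Y → ℝ} {μ : ℝ}

theorem Eig.rot (h : Eig R1 R2 R3 φ1 φ2 φ3 μ) : Eig R2 R3 R1 φ2 φ3 φ1 μ :=
  ⟨h.m2, h.m3, h.m1, h.e2, h.e3, h.e1⟩

theorem key_swap (h : Tri R1 R2 R3 col) (he : Eig R1 R2 R3 φ1 φ2 φ3 μ) {x y : C}
    (hxy : col x = col y) {t : Y → Y} (ht : Function.Involutive t)
    (t1 : ∀ ω c, c ∈ R1 (t ω) ↔ Equiv.swap x y c ∈ R1 ω)
    (t2 : ∀ ω c, c ∈ R2 (t ω) ↔ Equiv.swap x y c ∈ R2 ω)
    (t3 : ∀ ω c, c ∈ R3 (t ω) ↔ Equiv.swap x y c ∈ R3 ω) {M : ℝ} (M0 : 0 ≤ M)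
    (h2 : ∀ ω, |φ2 ω - φ2 (t ω)| ≤ M) (h3 : ∀ ω, |φ3 ω - φ3 (t ω)| ≤ M) (ω : Y) :
    |μ * (φ1 ω - φ1 (t ω))| ≤ M := by
  by_cases hω : x ∈ R1 ω ↔ y ∈ R1 ω
  · rw [he.m1 _ _ (eq_of_swap (t1 ω) hω)]
    simpa using M0
  have e := cnd_equiv (r := Setoid.ker R1) (r' := Setoid.ker R1) ht.toPerm (fun ω ω' => by
    simp only [Setoid.ker_def, Function.Involutive.coe_toPerm]
    constructor
    · intro e
      ext c
      have := t1 ω (Equiv.swap x y c)
      rw [e, t1, Equiv.swap_apply_self] at this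
      exact this.symm
    · intro e
      ext c
      rw [t1, t1, e]) (φ2 + φ3) ω
  simp only [Function.Involutive.coe_toPerm] at e
  rw [mul_sub, he.e1, he.e1, ← e, ← Pi.sub_apply (cnd _ _), ← map_sub]
  refine cnd_abs_le fun ω' hω' => ?_
  have hω2 : R1 ω = R1 ω' := hω'
  rw [hω2] at hω
  simp only [Pi.sub_apply, Pi.add_apply, Function.comp_apply]
  by_cases a2 : x ∈ R2 ω' ↔ y ∈ R2 ω'
  · rw [he.m2 _ _ (eq_of_swap (t2 ω') a2), add_sub_add_left_eq_sub]
    exact h3 ω'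
  · have a3 : x ∈ R3 ω' ↔ y ∈ R3 ω' := by
      have b1 := h.hs ω' x
      have b2 := h.hs ω' y
      rcases ind_cases (R1 ω') x with ⟨p1, q1⟩ | ⟨p1, q1⟩ <;>
      rcases ind_cases (R1 ω') y with ⟨p2, q2⟩ | ⟨p2, q2⟩ <;>
      rcases ind_cases (R2 ω') x with ⟨p3, q3⟩ | ⟨p3, q3⟩ <;>
      rcases ind_cases (R2 ω') y with ⟨p4, q4⟩ | ⟨p4, q4⟩ <;>
      rcases ind_cases (R3 ω') x with ⟨p5, q5⟩ | ⟨p5, q5⟩ <;>
      rcases ind_cases (R3 ω') y with ⟨p6, q6⟩ | ⟨p6, q6⟩ <;>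
      first | omega | tauto
    rw [he.m3 _ _ (eq_of_swap (t3 ω') a3), add_sub_add_right_eq_sub]
    exact h2 ω'

theorem three_max {Z : Type*} [Fintype Z] (d1 d2 d3 : Z → ℝ) (hμ : 1 < μ)
    (h1 : ∀ M, 0 ≤ M → (∀ z, |d2 z| ≤ M) → (∀ z, |d3 z| ≤ M) → ∀ z, |μ * d1 z| ≤ M)
    (h2 : ∀ M, 0 ≤ M → (∀ z, |d3 z| ≤ M) → (∀ z, |d1 z| ≤ M) → ∀ z, |μ * d2 z| ≤ M)
    (h3 : ∀ M, 0 ≤ M → (∀ z, |d1 z| ≤ M) → (∀ z, |d2 z| ≤ M) → ∀ z, |μ * d3 z| ≤ M) :
    ∀ z, d1 z = 0 := by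
  set M := max ‖d1‖ (max ‖d2‖ ‖d3‖) with hM
  have M0 : 0 ≤ M := le_max_of_le_left (norm_nonneg _)
  have a1 : ∀ z, |d1 z| ≤ M := fun z => (norm_le_pi_norm d1 z).trans (le_max_left _ _)
  have a2 : ∀ z, |d2 z| ≤ M := fun z =>
    (norm_le_pi_norm d2 z).trans (le_max_of_le_right (le_max_left _ _))
  have a3 : ∀ z, |d3 z| ≤ M := fun z =>
    (norm_le_pi_norm d3 z).trans (le_max_of_le_right (le_max_right _ _))
  have μ0 : 0 < μ := by linarith
  have b : ∀ d : Z → ℝ, (∀ z, |μ * d z| ≤ M) → ‖d‖ ≤ M / μ := by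
    intro d hd
    refine (pi_norm_le_iff_of_nonneg (by positivity)).2 fun z => ?_
    have := hd z
    rw [abs_mul, abs_of_pos μ0] at this
    rw [le_div_iff₀ μ0, Real.norm_eq_abs]
    linarith
  have : M ≤ M / μ :=
    max_le (b _ (h1 M M0 a2 a3)) (max_le (b _ (h2 M M0 a3 a1)) (b _ (h3 M M0 a1 a2)))
  rw [le_div_iff₀ μ0] at this
  intro z
  have h4 : M = 0 := by nlinarith
  exact abs_nonpos_iff.1 (h4 ▸ a1 z)

theorem swap_inv (h : Tri R1 R2 R3 col) (he : Eig R1 R2 R3 φ1 φ2 φ3 μ) (hμ : 1 < μ) {x y : C}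
    (hxy : col x = col y) (ω : Y) (hx : x ∈ R1 ω) (hy : y ∉ R1 ω) :
    ∃ ω', R1 ω' = insert y ((R1 ω).erase x) ∧ φ1 ω' = φ1 ω := by
  obtain ⟨t, ht, t1, t2, t3⟩ := h.exists_swap hxy
  refine ⟨t ω, mem_swap_insert hx hy (t1 ω), ?_⟩
  have := three_max (fun ω => φ1 ω - φ1 (t ω)) (fun ω => φ2 ω - φ2 (t ω))
    (fun ω => φ3 ω - φ3 (t ω)) hμ
    (fun M M0 a b => key_swap h he hxy ht t1 t2 t3 M0 a b)
    (fun M M0 a b => key_swap h.rot he.rot hxy ht t2 t3 t1 M0 a b)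
    (fun M M0 a b => key_swap h.rot.rot he.rot.rot hxy ht t3 t1 t2 M0 a b) ω
  exact (sub_eq_zero.1 this).symm

/-- The number of columns of sum one in a set. -/
def kk (col : C → ℕ) (S : Finset C) : ℕ := (S ∩ univ.filter fun c => col c = 1).card

theorem reach (h : Tri R1 R2 R3 col) (he : Eig R1 R2 R3 φ1 φ2 φ3 μ) (hμ : 1 < μ) (ω : Y)
    (S' : Finset C) (h1 : ∀ c ∈ S', 1 ≤ col c) (h2 : ∀ c ∉ S', col c ≤ 2)
    (h3 : (R1 ω).card = S'.card) (h4 : kk col (R1 ω) = kk col S') :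
    ∃ ω', R1 ω' = S' ∧ φ1 ω' = φ1 ω := by
  refine swap_connect (univ.filter fun c => col c = 1) S'
    (fun S => ∃ ω', R1 ω' = S ∧ φ1 ω' = φ1 ω) ?_ (R1 ω) ⟨ω, rfl, rfl⟩ h3 h4
  rintro S x y ⟨ω', rfl, e⟩ x1 x2 y1 y2 hxy
  simp only [Finset.mem_filter, Finset.mem_univ, true_and] at hxy
  have a1 := h.hs ω' x
  have a2 := h.hs ω' y
  have a3 := h1 y y1
  have a4 := h2 x x2
  rw [ind_pos x1] at a1
  rw [ind_neg y2] at a2
  obtain ⟨ω'', e1, e2⟩ := swap_inv h he hμ (x := x) (y := y) (by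
    rcases ind_cases (R2 ω') y with ⟨-, q1⟩ | ⟨-, q1⟩ <;>
    rcases ind_cases (R3 ω') y with ⟨-, q2⟩ | ⟨-, q2⟩ <;> omega) ω' x1 y2
  exact ⟨ω'', e1, e2.trans e⟩

theorem Tri.col_ge (h : Tri R1 R2 R3 col) {ω : Y} {c : C} (hc : c ∈ R1 ω) : 1 ≤ col c := by
  have := h.hs ω c
  rw [ind_pos hc] at this
  omega

theorem Tri.col_le (h : Tri R1 R2 R3 col) {ω : Y} {c : C} (hc : c ∉ R1 ω) : col c ≤ 2 := by
  have := h.hs ω c
  rw [ind_neg hc] at this
  rcases ind_cases (R2 ω) c with ⟨-, q1⟩ | ⟨-, q1⟩ <;>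
    rcases ind_cases (R3 ω) c with ⟨-, q2⟩ | ⟨-, q2⟩ <;> omega

theorem size_inv (h : Tri R1 R2 R3 col) (he : Eig R1 R2 R3 φ1 φ2 φ3 μ) (hμ : 1 < μ) {ω ω' : Y}
    (h4 : kk col (R1 ω) = kk col (R1 ω')) : φ1 ω = φ1 ω' := by
  obtain ⟨ω'', e1, e2⟩ := reach h he hμ ω (R1 ω') (fun c hc => h.col_ge hc)
    (fun c hc => h.col_le hc) (h.c1 _ _) h4
  rw [← e2, he.m1 _ _ e1]

theorem Tri.kk_sum (h : Tri R1 R2 R3 col) (ω : Y) :
    kk col (R1 ω) + kk col (R2 ω) + kk col (R3 ω) = (univ.filter fun c => col c = 1).card := by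
  simp only [kk, ← sum_ind_inter, ← Finset.sum_add_distrib, h.hs]
  rw [Finset.card_eq_sum_ones]
  exact Finset.sum_congr rfl fun c hc => (Finset.mem_filter.1 hc).2

theorem Tri.param (h : Tri R1 R2 R3 col) (E : Finset C) (u₀ : Y) (L W : Finset C)
    (hL : ∀ c, c ∈ L ↔ c ∉ E ∧ col c = ind (R1 u₀) c + 2)
    (hW : ∀ c, c ∈ W ↔ c ∉ E ∧ ind (R1 u₀) c + 1 ≤ col c) (U : Finset Y)
    (hU : ∀ u, u ∈ U ↔ R1 u = R1 u₀ ∧ R2 u ∩ E = R2 u₀ ∩ E) :
    Param U (fun u => R2 u \ E) L W (R2 u₀ \ E).card where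
  maps u hu := by
    obtain ⟨a, b⟩ := (hU u).1 hu
    refine mem_fam.2 ⟨fun c hc => ?_, fun c hc => ?_, ?_⟩
    · obtain ⟨p, q⟩ := (hL c).1 hc
      have := h.hs u c
      rw [a] at this
      refine Finset.mem_sdiff.2 ⟨?_, p⟩
      rcases ind_cases (R2 u) c with ⟨p1, q1⟩ | ⟨p1, q1⟩
      · exact p1
      · rcases ind_cases (R3 u) c with ⟨-, q2⟩ | ⟨-, q2⟩ <;> omega
    · obtain ⟨p, q⟩ := Finset.mem_sdiff.1 hc
      have := h.hs u c
      rw [a, ind_pos p] at this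
      exact (hW c).2 ⟨q, by omega⟩
    · have h1 := Finset.card_sdiff_add_card_inter (R2 u) E
      have h2 := Finset.card_sdiff_add_card_inter (R2 u₀) E
      have h3 := h.c2 u u₀
      rw [b] at h1
      omega
  inj u hu u' hu' e := by
    obtain ⟨a, b⟩ := (hU u).1 hu
    obtain ⟨a', b'⟩ := (hU u').1 hu'
    refine h.inj2 (a.trans a'.symm) ?_
    rw [← Finset.sdiff_union_inter (R2 u) E, ← Finset.sdiff_union_inter (R2 u') E, b, b']
    exact congrArg (· ∪ _) e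
  surj Z hZ := by
    obtain ⟨a, b, c⟩ := mem_fam.1 hZ
    have hd : Disjoint Z E := Finset.disjoint_left.2 fun x hx => ((hW x).1 (b hx)).1
    obtain ⟨u, e1, e2⟩ := h.surj2 u₀ (R1 u₀) (Z ∪ (R2 u₀ ∩ E)) rfl (by
      rw [Finset.card_union_of_disjoint (hd.mono_right Finset.inter_subset_right), c,
        Finset.card_sdiff_add_card_inter]) (fun x => by
      have h1 := h.hs u₀ x
      by_cases hx : x ∈ E
      · have : ind (Z ∪ (R2 u₀ ∩ E)) x = ind (R2 u₀) x := by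
          have : x ∉ Z := fun h' => Finset.disjoint_left.1 hd h' hx
          simp [ind, this, hx]
        rw [this]
        rcases ind_cases (R3 u₀) x with ⟨-, q2⟩ | ⟨-, q2⟩ <;> omega
      · have : ind (Z ∪ (R2 u₀ ∩ E)) x = ind Z x := by simp [ind, hx]
        rw [this]
        rcases ind_cases Z x with ⟨p1, q1⟩ | ⟨p1, q1⟩
        · have := ((hW x).1 (b p1)).2
          rcases ind_cases (R2 u₀) x with ⟨-, q3⟩ | ⟨-, q3⟩ <;>
            rcases ind_cases (R3 u₀) x with ⟨-, q2⟩ | ⟨-, q2⟩ <;> omega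
        · have : col x ≠ ind (R1 u₀) x + 2 := fun e => p1 (a ((hL x).2 ⟨hx, e⟩))
          rcases ind_cases (R2 u₀) x with ⟨-, q3⟩ | ⟨-, q3⟩ <;>
            rcases ind_cases (R3 u₀) x with ⟨-, q2⟩ | ⟨-, q2⟩ <;> omega)
    refine ⟨u, (hU u).2 ⟨e1, ?_⟩, ?_⟩
    · rw [e2, Finset.union_inter_distrib_right, Finset.disjoint_iff_inter_eq_empty.1 hd,
        Finset.empty_union, Finset.inter_assoc, Finset.inter_self]
    · show R2 u \ E = Z
      rw [e2, Finset.union_sdiff_distrib, hd.sdiff_eq_left,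
        Finset.sdiff_eq_empty_iff_subset.2 Finset.inter_subset_right, Finset.union_empty]

theorem key_size (h : Tri R1 R2 R3 col) (he : Eig R1 R2 R3 φ1 φ2 φ3 μ) (hμ : 1 < μ) {M : ℝ}
    (h2 : ∀ ω ω', kk col (R2 ω') = kk col (R2 ω) + 1 → |φ2 ω' - φ2 ω| ≤ M)
    (h3 : ∀ ω ω', kk col (R3 ω') = kk col (R3 ω) + 1 → |φ3 ω' - φ3 ω| ≤ M) {ω ω' : Y}
    (hk : kk col (R1 ω') = kk col (R1 ω) + 1) : |μ * (φ1 ω' - φ1 ω)| ≤ M := by
  classical
  set A : Finset C := univ.filter fun c => col c = 1 with hA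
  have mA : ∀ c, c ∈ A ↔ col c = 1 := fun c => by simp [hA]
  obtain ⟨x, x1, x2⟩ : ∃ x ∈ R1 ω' ∩ A, x ∉ R1 ω ∩ A :=
    Finset.exists_mem_notMem_of_card_lt_card (by unfold kk at hk; rw [← hA] at hk; omega)
  obtain ⟨y, y1, y2⟩ : ∃ y ∈ R1 ω \ A, y ∉ R1 ω' \ A := by
    refine Finset.exists_mem_notMem_of_card_lt_card ?_
    have a1 := Finset.card_sdiff_add_card_inter (R1 ω) A
    have a2 := Finset.card_sdiff_add_card_inter (R1 ω') A
    have a3 := h.c1 ω ω'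
    unfold kk at hk
    rw [← hA] at hk
    omega
  rw [Finset.mem_inter] at x1 x2
  rw [Finset.mem_sdiff] at y1 y2
  have x3 : x ∉ R1 ω := fun h' => x2 ⟨h', x1.2⟩
  have y3 : y ∉ R1 ω' := fun h' => y2 ⟨h', y1.2⟩
  have cx : col x = 1 := (mA x).1 x1.2
  have cy : col y = 2 := by
    have a1 := h.col_ge y1.1
    have a2 := h.col_le y3
    have a3 := mt (mA y).2 y1.2
    omega
  have hxy : x ≠ y := fun e => x3 (e ▸ y1.1)
  have x4 : x ∉ (R1 ω).erase y := fun h' => x3 (Finset.mem_of_mem_erase h')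
  obtain ⟨ω'', e1, e2⟩ := reach h he hμ ω' (insert x ((R1 ω).erase y)) (fun c hc => by
      rcases Finset.mem_insert.1 hc with rfl | hc
      · omega
      · exact h.col_ge (Finset.mem_of_mem_erase hc)) (fun c hc => by
      by_cases hc' : c = y
      · rw [hc', cy]
      · exact h.col_le fun h' => hc (Finset.mem_insert_of_mem (Finset.mem_erase.2 ⟨hc', h'⟩)))
    (by rw [Finset.card_insert_of_notMem x4, Finset.card_erase_add_one y1.1, h.c1 ω ω'])
    (by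
      rw [hk]
      unfold kk
      rw [← hA, Finset.insert_inter_of_mem x1.2, Finset.erase_inter,
        Finset.erase_eq_of_notMem fun h' => y1.2 (Finset.mem_inter.1 h').2,
        Finset.card_insert_of_notMem fun h' => x3 (Finset.mem_inter.1 h').1])
  have hk' : kk col (R1 ω'') = kk col (R1 ω) + 1 := by
    rw [e1]
    unfold kk
    rw [← hA, Finset.insert_inter_of_mem x1.2, Finset.erase_inter,
      Finset.erase_eq_of_notMem fun h' => y1.2 (Finset.mem_inter.1 h').2,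
      Finset.card_insert_of_notMem fun h' => x3 (Finset.mem_inter.1 h').1]
  rw [← e2, mul_sub, he.e1, he.e1, abs_sub_comm]
  set E : Finset C := {x, y} with hE
  set L : Finset C := univ.filter fun c => c ∉ E ∧ col c = ind (R1 ω) c + 2 with hL
  set W : Finset C := univ.filter fun c => c ∉ E ∧ ind (R1 ω) c + 1 ≤ col c with hW
  have indE : ∀ c, c ∉ E → ind (R1 ω'') c = ind (R1 ω) c := by
    intro c hc
    simp only [hE, Finset.mem_insert, Finset.mem_singleton, not_or] at hc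
    simp [ind, e1, hc.1, hc.2]
  have small : ∀ u, R1 u = R1 ω'' → x ∉ R2 u ∧ y ∈ R2 u := by
    intro u hu
    have a1 := h.hs u x
    have a2 := h.hs u y
    rw [hu, e1] at a1 a2
    rw [ind_pos (Finset.mem_insert_self _ _)] at a1
    rw [ind_neg (by simp [hxy.symm])] at a2
    constructor
    · intro h'
      rw [ind_pos h'] at a1
      omega
    · by_contra h'
      rw [ind_neg h'] at a2
      rcases ind_cases (R3 u) y with ⟨-, q2⟩ | ⟨-, q2⟩ <;> omega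
  have smallE : ∀ u, R1 u = R1 ω'' → R2 u ∩ E = {y} := by
    intro u hu
    obtain ⟨a, b⟩ := small u hu
    ext c
    simp only [hE, Finset.mem_inter, Finset.mem_insert, Finset.mem_singleton]
    constructor
    · rintro ⟨p, rfl | rfl⟩
      · exact absurd p a
      · rfl
    · rintro rfl
      exact ⟨b, Or.inr rfl⟩
  have P' := h.param E ω'' L W (fun c => by
      simp only [hL, Finset.mem_filter, Finset.mem_univ, true_and]
      exact and_congr_right fun hc => by rw [indE c hc]) (fun c => by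
      simp only [hW, Finset.mem_filter, Finset.mem_univ, true_and]
      exact and_congr_right fun hc => by rw [indE c hc]) (cls (Setoid.ker R1) ω'') (fun u => by
      rw [mem_cls, Setoid.ker_def]
      exact ⟨fun e => ⟨e.symm, by rw [smallE u e.symm, smallE ω'' rfl]⟩, fun e => e.1.symm⟩)
  have kE : ∀ u, kk col (R2 u) = ((R2 u \ E) ∩ A).card + ind (R2 u) x ∧
      (R2 u).card = (R2 u \ E).card + ind (R2 u) x + ind (R2 u) y := by
    intro u
    have a1 : ∀ B : Finset C, (R2 u ∩ B).card = ((R2 u \ E) ∩ B).card +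
        ∑ c ∈ E, ind (R2 u ∩ B) c := by
      intro B
      rw [sum_ind_inter, ← Finset.card_sdiff_add_card_inter (R2 u ∩ B) E]
      congr 2
      ext c
      simp only [Finset.mem_sdiff, Finset.mem_inter]
      tauto
    have a2 := a1 A
    have a3 := a1 univ
    rw [hE, Finset.sum_pair hxy] at a2 a3
    simp only [Finset.inter_univ] at a3
    have a4 : ind (R2 u ∩ A) x = ind (R2 u) x := by simp [ind, x1.2]
    have a5 : ind (R2 u ∩ A) y = 0 := by simp [ind, y1.2]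
    rw [a4, a5] at a2
    exact ⟨a2, by rw [a3, hE, add_assoc]⟩
  have rel : ∀ u u', R1 u = R1 ω → R1 u' = R1 ω'' → (R2 u \ E ⊆ R2 u' \ E ∨ R2 u' \ E ⊆ R2 u \ E) →
      |(φ2 + φ3) u - (φ2 + φ3) u'| ≤ M := by
    intro u u' hu hu' hc
    obtain ⟨a1, a2⟩ := kE u
    obtain ⟨b1, b2⟩ := kE u'
    rw [ind_neg (small u' hu').1] at b1 b2
    rw [ind_pos (small u' hu').2] at b2
    have c1 := h.c2 u u'
    have c2 := h.kk_sum u
    have c3 := h.kk_sum u'
    rw [hu] at c2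
    rw [hu', hk'] at c3
    have c4 : kk col (R2 u) = kk col (R2 u') ∨ kk col (R2 u) = kk col (R2 u') + 1 := by
      rcases hc with hc | hc <;> obtain ⟨d1, d2⟩ := card_inter_le_of_subset A hc <;>
      rcases ind_cases (R2 u) x with ⟨-, q1⟩ | ⟨-, q1⟩ <;>
      rcases ind_cases (R2 u) y with ⟨-, q2⟩ | ⟨-, q2⟩ <;> omega
    simp only [Pi.add_apply]
    rcases c4 with c4 | c4
    · rw [size_inv h.rot he.rot hμ c4, add_sub_add_left_eq_sub]
      exact h3 _ _ (by omega)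
    · rw [size_inv h.rot.rot he.rot.rot hμ (show kk col (R3 u) = kk col (R3 u') by omega),
        add_sub_add_right_eq_sub]
      exact h2 _ _ c4
  set m' := cnd (Setoid.ker R1) (φ2 + φ3) ω'' with hm'
  have piece : ∀ I : Finset C,
      |∑ u ∈ (cls (Setoid.ker R1) ω).filter fun u => R2 u ∩ E = I, ((φ2 + φ3) u - m')| ≤
        ∑ u ∈ (cls (Setoid.ker R1) ω).filter fun u => R2 u ∩ E = I, M := by
    intro I
    rcases ((cls (Setoid.ker R1) ω).filter fun u => R2 u ∩ E = I).eq_empty_or_nonempty with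
      hU | ⟨u₀, hu₀⟩
    · simp [hU]
    · have hu₁ := Finset.mem_filter.1 hu₀
      have hu₂ : R1 ω = R1 u₀ := mem_cls.1 hu₁.1
      have P := h.param E u₀ L W (fun c => by
          simp only [hL, Finset.mem_filter, Finset.mem_univ, true_and, hu₂]) (fun c => by
          simp only [hW, Finset.mem_filter, Finset.mem_univ, true_and, hu₂])
        ((cls (Setoid.ker R1) ω).filter fun u => R2 u ∩ E = I) (fun u => by
          rw [Finset.mem_filter, mem_cls, Setoid.ker_def, hu₂, hu₁.2, eq_comm])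
      have := avg_param P P' (φ2 + φ3) (M := M) (fun u hu u' hu' hc =>
        rel u u' (mem_cls.1 (Finset.mem_filter.1 hu).1).symm (mem_cls.1 hu').symm hc) ⟨u₀, hu₀⟩
        ⟨ω'', mem_cls.2 rfl⟩
      rw [Finset.sum_sub_distrib, Finset.sum_const, Finset.sum_const, nsmul_eq_mul, nsmul_eq_mul]
      exact this
  have tot := (Finset.abs_sum_le_sum_abs _ _).trans
    (Finset.sum_le_sum (s := (univ : Finset (Finset C))) fun I _ => piece I)
  rw [Finset.sum_fiberwise, Finset.sum_fiberwise, Finset.sum_sub_distrib, Finset.sum_const,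
    Finset.sum_const, nsmul_eq_mul, nsmul_eq_mul] at tot
  have c0 := card_cls_pos (Setoid.ker R1) ω
  rw [cnd_apply, div_sub' c0.ne', abs_div, abs_of_pos c0, div_le_iff₀ c0, mul_comm M]
  exact tot

theorem size_const (h : Tri R1 R2 R3 col) (he : Eig R1 R2 R3 φ1 φ2 φ3 μ) (hμ : 1 < μ) {ω ω' : Y}
    (hk : kk col (R1 ω') = kk col (R1 ω) + 1) : φ1 ω' = φ1 ω := by
  have key : ∀ {R1 R2 R3 : Y → Finset C} {φ1 φ2 φ3 : Y → ℝ}, Tri R1 R2 R3 col →
      Eig R1 R2 R3 φ1 φ2 φ3 μ → ∀ M, 0 ≤ M →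
      (∀ z : Y × Y, |if kk col (R2 z.2) = kk col (R2 z.1) + 1 then φ2 z.2 - φ2 z.1 else 0| ≤ M) →
      (∀ z : Y × Y, |if kk col (R3 z.2) = kk col (R3 z.1) + 1 then φ3 z.2 - φ3 z.1 else 0| ≤ M) →
      ∀ z : Y × Y,
        |μ * if kk col (R1 z.2) = kk col (R1 z.1) + 1 then φ1 z.2 - φ1 z.1 else 0| ≤ M := by
    intro R1 R2 R3 φ1 φ2 φ3 h he M M0 a b z
    split_ifs with hz
    · exact key_size h he hμ (fun ω ω' e => by simpa [e] using a (ω, ω'))
        (fun ω ω' e => by simpa [e] using b (ω, ω')) hz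
    · simpa using M0
  have := three_max _ _ _ hμ (key h he) (key h.rot he.rot) (key h.rot.rot he.rot.rot) (ω, ω')
  simpa [hk, sub_eq_zero] using this

theorem near_const (h : Tri R1 R2 R3 col) (he : Eig R1 R2 R3 φ1 φ2 φ3 μ) (hμ : 1 < μ) {ω ω' : Y}
    (h1 : kk col (R1 ω') ≤ kk col (R1 ω) + 1) (h2 : kk col (R1 ω) ≤ kk col (R1 ω') + 1) :
    φ1 ω' = φ1 ω := by
  rcases lt_trichotomy (kk col (R1 ω')) (kk col (R1 ω)) with h3 | h3 | h3
  · exact (size_const h he hμ (by omega)).symm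
  · exact size_inv h he hμ h3
  · exact size_const h he hμ (by omega)

theorem fiber_const (h : Tri R1 R2 R3 col) (he : Eig R1 R2 R3 φ1 φ2 φ3 μ) (hμ : 1 < μ) (ω : Y) :
    μ * φ1 ω = φ2 ω + φ3 ω := by
  rw [he.e1]
  refine cnd_const fun ω' hω' => ?_
  have e0 : R1 ω = R1 ω' := hω'
  obtain ⟨u, e1, e2, e3⟩ := swap_connect ∅ (R2 ω')
    (fun S => ∃ u, R1 u = R1 ω ∧ R2 u = S ∧ φ2 u + φ3 u = φ2 ω + φ3 ω) (by
      rintro S x y ⟨u, a, rfl, b⟩ x1 x2 y1 y2 -
      have y3 : y ∉ (R2 u).erase x := fun h' => y2 (Finset.mem_of_mem_erase h')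
      obtain ⟨u', p, q⟩ := h.surj2 u (R1 ω) (insert y ((R2 u).erase x)) (by rw [a])
        (by rw [Finset.card_insert_of_notMem y3, Finset.card_erase_add_one x1]) fun c => by
          have a1 := h.hs u c
          have a2 := h.hs ω' c
          rw [a] at a1
          rw [← e0] at a2
          have : ind (insert y ((R2 u).erase x)) c = ind (R2 u) c ∨
              ind (insert y ((R2 u).erase x)) c = ind (R2 ω') c := by
            by_cases c1 : c = y
            · right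
              rw [c1, ind_pos y1, ind_pos (Finset.mem_insert_self _ _)]
            · by_cases c2 : c = x
              · right
                rw [c2, ind_neg x2, ind_neg (by simp [c2 ▸ c1])]
              · left
                simp [ind, c1, c2]
          rcases ind_cases (R3 u) c with ⟨-, q1⟩ | ⟨-, q1⟩ <;>
          rcases ind_cases (R3 ω') c with ⟨-, q2⟩ | ⟨-, q2⟩ <;> omega
      refine ⟨u', p, q, ?_⟩
      have k1 := card_inter_le_of_subset (univ.filter fun c => col c = 1)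
        (Finset.erase_subset x (R2 u))
      have k2 := card_inter_le_of_subset (univ.filter fun c => col c = 1)
        (Finset.subset_insert y ((R2 u).erase x))
      rw [Finset.card_insert_of_notMem y3, ← q] at k2
      rw [← Finset.card_erase_add_one x1] at k1
      have k3 := h.kk_sum u
      have k4 := h.kk_sum u'
      rw [a] at k3
      rw [p] at k4
      unfold kk at k3 k4
      rw [← b, near_const h.rot he.rot hμ (ω := u) (ω' := u') (by unfold kk; omega)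
        (by unfold kk; omega), near_const h.rot.rot he.rot.rot hμ (ω := u) (ω' := u')
        (by unfold kk; omega) (by unfold kk; omega)]) (R2 ω) ⟨ω, rfl, rfl, rfl⟩ (h.c2 _ _)
    (by simp)
  rw [← h.inj2 (e1.trans e0) e2]
  exact e3

theorem tri_eig (h : Tri R1 R2 R3 col) {f : Y → ℝ} {l : ℝ} (l2 : 2 < l) (l3 : l < 3)
    (hf : cnd (Setoid.ker R1) f + cnd (Setoid.ker R2) f + cnd (Setoid.ker R3) f = l • f) :
    f = 0 := by
  have e : ∀ r : Setoid Y, l • cnd r f = cnd r (cnd (Setoid.ker R1) f) +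
      cnd r (cnd (Setoid.ker R2) f) + cnd r (cnd (Setoid.ker R3) f) := by
    intro r
    rw [← map_smul, ← hf, map_add, map_add]
  have he : Eig R1 R2 R3 (cnd (Setoid.ker R1) f) (cnd (Setoid.ker R2) f) (cnd (Setoid.ker R3) f)
      (l - 1) := by
    refine ⟨fun ω ω' h => cnd_inv f h, fun ω ω' h => cnd_inv f h, fun ω ω' h => cnd_inv f h,
      fun ω => ?_, fun ω => ?_, fun ω => ?_⟩
    · have := congrFun (e (Setoid.ker R1)) ω
      simp only [cnd_idem, Pi.add_apply, Pi.smul_apply, smul_eq_mul, map_add] at this ⊢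
      linarith
    · have := congrFun (e (Setoid.ker R2)) ω
      simp only [cnd_idem, Pi.add_apply, Pi.smul_apply, smul_eq_mul, map_add] at this ⊢
      linarith
    · have := congrFun (e (Setoid.ker R3)) ω
      simp only [cnd_idem, Pi.add_apply, Pi.smul_apply, smul_eq_mul, map_add] at this ⊢
      linarith
  funext ω
  have a1 := fiber_const h he (by linarith) ω
  have a2 := fiber_const h.rot he.rot (by linarith) ω
  have a3 := fiber_const h.rot.rot he.rot.rot (by linarith) ω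
  have a4 := congrFun hf ω
  simp only [Pi.add_apply, Pi.smul_apply, smul_eq_mul] at a4
  have a5 : (l - 3) * (l * f ω) = 0 := by
    rw [← a4]
    linarith
  rcases mul_eq_zero.1 a5 with a6 | a6
  · linarith
  · exact (mul_eq_zero.1 a6).resolve_left (by linarith)

end Vale.Agent.P335
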